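import Crest.Agent.Lib.SR.Split

set_option autoImplicit false

open MeasureTheory Set Filter Topology ProbabilityTheory
open scoped ENNReal unitInterval

namespace Crest.Agent.Lib.SR

section map

variable {ι κ : Type*} [DecidableEq ι] [DecidableEq κ]

lemma polyR_map (τ : ι ≃ κ) {ν : Finset ι → ℝ} {ν' : Finset κ → ℝ}
    (hν : ∀ A, ν' (A.map τ.toEmbedding) = ν A) (W : Finset ι) (x : ι → ℝ) :
    polyR ν' (W.map τ.toEmbedding) (x ∘ τ.symm) = polyR ν W x := by
  unfold polyR
  symm
  refine Finset.sum_bij' (fun A _ => A.map τ.toEmbedding) (fun B _ => B.map τ.symm.toEmbedding)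
    ?_ ?_ ?_ ?_ ?_
  · intro A hA
    rw [Finset.mem_powerset] at hA ⊢
    exact Finset.map_subset_map.mpr hA
  · intro B hB
    rw [Finset.mem_powerset] at hB ⊢
    intro i hi
    obtain ⟨c, hc, rfl⟩ := Finset.mem_map.mp hi
    obtain ⟨d, hd, rfl⟩ := Finset.mem_map.mp (hB hc)
    simpa using hd
  · intro A _
    ext i
    simp
  · intro B _
    ext i
    simp
  · intro A _
    rw [hν, Finset.prod_map]
    simp

/-- The tilted mean is natural under bijections of the index. -/
lemma meanTilt_map (τ : ι ≃ κ) {μ : Finset ι → ℝ} {μ' : Finset κ → ℝ}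
    (hμ : ∀ A, μ' (A.map τ.toEmbedding) = μ A) (W : Finset ι) (i : ι) (h : ι → ℝ) :
    meanTilt μ' (W.map τ.toEmbedding) (τ i) (h ∘ τ.symm) = meanTilt μ W i h := by
  unfold meanTilt
  have e : (fun j : κ => Real.exp ((h ∘ τ.symm) j)) = (fun j => Real.exp (h j)) ∘ τ.symm := rfl
  rw [e, polyR_map τ hμ, polyR_map τ (ν := fun S => if i ∈ S then μ S else 0)]
  intro A
  simp only [Finset.mem_map_equiv, Equiv.symm_apply_apply, hμ]

/-- Mass functions under a relabelling of the index. -/
lemma cyl_map (τ : ι ≃ κ) (W A : Finset ι) :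
    cyl (W.map τ.toEmbedding) (A.map τ.toEmbedding) = (fun ω : κ → Bool => ω ∘ τ) ⁻¹' cyl W A := by
  ext ω
  simp only [cyl, Set.mem_ofPred_eq, Finset.mem_map_equiv, Set.mem_preimage, Function.comp]
  constructor
  · intro h i hi
    have := h (τ i) (by simpa using hi)
    simpa using this
  · intro h c hc
    have := h (τ.symm c) hc
    simpa using this

end map

section fiid

variable {Γ : Type*} [Countable Γ] [DecidableEq Γ]

/-- The rule with labels read off a family of uniform variables. -/
noncomputable def fiidRule (a : Γ → (Γ → ℝ) → ℝ) (f : I → ℕ → I) (u : Γ → I) : Γ → Bool :=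
  Rule a (fun g => ((f (u g) 0 : I) : ℝ)) (fun q => f (u q.2) (q.1 + 1))

/-- The split of the labels: a stock of independent uniforms at each site. -/
lemma exists_split : ∃ f : I → ℕ → I, Measurable f ∧ (volume : Measure I).map f = Unif ℕ :=
  exists_map_volume_eq (Unif ℕ)

lemma measurable_rule_param {a : Γ → (Γ → ℝ) → ℝ} (ham : ∀ i, Measurable (a i)) :
    Measurable (fun p : (Γ → I) × (ℕ × Γ → I) => Rule a (fun g => ((p.1 g : I) : ℝ)) p.2) := by
  have h1 := measurable_Rule (Θ := Unit) (a := fun _ => a)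
    (fun i => (ham i).comp measurable_snd)
  have h2 : Measurable (fun p : (Γ → I) × (ℕ × Γ → I) =>
      (((), (fun g => ((p.1 g : I) : ℝ)), p.2) : Unit × (Γ → ℝ) × (ℕ × Γ → I))) := by
    apply measurable_const.prodMk
    apply Measurable.prodMk _ measurable_snd
    rw [measurable_pi_iff]
    intro g
    exact measurable_subtype_coe.comp ((measurable_pi_apply g).comp measurable_fst)
  have h3 := h1.comp h2
  exact h3

lemma measurable_fiidRule {a : Γ → (Γ → ℝ) → ℝ} (ham : ∀ i, Measurable (a i)) {f : I → ℕ → I}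
    (hf : Measurable f) : Measurable (fiidRule a f) := by
  have h1 := measurable_rule_param ham
  have h2 : Measurable (fun u : Γ → I => (((fun g => f (u g) 0), (fun q : ℕ × Γ => f (u q.2) (q.1 + 1))) :
      (Γ → I) × (ℕ × Γ → I))) := by
    apply Measurable.prodMk
    · rw [measurable_pi_iff]
      intro g
      exact (measurable_pi_apply 0).comp (hf.comp (measurable_pi_apply g))
    · rw [measurable_pi_iff]
      intro q
      exact (measurable_pi_apply _).comp (hf.comp (measurable_pi_apply q.2))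
  have h3 := h1.comp h2
  exact h3

/-- The law of the rule fed with independent labels, given the core theorem for every injective
labelling. -/
theorem map_fiidRule {a : Γ → (Γ → ℝ) → ℝ} (ham : ∀ i, Measurable (a i)) {f : I → ℕ → I}
    (hf : Measurable f) (hfmap : (volume : Measure I).map f = Unif ℕ) {ν : Measure (Γ → Bool)}
    (hcore : ∀ ρ : Γ → ℝ, Function.Injective ρ → (Unif (ℕ × Γ)).map (Rule a ρ) = ν) :
    (Unif Γ).map (fiidRule a f) = ν := by
  set E : (Γ → I) → Γ × ℕ → I := fun u q => f (u q.1) q.2 with hE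
  have hEm : Measurable E := by
    rw [measurable_pi_iff]
    intro q
    exact (measurable_pi_apply _).comp (hf.comp (measurable_pi_apply q.1))
  have hElaw : (Unif Γ).map E = Unif (Γ × ℕ) := unif_map_split hf hfmap
  set i₁ : Γ → Γ × ℕ := fun g => (g, 0) with hi₁
  set i₂ : ℕ × Γ → Γ × ℕ := fun q => (q.2, q.1 + 1) with hi₂
  have hinj1 : Function.Injective i₁ := fun x y h => (Prod.mk.inj h).1
  have hinj2 : Function.Injective i₂ := fun x y h => by
    have h' := Prod.mk.inj h
    exact Prod.ext (by simpa using h'.2) h'.1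
  have hdisj : ∀ a b, i₁ a ≠ i₂ b := fun a b h => by
    have h' := (Prod.mk.inj h).2
    simp at h'
  have hT := unif_map_prod hinj1 hinj2 hdisj
  have hTm : Measurable (fun x : Γ × ℕ → I => ((x ∘ i₁, x ∘ i₂) : (Γ → I) × (ℕ × Γ → I))) := by
    apply Measurable.prodMk
    · rw [measurable_pi_iff]
      intro a
      exact measurable_pi_apply _
    · rw [measurable_pi_iff]
      intro a
      exact measurable_pi_apply _
  set Ψ : (Γ → I) × (ℕ × Γ → I) → (Γ → Bool) :=
    fun p => Rule a (fun g => ((p.1 g : I) : ℝ)) p.2 with hΨ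
  have hΨm : Measurable Ψ := measurable_rule_param ham
  have hfac : fiidRule a f = (Ψ ∘ (fun x : Γ × ℕ → I => ((x ∘ i₁, x ∘ i₂) : (Γ → I) × (ℕ × Γ → I)))) ∘ E := by
    funext u
    rfl
  rw [hfac, ← Measure.map_map (hΨm.comp hTm) hEm, hElaw, ← Measure.map_map hΨm hTm, hT]
  ext B hB
  rw [Measure.map_apply hΨm hB, Measure.prod_apply (hΨm hB)]
  have hsec : ∀ᵐ r ∂(Unif Γ), (Unif (ℕ × Γ)) (Prod.mk r ⁻¹' (Ψ ⁻¹' B)) = ν B := by
    filter_upwards [ae_injective_labels] with r hr
    have h1 := hcore _ hr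
    have h2 : Measurable (Rule a (fun g => ((r g : I) : ℝ))) := by
      have h3 : Measurable (Prod.mk r : (ℕ × Γ → I) → (Γ → I) × (ℕ × Γ → I)) := measurable_prodMk_left
      have h4 := hΨm.comp h3
      exact h4
    rw [← h1, Measure.map_apply h2 hB]
    rfl
  rw [lintegral_congr_ae hsec]
  simp

end fiid

end Crest.Agent.Lib.SR
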