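import Crest.Prelude.Def_SpanningTrees

set_option autoImplicit false

open Crest.ProbabilityR.SpanningTrees

namespace Crest.Agent.Lib.SR

/-- The graph on the vertex set `S` with edge set `A`. -/
abbrev Hg (S : Finset ℕ) (A : Finset (Sym2 ℕ)) : SimpleGraph (S : Set ℕ) :=
  (SimpleGraph.fromEdgeSet (A : Set (Sym2 ℕ))).induce (S : Set ℕ)

lemma mem_edgesIn {G : SimpleGraph ℕ} {S : Finset ℕ} {e : Sym2 ℕ} :
    e ∈ edgesIn G S ↔ e ∈ S.sym2 ∧ e ∈ G.edgeSet := by
  unfold edgesIn
  classical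
  simp only [Finset.mem_filter]

lemma mk_mem_edgesIn {G : SimpleGraph ℕ} {S : Finset ℕ} {a b : ℕ} :
    s(a, b) ∈ edgesIn G S ↔ a ∈ S ∧ b ∈ S ∧ G.Adj a b := by
  rw [mem_edgesIn, Finset.mk_mem_sym2_iff, SimpleGraph.mem_edgeSet, and_assoc]

lemma edgesIn_mono (G : SimpleGraph ℕ) {S S' : Finset ℕ} (h : S ⊆ S') :
    edgesIn G S ⊆ edgesIn G S' := by
  intro e
  induction e using Sym2.ind with
  | _ a b =>
    rw [mk_mem_edgesIn, mk_mem_edgesIn]
    exact fun ⟨ha, hb, hab⟩ => ⟨h ha, h hb, hab⟩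

lemma Hg_adj {S : Finset ℕ} {A : Finset (Sym2 ℕ)} {a b : (S : Set ℕ)} :
    (Hg S A).Adj a b ↔ s(a.1, b.1) ∈ A ∧ a.1 ≠ b.1 := by
  simp [Hg, SimpleGraph.comap_adj, SimpleGraph.fromEdgeSet_adj]

lemma card_edgeSet_Hg {G : SimpleGraph ℕ} {S : Finset ℕ} {A : Finset (Sym2 ℕ)}
    (hA : A ⊆ edgesIn G S) : Nat.card (Hg S A).edgeSet = A.card := by
  have hinj : Function.Injective (Sym2.map (Subtype.val : ↥(S : Set ℕ) → ℕ)) :=
    Sym2.map.injective Subtype.val_injective
  have himg : (Sym2.map (Subtype.val : ↥(S : Set ℕ) → ℕ)) '' (Hg S A).edgeSet = (A : Set (Sym2 ℕ)) := by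
    ext e
    constructor
    · rintro ⟨e', he', rfl⟩
      induction e' using Sym2.ind with
      | _ a b =>
        rw [SimpleGraph.mem_edgeSet, Hg_adj] at he'
        exact he'.1
    · intro he
      induction e using Sym2.ind with
      | _ a b =>
        have hab := mk_mem_edgesIn.mp (hA he)
        refine ⟨s(⟨a, hab.1⟩, ⟨b, hab.2.1⟩), ?_, rfl⟩
        rw [SimpleGraph.mem_edgeSet, Hg_adj]
        exact ⟨he, hab.2.2.ne⟩
  rw [Nat.card_coe_set_eq, ← Set.ncard_image_of_injective _ hinj, himg, Set.ncard_coe_finset]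

/-- Trees of a piece: connected with the right number of edges. -/
theorem isSpanningTreeOn_iff {G : SimpleGraph ℕ} {S : Finset ℕ} {A : Finset (Sym2 ℕ)} :
    IsSpanningTreeOn G S A ↔ A ⊆ edgesIn G S ∧ (Hg S A).Connected ∧ A.card + 1 = S.card := by
  unfold IsSpanningTreeOn
  constructor
  · rintro ⟨hA, hT⟩
    refine ⟨hA, ?_⟩
    have := SimpleGraph.isTree_iff_connected_and_card.mp hT
    rw [card_edgeSet_Hg hA, Nat.card_coe_set_eq, Set.ncard_coe_finset] at this
    exact this
  · rintro ⟨hA, hC, hc⟩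
    refine ⟨hA, ?_⟩
    apply SimpleGraph.isTree_iff_connected_and_card.mpr
    rw [card_edgeSet_Hg hA, Nat.card_coe_set_eq, Set.ncard_coe_finset]
    exact ⟨hC, hc⟩

lemma connected_of_root {α : Type*} {H : SimpleGraph α} (r : α) (h : ∀ a, H.Reachable r a) :
    H.Connected :=
  haveI : Nonempty α := ⟨r⟩
  ⟨fun a b => (h a).symm.trans (h b)⟩

/-- A map which sends edges to edges or collapses them preserves reachability. -/
lemma reachable_of_collapse {α β : Type*} {H : SimpleGraph α} {H' : SimpleGraph β} (π : α → β)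
    (h : ∀ a b, H.Adj a b → π a = π b ∨ H'.Adj (π a) (π b)) {x y : α} (hxy : H.Reachable x y) :
    H'.Reachable (π x) (π y) := by
  obtain ⟨p⟩ := hxy
  induction p with
  | nil => exact SimpleGraph.Reachable.refl _
  | cons hadj _ ih =>
    rcases h _ _ hadj with e | e
    · rw [e]; exact ih
    · exact e.reachable.trans ih

section addVertex

variable {G : SimpleGraph ℕ} {S : Finset ℕ} {u v : ℕ}

/-- The edges at the new vertex `v`, except `s(u, v)`. -/
noncomputable def atV (G : SimpleGraph ℕ) (S : Finset ℕ) (u v : ℕ) : Finset (Sym2 ℕ) :=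
  by
    classical
    exact (edgesIn G (insert v S)).filter (fun e => v ∈ e ∧ e ≠ s(u, v))

lemma mem_atV {G : SimpleGraph ℕ} {S : Finset ℕ} {u v : ℕ} {e : Sym2 ℕ} :
    e ∈ atV G S u v ↔ e ∈ edgesIn G (insert v S) ∧ v ∈ e ∧ e ≠ s(u, v) := by
  unfold atV
  classical
  simp only [Finset.mem_filter]

lemma atV_subset : atV G S u v ⊆ edgesIn G (insert v S) :=
  fun _ he => (mem_atV.mp he).1

lemma mem_of_mem_edgesIn {e : Sym2 ℕ} {a : ℕ} (he : e ∈ edgesIn G S) (ha : a ∈ e) : a ∈ S :=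
  (Finset.mem_sym2_iff.mp (mem_edgesIn.mp he).1) a ha

lemma not_mem_atV_of_mem_edgesIn (hv : v ∉ S) {e : Sym2 ℕ} (he : e ∈ edgesIn G S) :
    e ∉ atV G S u v := fun h =>
  hv (mem_of_mem_edgesIn he (mem_atV.mp h).2.1)

lemma disjoint_atV (hv : v ∉ S) {F : Finset (Sym2 ℕ)} (hF : F ⊆ edgesIn G S) :
    Disjoint F (atV G S u v) := by
  rw [Finset.disjoint_left]
  exact fun e he => not_mem_atV_of_mem_edgesIn hv (hF he)

lemma g1_not_mem (hv : v ∉ S) {A : Finset (Sym2 ℕ)} (hA : A ⊆ edgesIn G S) : s(u, v) ∉ A :=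
  fun h => hv (mem_of_mem_edgesIn (hA h) (Sym2.mem_mk_right u v))

/-- Extending a tree by a pendant edge. -/
lemma tree_insert (hv : v ∉ S) (hu : u ∈ S) (huv : G.Adj u v) {A : Finset (Sym2 ℕ)}
    (hA : IsSpanningTreeOn G S A) :
    IsSpanningTreeOn G (insert v S) (insert s(u, v) A) ∧ Disjoint (insert s(u, v) A) (atV G S u v) := by
  classical
  obtain ⟨hsub, hconn, hcard⟩ := isSpanningTreeOn_iff.mp hA
  have hgA : s(u, v) ∉ A := g1_not_mem hv hsub
  constructor
  · rw [isSpanningTreeOn_iff]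
    refine ⟨?_, ?_, ?_⟩
    · intro e he
      rcases Finset.mem_insert.mp he with rfl | he
      · exact mk_mem_edgesIn.mpr ⟨Finset.mem_insert_of_mem hu, Finset.mem_insert_self _ _, huv⟩
      · exact edgesIn_mono G (Finset.subset_insert _ _) (hsub he)
    · have hu' : u ∈ ((insert v S : Finset ℕ) : Set ℕ) := by simp [hu]
      apply connected_of_root (⟨u, hu'⟩ : ((insert v S : Finset ℕ) : Set ℕ))
      rintro ⟨a, ha⟩
      have ha' : a = v ∨ a ∈ S := by simpa using ha
      by_cases hav : a = v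
      · subst hav
        apply SimpleGraph.Adj.reachable
        rw [Hg_adj]
        refine ⟨Finset.mem_coe.mp (Finset.mem_insert_self _ _), huv.ne⟩
      · have haS : a ∈ S := ha'.resolve_left hav
        have hr := hconn.preconnected (⟨u, hu⟩ : (S : Set ℕ)) ⟨a, haS⟩
        let φ : ↥(S : Set ℕ) → ↥((insert v S : Finset ℕ) : Set ℕ) :=
          fun x => ⟨x.1, by simp [x.2]⟩
        have := reachable_of_collapse (H := Hg S A) (H' := Hg (insert v S) (insert s(u, v) A)) φ
          (fun x y hxy => by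
            right
            rw [Hg_adj] at hxy ⊢
            exact ⟨Finset.mem_insert_of_mem hxy.1, hxy.2⟩) hr
        exact this
    · rw [Finset.card_insert_of_notMem hgA, Finset.card_insert_of_notMem hv, hcard]
  · rw [Finset.disjoint_left]
    intro e he
    rcases Finset.mem_insert.mp he with rfl | he
    · exact fun h => (mem_atV.mp h).2.2 rfl
    · exact not_mem_atV_of_mem_edgesIn hv (hsub he)

/-- A tree of the bigger piece avoiding the other edges at `v` contains `s(u, v)`. -/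
lemma g1_mem_of_tree (hv : v ∉ S) (hu : u ∈ S) {A : Finset (Sym2 ℕ)}
    (hA : IsSpanningTreeOn G (insert v S) A) (hd : Disjoint A (atV G S u v)) : s(u, v) ∈ A := by
  classical
  obtain ⟨hsub, hconn, _⟩ := isSpanningTreeOn_iff.mp hA
  have hvm : v ∈ ((insert v S : Finset ℕ) : Set ℕ) := by simp
  have hum : u ∈ ((insert v S : Finset ℕ) : Set ℕ) := by simp [hu]
  obtain ⟨p⟩ := hconn.preconnected (⟨v, hvm⟩ : ((insert v S : Finset ℕ) : Set ℕ)) ⟨u, hum⟩
  have hne : v ≠ u := fun h => hv (h ▸ hu)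
  cases p with
  | nil => exact absurd rfl hne
  | @cons _ w _ hadj _ =>
    rw [Hg_adj] at hadj
    have he := hadj.1
    by_contra hcon
    have hmem : s(v, w.1) ∈ atV G S u v := by
      rw [mem_atV]
      refine ⟨hsub he, Sym2.mem_mk_left _ _, ?_⟩
      intro h
      rw [h] at he
      exact hcon he
    exact (Finset.disjoint_left.mp hd) he hmem

lemma tree_erase (hv : v ∉ S) (hu : u ∈ S) {A : Finset (Sym2 ℕ)}
    (hA : IsSpanningTreeOn G (insert v S) A) (hd : Disjoint A (atV G S u v)) :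
    IsSpanningTreeOn G S (A.erase s(u, v)) := by
  classical
  obtain ⟨hsub, hconn, hcard⟩ := isSpanningTreeOn_iff.mp hA
  have hg := g1_mem_of_tree hv hu hA hd
  have hsub0 : A.erase s(u, v) ⊆ edgesIn G S := by
    intro e he
    obtain ⟨hne, heA⟩ := Finset.mem_erase.mp he
    have he1 := hsub heA
    have hnv : v ∉ e := fun hve =>
      (Finset.disjoint_left.mp hd) heA (mem_atV.mpr ⟨he1, hve, hne⟩)
    rw [mem_edgesIn] at he1 ⊢
    refine ⟨?_, he1.2⟩
    rw [Finset.mem_sym2_iff] at he1 ⊢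
    intro a ha
    have := he1.1 a ha
    rcases Finset.mem_insert.mp this with rfl | h
    · exact absurd ha hnv
    · exact h
  rw [isSpanningTreeOn_iff]
  refine ⟨hsub0, ?_, ?_⟩
  · -- the projection
    let π : ↥((insert v S : Finset ℕ) : Set ℕ) → ↥(S : Set ℕ) :=
      fun x => if h : x.1 ∈ S then ⟨x.1, h⟩ else ⟨u, hu⟩
    have hcol : ∀ a b, (Hg (insert v S) A).Adj a b →
        π a = π b ∨ (Hg S (A.erase s(u, v))).Adj (π a) (π b) := by
      intro a b hab
      rw [Hg_adj] at hab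
      by_cases he : s(a.1, b.1) = s(u, v)
      · left
        have hnotv : ∀ x : ((insert v S : Finset ℕ) : Set ℕ), x.1 = u ∨ x.1 = v → π x = ⟨u, hu⟩ := by
          intro x hx
          simp only [π]
          rcases hx with h | h
          · rw [dif_pos (by rw [h]; exact hu)]
            exact Subtype.ext h
          · rw [dif_neg (by rw [h]; exact hv)]
        have h1 : a.1 = u ∨ a.1 = v := by
          have : a.1 ∈ s(u, v) := he ▸ Sym2.mem_mk_left _ _
          simpa using this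
        have h2 : b.1 = u ∨ b.1 = v := by
          have : b.1 ∈ s(u, v) := he ▸ Sym2.mem_mk_right _ _
          simpa using this
        rw [hnotv a h1, hnotv b h2]
      · right
        have hmem : s(a.1, b.1) ∈ A.erase s(u, v) := Finset.mem_erase.mpr ⟨he, hab.1⟩
        obtain ⟨ha, hb, _⟩ := mk_mem_edgesIn.mp (hsub0 hmem)
        have hpa : π a = ⟨a.1, ha⟩ := by simp only [π]; rw [dif_pos ha]
        have hpb : π b = ⟨b.1, hb⟩ := by simp only [π]; rw [dif_pos hb]
        rw [hpa, hpb, Hg_adj]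
        exact ⟨hmem, hab.2⟩
    have hsurj : ∀ x : (S : Set ℕ), ∃ y, π y = x := by
      intro x
      refine ⟨⟨x.1, by simp [x.2]⟩, ?_⟩
      have hx : x.1 ∈ S := x.2
      simp only [π]
      rw [dif_pos hx]
    apply connected_of_root (⟨u, hu⟩ : (S : Set ℕ))
    intro a
    obtain ⟨y, rfl⟩ := hsurj a
    obtain ⟨y0, hy0⟩ := hsurj ⟨u, hu⟩
    rw [← hy0]
    exact reachable_of_collapse π hcol (hconn.preconnected y0 y)
  · have h1 := Finset.card_erase_of_mem hg
    have h2 : A.card = (A.erase s(u, v)).card + 1 := by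
      have := Finset.card_pos.mpr ⟨_, hg⟩
      omega
    rw [Finset.card_insert_of_notMem hv] at hcard
    omega

end addVertex

/-- Every nonempty proper subset of a connected piece has an adjacent vertex outside. -/
lemma exists_adj_outside {G : SimpleGraph ℕ} {S S' : Finset ℕ} (hsub : S ⊆ S')
    (hne : S.Nonempty) (hS' : (G.induce (S' : Set ℕ)).Connected) (hneq : S ≠ S') :
    ∃ u v, u ∈ S ∧ v ∈ S' ∧ v ∉ S ∧ G.Adj u v := by
  obtain ⟨a, ha⟩ := hne
  have hb : ∃ b, b ∈ S' ∧ b ∉ S := by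
    by_contra hcon
    push Not at hcon
    exact hneq (Finset.Subset.antisymm hsub hcon)
  obtain ⟨b, hbS', hbS⟩ := hb
  obtain ⟨p⟩ := hS'.preconnected (⟨a, hsub ha⟩ : (S' : Set ℕ)) ⟨b, hbS'⟩
  obtain ⟨d, _, hd1, hd2⟩ := p.exists_boundary_dart {x | x.1 ∈ S} ha hbS
  refine ⟨d.fst.1, d.snd.1, hd1, d.snd.2, hd2, ?_⟩
  exact d.adj

lemma connected_insert {G : SimpleGraph ℕ} {S : Finset ℕ} {u v : ℕ} (hu : u ∈ S) (huv : G.Adj u v)
    (hS : (G.induce (S : Set ℕ)).Connected) : (G.induce ((insert v S : Finset ℕ) : Set ℕ)).Connected := by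
  have hu' : u ∈ ((insert v S : Finset ℕ) : Set ℕ) := by simp [hu]
  apply connected_of_root (⟨u, hu'⟩ : ((insert v S : Finset ℕ) : Set ℕ))
  rintro ⟨a, ha⟩
  have ha' : a = v ∨ a ∈ S := by simpa using ha
  by_cases hav : a = v
  · subst hav
    exact SimpleGraph.Adj.reachable (by simpa using huv)
  · have haS : a ∈ S := ha'.resolve_left hav
    have hr := hS.preconnected (⟨u, hu⟩ : (S : Set ℕ)) ⟨a, haS⟩
    let φ : ↥(S : Set ℕ) → ↥((insert v S : Finset ℕ) : Set ℕ) :=
      fun x => ⟨x.1, by simp [x.2]⟩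
    have := reachable_of_collapse (H := G.induce (S : Set ℕ))
      (H' := G.induce ((insert v S : Finset ℕ) : Set ℕ)) φ
      (fun x y hxy => Or.inr (by simpa [φ] using hxy)) hr
    exact this

end Crest.Agent.Lib.SR
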