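import Crest.Prelude.Def_GraphTables
import Crest.Agent.Lib.SR.TreeCombi

set_option autoImplicit false

open MeasureTheory Set Filter Topology
open Crest.ProbabilityR.GraphTables

namespace Crest.Agent.Lib.SR

/-- The ball of radius `n` around `u` in a graph. -/
def ball (G : SimpleGraph ℕ) (u : ℕ) : ℕ → Set ℕ
  | 0 => {u}
  | n + 1 => ball G u n ∪ {w | ∃ y ∈ ball G u n, G.Adj y w}

/-- Connected and locally finite. -/
def Good (G : SimpleGraph ℕ) : Prop := G.Connected ∧ ∀ v, (G.neighborSet v).Finite

section graph

variable {G : SimpleGraph ℕ} {u : ℕ}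

lemma ball_succ_subset (n : ℕ) : ball G u n ⊆ ball G u (n + 1) := subset_union_left

lemma ball_mono (G : SimpleGraph ℕ) (u : ℕ) : Monotone (ball G u) :=
  monotone_nat_of_le_succ ball_succ_subset

lemma self_mem_ball (G : SimpleGraph ℕ) (u n : ℕ) : u ∈ ball G u n :=
  ball_mono G u (Nat.zero_le n) rfl

lemma ball_finite (hfin : ∀ v, (G.neighborSet v).Finite) (u n : ℕ) : (ball G u n).Finite := by
  induction n with
  | zero => exact finite_singleton u
  | succ n ih =>
    apply ih.union
    have : {w | ∃ y ∈ ball G u n, G.Adj y w} = ⋃ y ∈ ball G u n, G.neighborSet y := by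
      ext w
      simp
    rw [this]
    exact ih.biUnion (fun y _ => hfin y)

lemma exists_mem_ball_of_reachable {a b : ℕ} (h : G.Reachable a b) : ∃ n, b ∈ ball G a n := by
  obtain ⟨p⟩ := h
  induction p using SimpleGraph.Walk.rec with
  | nil => exact ⟨0, rfl⟩
  | @cons x y z hadj q ih =>
    -- rebuild: reachability from the front
    have key : ∀ {c d : ℕ} (r : G.Walk c d), ∃ n, d ∈ ball G c n := by
      intro c d r
      induction r using SimpleGraph.Walk.concatRec with
      | Hnil => exact ⟨0, rfl⟩
      | Hconcat q' hadj' ih' =>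
        obtain ⟨n, hn⟩ := ih'
        exact ⟨n + 1, Or.inr ⟨_, hn, hadj'⟩⟩
    exact key (SimpleGraph.Walk.cons hadj q)

lemma reachable_of_mem_ball {n w : ℕ} (h : w ∈ ball G u n) : G.Reachable u w := by
  induction n generalizing w with
  | zero =>
    have : w = u := h
    rw [this]
  | succ n ih =>
    rcases h with h | ⟨y, hy, hadj⟩
    · exact ih h
    · exact (ih hy).trans hadj.reachable

lemma connected_iff_ball : G.Connected ↔ ∀ a b, ∃ n, b ∈ ball G a n := by
  constructor
  · intro h a b
    exact exists_mem_ball_of_reachable (h.preconnected a b)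
  · intro h
    haveI : Nonempty ℕ := ⟨0⟩
    refine ⟨fun a b => ?_⟩
    obtain ⟨n, hn⟩ := h a b
    exact reachable_of_mem_ball hn

lemma reachable_inclusion {s t : Set ℕ} (hst : s ⊆ t) {a b : s} (h : (G.induce s).Reachable a b) :
    (G.induce t).Reachable ⟨a.1, hst a.2⟩ ⟨b.1, hst b.2⟩ := by
  have := reachable_of_collapse (H := G.induce s) (H' := G.induce t)
    (fun x : s => (⟨x.1, hst x.2⟩ : t)) (fun x y hxy => Or.inr (by simpa using hxy)) h
  exact this

lemma ball_induce_reachable (n : ℕ) (w : ball G u n) :
    (G.induce (ball G u n)).Reachable ⟨u, self_mem_ball G u n⟩ w := by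
  induction n with
  | zero =>
    obtain ⟨w, hw⟩ := w
    have : w = u := hw
    subst this
    exact SimpleGraph.Reachable.refl _
  | succ n ih =>
    obtain ⟨w, hw⟩ := w
    rcases hw with hw | ⟨y, hy, hadj⟩
    · exact reachable_inclusion (ball_succ_subset n) (ih ⟨w, hw⟩)
    · have h1 := reachable_inclusion (ball_succ_subset n) (ih ⟨y, hy⟩)
      refine h1.trans (SimpleGraph.Adj.reachable ?_)
      simpa using hadj

lemma ball_induce_connected (G : SimpleGraph ℕ) (u n : ℕ) : (G.induce (ball G u n)).Connected :=
  connected_of_root ⟨u, self_mem_ball G u n⟩ (ball_induce_reachable n)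

end graph

open Classical in
/-- The finite set with the given elements, or the empty set for infinite sets. -/
noncomputable def finsetOf (s : Set ℕ) : Finset ℕ := if h : s.Finite then h.toFinset else ∅

lemma coe_finsetOf {s : Set ℕ} (h : s.Finite) : (finsetOf s : Set ℕ) = s := by
  unfold finsetOf
  rw [dif_pos h, Set.Finite.coe_toFinset]

lemma mem_finsetOf {s : Set ℕ} (h : s.Finite) {w : ℕ} : w ∈ finsetOf s ↔ w ∈ s := by
  rw [← Finset.mem_coe, coe_finsetOf h]

section select

variable {Θ β : Type*} [MeasurableSpace Θ] [MeasurableSpace β]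

/-- A measurable choice among countably many measurable functions. -/
lemma measurable_select {C : Type*} [Countable C] (W : Θ → C) (hW : ∀ c, MeasurableSet {θ | W θ = c})
    (F : C → Θ → β) (hF : ∀ c, Measurable (F c)) : Measurable (fun θ => F (W θ) θ) := by
  intro B hB
  have : (fun θ => F (W θ) θ) ⁻¹' B = ⋃ c, ({θ | W θ = c} ∩ F c ⁻¹' B) := by
    ext θ
    simp only [mem_preimage, mem_iUnion, mem_inter_iff, Set.mem_ofPred_eq, exists_eq_left']
  rw [this]
  exact MeasurableSet.iUnion (fun c => (hW c).inter (hF c hB))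

lemma measurableSet_finite (P : Θ → Set ℕ) (hP : ∀ w, MeasurableSet {θ | w ∈ P θ}) :
    MeasurableSet {θ | (P θ).Finite} := by
  have : {θ | (P θ).Finite} = ⋃ s : Finset ℕ, ⋂ w : ℕ, ({θ | w ∈ P θ}ᶜ ∪ {θ | w ∈ s}) := by
    ext θ
    simp only [Set.mem_ofPred_eq, mem_iUnion, mem_iInter, mem_union, mem_compl_iff]
    constructor
    · intro h
      refine ⟨h.toFinset, fun w => ?_⟩
      by_cases hw : w ∈ P θ
      · right
        simpa using hw
      · left
        exact hw
    · rintro ⟨s, hs⟩
      apply s.finite_toSet.subset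
      intro w hw
      rcases hs w with h | h
      · exact absurd hw h
      · exact h
  rw [this]
  apply MeasurableSet.iUnion
  intro s
  apply MeasurableSet.iInter
  intro w
  exact (hP w).compl.union (MeasurableSet.const _)

lemma measurableSet_finsetOf (P : Θ → Set ℕ) (hP : ∀ w, MeasurableSet {θ | w ∈ P θ}) (s : Finset ℕ) :
    MeasurableSet {θ | finsetOf (P θ) = s} := by
  classical
  have hfin := measurableSet_finite P hP
  have heq : MeasurableSet {θ | P θ = (s : Set ℕ)} := by
    have : {θ | P θ = (s : Set ℕ)} = ⋂ w : ℕ, {θ | w ∈ P θ ↔ w ∈ s} := by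
      ext θ
      simp only [Set.mem_ofPred_eq, mem_iInter, Set.ext_iff, Finset.mem_coe]
    rw [this]
    apply MeasurableSet.iInter
    intro w
    by_cases hw : w ∈ s
    · have : {θ | w ∈ P θ ↔ w ∈ s} = {θ | w ∈ P θ} := by
        ext θ
        simp [hw]
      rw [this]
      exact hP w
    · have : {θ | w ∈ P θ ↔ w ∈ s} = {θ | w ∈ P θ}ᶜ := by
        ext θ
        simp [hw]
      rw [this]
      exact (hP w).compl
  by_cases hs : s = ∅
  · subst hs
    have : {θ | finsetOf (P θ) = ∅} = {θ | P θ = ((∅ : Finset ℕ) : Set ℕ)} ∪ {θ | (P θ).Finite}ᶜ := by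
      ext θ
      simp only [Set.mem_ofPred_eq, mem_union, mem_compl_iff]
      by_cases hf : (P θ).Finite
      · have h1 := coe_finsetOf hf
        constructor
        · intro h
          left
          rw [← h1, h]
        · rintro (h | h)
          · unfold finsetOf
            rw [dif_pos hf]
            apply Finset.coe_injective
            rw [Set.Finite.coe_toFinset, h]
          · exact absurd hf h
      · unfold finsetOf
        simp [hf]
    rw [this]
    exact heq.union hfin.compl
  · have : {θ | finsetOf (P θ) = s} = {θ | P θ = (s : Set ℕ)} := by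
      ext θ
      simp only [Set.mem_ofPred_eq]
      constructor
      · intro h
        by_cases hf : (P θ).Finite
        · rw [← h, coe_finsetOf hf]
        · unfold finsetOf at h
          rw [dif_neg hf] at h
          exact absurd h.symm hs
      · intro h
        have hf : (P θ).Finite := by
          rw [h]
          exact s.finite_toSet
        apply Finset.coe_injective
        rw [coe_finsetOf hf, h]
    rw [this]
    exact heq

end select

section tables

/-- The graph of a table. -/
abbrev gT (t : ℕ → ℕ → Bool) : SimpleGraph ℕ := graphOfTable t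

lemma gT_adj {t : ℕ → ℕ → Bool} {a b : ℕ} :
    (gT t).Adj a b ↔ a ≠ b ∧ (t a b = true ∨ t b a = true) := by
  simp [gT, graphOfTable, SimpleGraph.fromRel_adj]

lemma measurableSet_table_entry (a b : ℕ) (c : Bool) : MeasurableSet {t : ℕ → ℕ → Bool | t a b = c} := by
  have h : Measurable (fun t : ℕ → ℕ → Bool => t a b) :=
    (measurable_pi_apply b).comp (measurable_pi_apply a)
  exact h (measurableSet_singleton c)

lemma measurableSet_adj (a b : ℕ) : MeasurableSet {t : ℕ → ℕ → Bool | (gT t).Adj a b} := by
  have : {t : ℕ → ℕ → Bool | (gT t).Adj a b}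
      = {t | a ≠ b} ∩ ({t | t a b = true} ∪ {t | t b a = true}) := by
    ext t
    simp only [Set.mem_ofPred_eq, gT_adj, mem_inter_iff, mem_union]
  rw [this]
  exact (MeasurableSet.const _).inter
    ((measurableSet_table_entry a b true).union (measurableSet_table_entry b a true))

lemma measurableSet_mem_edgeSet (e : Sym2 ℕ) : MeasurableSet {t : ℕ → ℕ → Bool | e ∈ (gT t).edgeSet} := by
  induction e using Sym2.ind with
  | _ a b => simpa only [SimpleGraph.mem_edgeSet] using measurableSet_adj a b

lemma measurableSet_mem_ball (u w n : ℕ) : MeasurableSet {t : ℕ → ℕ → Bool | w ∈ ball (gT t) u n} := by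
  induction n generalizing w with
  | zero =>
    exact MeasurableSet.const _
  | succ n ih =>
    have : {t : ℕ → ℕ → Bool | w ∈ ball (gT t) u (n + 1)}
        = {t | w ∈ ball (gT t) u n} ∪ ⋃ y : ℕ, ({t | y ∈ ball (gT t) u n} ∩ {t | (gT t).Adj y w}) := by
      ext t
      simp only [ball, Set.mem_ofPred_eq, mem_union, mem_iUnion, mem_inter_iff]
    rw [this]
    exact (ih w).union (MeasurableSet.iUnion (fun y => (ih y).inter (measurableSet_adj y w)))

/-- The tables of good graphs are measurable. -/
lemma measurableSet_good : MeasurableSet {t : ℕ → ℕ → Bool | Good (gT t)} := by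
  have h1 : MeasurableSet {t : ℕ → ℕ → Bool | (gT t).Connected} := by
    have : {t : ℕ → ℕ → Bool | (gT t).Connected}
        = ⋂ a : ℕ, ⋂ b : ℕ, ⋃ n : ℕ, {t | b ∈ ball (gT t) a n} := by
      ext t
      simp only [Set.mem_ofPred_eq, mem_iInter, mem_iUnion, connected_iff_ball]
    rw [this]
    exact MeasurableSet.iInter (fun a => MeasurableSet.iInter (fun b =>
      MeasurableSet.iUnion (fun n => measurableSet_mem_ball a b n)))
  have h2 : MeasurableSet {t : ℕ → ℕ → Bool | ∀ v, ((gT t).neighborSet v).Finite} := by
    have : {t : ℕ → ℕ → Bool | ∀ v, ((gT t).neighborSet v).Finite}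
        = ⋂ v : ℕ, {t | ((gT t).neighborSet v).Finite} := by
      ext t
      simp only [Set.mem_ofPred_eq, mem_iInter]
    rw [this]
    apply MeasurableSet.iInter
    intro v
    apply measurableSet_finite
    intro w
    simpa only [SimpleGraph.mem_neighborSet] using measurableSet_adj v w
  exact h1.inter h2

/-- Functions of finitely many table entries are measurable. -/
lemma measurable_of_dep {β : Type*} [MeasurableSpace β] (S : Finset ℕ) (Ψ : (ℕ → ℕ → Bool) → β)
    (h : ∀ t t' : ℕ → ℕ → Bool, (∀ a ∈ S, ∀ b ∈ S, t a b = t' a b) → Ψ t = Ψ t') : Measurable Ψ := by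
  classical
  let R : (ℕ → ℕ → Bool) → (S → S → Bool) := fun t a b => t a.1 b.1
  let X : (S → S → Bool) → (ℕ → ℕ → Bool) := fun r a b =>
    if ha : a ∈ S then (if hb : b ∈ S then r ⟨a, ha⟩ ⟨b, hb⟩ else false) else false
  have hR : Measurable R := by
    rw [measurable_pi_iff]
    intro a
    rw [measurable_pi_iff]
    intro b
    exact (measurable_pi_apply b.1).comp (measurable_pi_apply a.1)
  have hΨ : Ψ = (Ψ ∘ X) ∘ R := by
    funext t
    apply h
    intro a ha b hb
    simp [X, R, ha, hb]
  rw [hΨ]
  exact (Measurable.of_discrete).comp hR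

end tables

end Crest.Agent.Lib.SR
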