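import Crest.Agent.Lib.SR.Resample

set_option autoImplicit false

open MeasureTheory Set Filter Topology
open scoped ENNReal unitInterval

namespace Crest.Agent.Lib.SR

variable {ι : Type*}

/-- Configurations which, inside `W`, are occupied exactly on `A`. -/
def cyl (W A : Finset ι) : Set (ι → Bool) := {ω | ∀ i ∈ W, (ω i = true ↔ i ∈ A)}

lemma measurableSet_cyl (W A : Finset ι) : MeasurableSet (cyl W A) := by
  classical
  have : cyl W A = ⋂ i ∈ W, {ω : ι → Bool | ω i = true ↔ i ∈ A} := by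
    ext ω
    simp [cyl]
  rw [this]
  apply Finset.measurableSet_biInter
  intro i _
  by_cases hi : i ∈ A
  · have : {ω : ι → Bool | ω i = true ↔ i ∈ A} = (fun ω : ι → Bool => ω i) ⁻¹' {true} := by
      ext ω
      simp [hi]
    rw [this]
    exact measurable_pi_apply i (measurableSet_singleton _)
  · have : {ω : ι → Bool | ω i = true ↔ i ∈ A} = (fun ω : ι → Bool => ω i) ⁻¹' {false} := by
      ext ω
      simp [hi]
    rw [this]
    exact measurable_pi_apply i (measurableSet_singleton _)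

/-- The mass function of a law on a finite window. -/
noncomputable def massW (ν : Measure (ι → Bool)) (W : Finset ι) : Finset ι → ℝ :=
  fun A => (ν (cyl W A)).toReal

/-- The tilted mean in a finite window. -/
noncomputable def aW [DecidableEq ι] (ν : Measure (ι → Bool)) (W : Finset ι) (i : ι) (h : ι → ℝ) : ℝ :=
  meanTilt (massW ν W) W i h

/-- Occupied sites inside a window. -/
noncomputable def suppW [DecidableEq ι] (W : Finset ι) (ω : ι → Bool) : Finset ι :=
  W.filter (fun i => ω i = true)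

section cylinder

variable [DecidableEq ι]

lemma suppW_mem_powerset (W : Finset ι) (ω : ι → Bool) : suppW W ω ∈ W.powerset :=
  Finset.mem_powerset.mpr (Finset.filter_subset _ _)

lemma mem_cyl_iff {W A : Finset ι} (hA : A ⊆ W) {ω : ι → Bool} :
    ω ∈ cyl W A ↔ suppW W ω = A := by
  constructor
  · intro h
    ext i
    simp only [suppW, Finset.mem_filter]
    constructor
    · rintro ⟨hi, hω⟩
      exact (h i hi).mp hω
    · intro hi
      exact ⟨hA hi, (h i (hA hi)).mpr hi⟩
  · rintro rfl i hi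
    simp [suppW, hi]

/-- Integrating a function of the occupied set in a window. -/
lemma lintegral_suppW (ν : Measure (ι → Bool)) (W : Finset ι) (Ξ : Finset ι → ℝ≥0∞) :
    ∫⁻ ω, Ξ (suppW W ω) ∂ν = ∑ A ∈ W.powerset, Ξ A * ν (cyl W A) := by
  have h1 : ∀ ω : ι → Bool, Ξ (suppW W ω)
      = ∑ A ∈ W.powerset, (cyl W A).indicator (fun _ => Ξ A) ω := by
    intro ω
    rw [Finset.sum_eq_single (suppW W ω)]
    · rw [Set.indicator_of_mem]
      exact (mem_cyl_iff (Finset.mem_powerset.mp (suppW_mem_powerset W ω))).mpr rfl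
    · intro A hA hne
      rw [Set.indicator_of_notMem]
      intro hmem
      exact hne ((mem_cyl_iff (Finset.mem_powerset.mp hA)).mp hmem).symm
    · intro h
      exact absurd (suppW_mem_powerset W ω) h
  simp_rw [h1]
  rw [lintegral_finsetSum]
  · apply Finset.sum_congr rfl
    intro A _
    rw [lintegral_indicator_const (measurableSet_cyl W A)]
  · intro A _
    exact measurable_const.indicator (measurableSet_cyl W A)

lemma sum_cyl_eq_one (ν : Measure (ι → Bool)) [IsProbabilityMeasure ν] (W : Finset ι) :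
    ∑ A ∈ W.powerset, ν (cyl W A) = 1 := by
  have h := lintegral_suppW ν W (fun _ => 1)
  simp only [lintegral_const, measure_univ, one_mul] at h
  exact h.symm

lemma massW_nonneg (ν : Measure (ι → Bool)) (W A : Finset ι) : 0 ≤ massW ν W A := ENNReal.toReal_nonneg

lemma ofReal_massW (ν : Measure (ι → Bool)) [IsProbabilityMeasure ν] (W A : Finset ι) :
    ENNReal.ofReal (massW ν W A) = ν (cyl W A) :=
  ENNReal.ofReal_toReal (measure_ne_top _ _)

lemma exists_massW_pos (ν : Measure (ι → Bool)) [IsProbabilityMeasure ν] (W : Finset ι) :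
    ∃ A ∈ W.powerset, 0 < massW ν W A := by
  by_contra hcon
  push Not at hcon
  have h0 : ∀ A ∈ W.powerset, ν (cyl W A) = 0 := by
    intro A hA
    have h1 := hcon A hA
    have h2 := ofReal_massW ν W A
    rw [ENNReal.ofReal_of_nonpos h1] at h2
    exact h2.symm
  have h3 := sum_cyl_eq_one ν W
  rw [Finset.sum_eq_zero h0] at h3
  exact zero_ne_one h3

end cylinder

section observations

/-- The true observations given a configuration and the channel noise. -/
noncomputable def obs (ω : ι → Bool) (V : ℕ × ι → I) : ℕ × ι → ℝ := fun q => Tc (bv (ω q.2)) (V q)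

/-- Observations through the zero channel. -/
noncomputable def obs0 (V : ℕ × ι → I) : ℕ × ι → ℝ := fun q => Tc 0 (V q)

lemma obs0_eq_hybrid [DecidableEq ι] : (obs0 : (ℕ × ι → I) → ℕ × ι → ℝ) = hybrid (fun _ => false) := by
  funext V q
  simp [obs0, hybrid]

lemma measurable_obs (ω : ι → Bool) : Measurable (obs ω) :=
  measurable_hybrid (fun q : ℕ × ι => ω q.2)

lemma measurable_obs0 : Measurable (obs0 : (ℕ × ι → I) → ℕ × ι → ℝ) := by
  rw [measurable_pi_iff]
  intro q
  have h1 : Measurable (fun V : ℕ × ι → I => ((V q : I) : ℝ)) :=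
    measurable_subtype_coe.comp (measurable_pi_apply q)
  exact measurable_Tc.comp (measurable_const.prodMk h1)

lemma obs_mem (ω : ι → Bool) (V : ℕ × ι → I) (q : ℕ × ι) : obs ω V q ∈ Icc (-1 : ℝ) 1 :=
  Tc_mem (bv_mem _) (V q).2

/-- The likelihood of a set of occupied sites, given the observations in `D`. -/
noncomputable def likD [DecidableEq ι] (D : Finset (ℕ × ι)) (A : Finset ι) (x : ℕ × ι → ℝ) : ℝ≥0∞ :=
  ∏ q ∈ D, if q.2 ∈ A then likE (x q) else 1

lemma measurable_likD [DecidableEq ι] (D : Finset (ℕ × ι)) (A : Finset ι) : Measurable (likD D A) := by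
  unfold likD
  apply Finset.measurable_prod
  intro q _
  by_cases h : q.2 ∈ A
  · simp only [h, if_true]
    exact measurable_likE.comp (measurable_pi_apply q)
  · simp only [h, if_false]
    exact measurable_const

variable [DecidableEq ι]

/-- One configuration: change of measure from the true observations to the zero channel. -/
lemma lintegral_obs (ω : ι → Bool) {W : Finset ι} {D : Finset (ℕ × ι)} (hD : ∀ q ∈ D, q.2 ∈ W)
    {g : (ℕ × ι → ℝ) → ℝ≥0∞} (hg : Measurable g)
    (hgD : ∀ x x', (∀ q ∈ D, x q = x' q) → g x = g x') :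
    ∫⁻ V, g (obs ω V) ∂(Unif (ℕ × ι))
      = ∫⁻ V, g (obs0 V) * likD D (suppW W ω) (obs0 V) ∂(Unif (ℕ × ι)) := by
  set σ' : ℕ × ι → Bool := fun q => decide (q ∈ D) && ω q.2 with hσ'
  have h1 : ∀ V, g (obs ω V) = g (hybrid σ' V) := by
    intro V
    apply hgD
    intro q hq
    simp [obs, hybrid, hσ', hq]
  simp_rw [h1]
  rw [lintegral_hybrid D σ' (fun q hq => by simp [hσ', hq]) hg, obs0_eq_hybrid]
  apply lintegral_congr
  intro V
  congr 1
  unfold likD
  apply Finset.prod_congr rfl
  intro q hq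
  have hqW := hD q hq
  have : (σ' q = true) ↔ q.2 ∈ suppW W ω := by
    simp [hσ', hq, suppW, hqW]
  by_cases h2 : σ' q = true
  · rw [if_pos h2, if_pos (this.mp h2)]
    simp [hybrid]
  · rw [if_neg h2, if_neg (fun h => h2 (this.mpr h))]

/-- Finite-window form of Bayes' rule. -/
lemma lintegral_window (ν : Measure (ι → Bool)) {W : Finset ι} {D : Finset (ℕ × ι)}
    (hD : ∀ q ∈ D, q.2 ∈ W) (Ψ : Finset ι → ℝ≥0∞)
    {g : (ℕ × ι → ℝ) → ℝ≥0∞} (hg : Measurable g)
    (hgD : ∀ x x', (∀ q ∈ D, x q = x' q) → g x = g x') :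
    ∫⁻ ω, Ψ (suppW W ω) * ∫⁻ V, g (obs ω V) ∂(Unif (ℕ × ι)) ∂ν
      = ∫⁻ V, g (obs0 V) * ∑ A ∈ W.powerset, Ψ A * ν (cyl W A) * likD D A (obs0 V) ∂(Unif (ℕ × ι)) := by
  have h1 : ∀ ω : ι → Bool, Ψ (suppW W ω) * ∫⁻ V, g (obs ω V) ∂(Unif (ℕ × ι))
      = (fun A => Ψ A * ∫⁻ V, g (obs0 V) * likD D A (obs0 V) ∂(Unif (ℕ × ι))) (suppW W ω) := by
    intro ω
    simp only
    rw [lintegral_obs ω hD hg hgD]
  have h3 := lintegral_suppW ν W
    (fun A => Ψ A * ∫⁻ V, g (obs0 V) * likD D A (obs0 V) ∂(Unif (ℕ × ι)))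
  refine (lintegral_congr h1).trans (h3.trans ?_)
  have hm : ∀ A, Measurable (fun V : ℕ × ι → I => g (obs0 V) * likD D A (obs0 V)) := fun A =>
    (hg.comp measurable_obs0).mul ((measurable_likD D A).comp measurable_obs0)
  have h2 : ∀ V : ℕ × ι → I, g (obs0 V) * ∑ A ∈ W.powerset, Ψ A * ν (cyl W A) * likD D A (obs0 V)
      = ∑ A ∈ W.powerset, (Ψ A * ν (cyl W A)) * (g (obs0 V) * likD D A (obs0 V)) := by
    intro V
    rw [Finset.mul_sum]
    apply Finset.sum_congr rfl
    intro A _
    ring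
  simp_rw [h2]
  rw [lintegral_finsetSum _ (fun A _ => (hm A).const_mul _)]
  apply Finset.sum_congr rfl
  intro A _
  rw [lintegral_const_mul _ (hm A)]
  ring

end observations

section past

/-- The strict order on observation indices: time first, then labels. -/
def prec (ρ : ι → ℝ) (q p : ℕ × ι) : Prop := q.1 < p.1 ∨ (q.1 = p.1 ∧ ρ q.2 < ρ p.2)

open Classical in
/-- Observations before `(k, i)` in the window `W`. -/
noncomputable def pastD (ρ : ι → ℝ) (k : ℕ) (i : ι) (W : Finset ι) : Finset (ℕ × ι) :=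
  ((Finset.range (k + 1)) ×ˢ W).filter (fun q => prec ρ q (k, i))

lemma mem_pastD {ρ : ι → ℝ} {k : ℕ} {i : ι} {W : Finset ι} {q : ℕ × ι} :
    q ∈ pastD ρ k i W ↔ q.2 ∈ W ∧ prec ρ q (k, i) := by
  simp only [pastD, Finset.mem_filter, Finset.mem_product, Finset.mem_range]
  constructor
  · rintro ⟨⟨_, h2⟩, h3⟩
    exact ⟨h2, h3⟩
  · rintro ⟨h2, h3⟩
    refine ⟨⟨?_, h2⟩, h3⟩
    rcases h3 with h | h
    · simp only at h
      omega
    · simp only at h
      omega

lemma pastD_subset_window {ρ : ι → ℝ} {k : ℕ} {i : ι} {W : Finset ι} :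
    ∀ q ∈ pastD ρ k i W, q.2 ∈ W := fun _ h => (mem_pastD.mp h).1

lemma pastD_mono {ρ : ι → ℝ} {k : ℕ} {i : ι} {W W' : Finset ι} (h : W ⊆ W') :
    pastD ρ k i W ⊆ pastD ρ k i W' := by
  intro q hq
  rw [mem_pastD] at hq ⊢
  exact ⟨h hq.1, hq.2⟩

lemma tilt_congr_past {ρ : ι → ℝ} {k : ℕ} {i j : ι} {x x' : ℕ × ι → ℝ}
    (h : ∀ q : ℕ × ι, q.2 = j → prec ρ q (k, i) → x q = x' q) :
    tilt ρ x k i j = tilt ρ x' k i j := by
  unfold tilt
  congr 1
  · apply Finset.sum_congr rfl
    intro m hm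
    rw [h (m, j) rfl (Or.inl (Finset.mem_range.mp hm))]
  · split_ifs with hlt
    · rw [h (k, j) rfl (Or.inr ⟨rfl, hlt⟩)]
    · rfl

variable [DecidableEq ι]

/-- The product of likelihoods over the past in a window is the exponential of the tilt. -/
lemma likD_pastD (ρ : ι → ℝ) (k : ℕ) (i : ι) {W A : Finset ι} (hA : A ⊆ W) (x : ℕ × ι → ℝ) :
    likD (pastD ρ k i W) A x = ENNReal.ofReal (Real.exp (∑ j ∈ A, tilt ρ x k i j)) := by
  classical
  unfold likD
  rw [← Finset.prod_filter]
  have hfilter : (pastD ρ k i W).filter (fun q => q.2 ∈ A)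
      = ((Finset.range (k + 1)) ×ˢ A).filter (fun q => prec ρ q (k, i)) := by
    ext q
    simp only [Finset.mem_filter, mem_pastD, Finset.mem_product, Finset.mem_range]
    constructor
    · rintro ⟨⟨_, h2⟩, h3⟩
      refine ⟨⟨?_, h3⟩, h2⟩
      rcases h2 with h | h
      · simp only at h
        omega
      · simp only at h
        omega
    · rintro ⟨⟨_, h2⟩, h3⟩
      exact ⟨⟨hA h2, h3⟩, h2⟩
  rw [hfilter]
  have hsum : ∀ j, tilt ρ x k i j = ∑ m ∈ Finset.range (k + 1),
      if prec ρ (m, j) (k, i) then ell (x (m, j)) else 0 := by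
    intro j
    rw [Finset.sum_range_succ]
    unfold tilt
    congr 1
    · apply Finset.sum_congr rfl
      intro m hm
      rw [if_pos (show prec ρ (m, j) (k, i) from Or.inl (Finset.mem_range.mp hm))]
    · have : prec ρ (k, j) (k, i) ↔ ρ j < ρ i := by
        simp [prec]
      simp only [this]
  have hprod : ∑ j ∈ A, tilt ρ x k i j
      = ∑ q ∈ ((Finset.range (k + 1)) ×ˢ A).filter (fun q => prec ρ q (k, i)), ell (x q) := by
    rw [Finset.sum_filter, Finset.sum_product_right]
    apply Finset.sum_congr rfl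
    intro j _
    exact hsum j
  rw [hprod, Real.exp_sum, ENNReal.ofReal_prod_of_nonneg (fun q _ => (Real.exp_pos _).le)]
  rfl

end past

section pointwise

variable [DecidableEq ι]

lemma prod_exp_eq (A : Finset ι) (h : ι → ℝ) :
    ∏ j ∈ A, Real.exp (h j) = Real.exp (∑ j ∈ A, h j) := by
  rw [Real.exp_sum]

/-- The partition function as an extended real. -/
lemma sum_mass_lik (ν : Measure (ι → Bool)) [IsProbabilityMeasure ν] (W : Finset ι) (h : ι → ℝ)
    (Ψ : Finset ι → ℝ) (hΨ : ∀ A, 0 ≤ Ψ A) :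
    ∑ A ∈ W.powerset, ENNReal.ofReal (Ψ A) * ν (cyl W A) * ENNReal.ofReal (Real.exp (∑ j ∈ A, h j))
      = ENNReal.ofReal (polyR (fun A => Ψ A * massW ν W A) W (fun j => Real.exp (h j))) := by
  unfold polyR
  rw [ENNReal.ofReal_sum_of_nonneg]
  · apply Finset.sum_congr rfl
    intro A _
    rw [prod_exp_eq, ← ofReal_massW ν W A, ← ENNReal.ofReal_mul (hΨ A),
      ENNReal.ofReal_mul (mul_nonneg (hΨ A) (massW_nonneg ν W A))]
  · intro A _
    apply mul_nonneg (mul_nonneg (hΨ A) (massW_nonneg ν W A))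
    rw [prod_exp_eq]
    exact (Real.exp_pos _).le

/-- Pointwise identity behind Bayes' rule. -/
lemma aW_mul_partition (ν : Measure (ι → Bool)) [IsProbabilityMeasure ν] (W : Finset ι) (i : ι)
    (h : ι → ℝ) :
    ENNReal.ofReal (aW ν W i h) * ∑ A ∈ W.powerset, 1 * ν (cyl W A) *
        ENNReal.ofReal (Real.exp (∑ j ∈ A, h j))
      = ∑ A ∈ W.powerset, (if i ∈ (A : Finset ι) then (1 : ℝ≥0∞) else 0) * ν (cyl W A) *
        ENNReal.ofReal (Real.exp (∑ j ∈ A, h j)) := by
  have h1 := sum_mass_lik ν W h (fun _ => 1) (fun _ => zero_le_one)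
  have h2 := sum_mass_lik ν W h (fun A => if i ∈ (A : Finset ι) then (1 : ℝ) else 0)
    (fun A => by split_ifs <;> norm_num)
  simp only [ENNReal.ofReal_one] at h1
  have e2 : ∀ A : Finset ι, ENNReal.ofReal (if i ∈ A then (1 : ℝ) else 0) = if i ∈ A then 1 else 0 := by
    intro A
    split_ifs <;> simp
  simp only [e2] at h2
  rw [h1, h2]
  have hZ : 0 < polyR (fun A => 1 * massW ν W A) W (fun j => Real.exp (h j)) := by
    apply polyR_pos (fun A => by simpa using massW_nonneg ν W A) (fun j _ => Real.exp_pos _)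
    obtain ⟨A, hA, hA0⟩ := exists_massW_pos ν W
    exact ⟨A, hA, by simpa using hA0⟩
  have hZ' : polyR (fun A => 1 * massW ν W A) W (fun j => Real.exp (h j))
      = polyR (massW ν W) W (fun j => Real.exp (h j)) := by
    simp only [one_mul]
  rw [hZ'] at hZ ⊢
  have hN : polyR (fun A => (if i ∈ (A : Finset ι) then (1 : ℝ) else 0) * massW ν W A) W
        (fun j => Real.exp (h j))
      = polyR (fun S => if i ∈ S then massW ν W S else 0) W (fun j => Real.exp (h j)) := by
    unfold polyR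
    apply Finset.sum_congr rfl
    intro A _
    simp only
    split_ifs <;> simp
  rw [hN]
  unfold aW meanTilt
  rw [← ENNReal.ofReal_mul]
  · rw [div_mul_cancel₀ _ hZ.ne']
  · apply div_nonneg _ hZ.le
    apply polyR_nonneg _ (fun j _ => Real.exp_pos _)
    intro S
    split_ifs
    · exact massW_nonneg _ _ _
    · exact le_rfl

end pointwise

end Crest.Agent.Lib.SR
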