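import Mathlib

set_option autoImplicit false

open Finset Matrix

namespace Crest.Agent.Lib.SR

variable {n E R : Type*} [Fintype n] [DecidableEq n] [Fintype E] [DecidableEq E] [CommRing R]

/-- The coefficient of the monomial `z^A` in `det (B diag(z) Bᵀ)`. -/
noncomputable def cbCoeff (B : Matrix n E R) (A : Finset E) : R :=
  ∑ f ∈ (Finset.univ : Finset (n → E)).filter (fun f => Finset.univ.image f = A),
    (∏ i, B i (f i)) * (B.submatrix id f).det

omit [Fintype E] in
lemma det_submatrix_eq_zero_of_not_injective (B : Matrix n E R) {f : n → E}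
    (hf : ¬ Function.Injective f) : (B.submatrix id f).det = 0 := by
  rw [Function.Injective] at hf
  push Not at hf
  obtain ⟨i, j, hij, hne⟩ := hf
  apply Matrix.det_zero_of_column_eq hne
  intro k
  simp [hij]

/-- **Cauchy–Binet**, weighted form. -/
theorem det_mul_diagonal_mul_transpose (B : Matrix n E R) (z : E → R) :
    (B * diagonal z * Bᵀ).det = ∑ A : Finset E, (∏ e ∈ A, z e) * cbCoeff B A := by
  -- entries of the product
  have hentry : ∀ i j, (B * diagonal z * Bᵀ) i j = ∑ e, B i e * z e * B j e := by
    intro i j
    rw [Matrix.mul_apply]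
    apply Finset.sum_congr rfl
    intro e _
    rw [Matrix.mul_diagonal, Matrix.transpose_apply]
  have h1 : (B * diagonal z * Bᵀ).det
      = ∑ f : n → E, (∏ i, z (f i)) * (∏ i, B i (f i)) * (B.submatrix id f).det := by
    rw [Matrix.det_apply]
    simp_rw [hentry, Finset.prod_univ_sum, Fintype.piFinset_univ, Finset.smul_sum]
    rw [Finset.sum_comm]
    apply Finset.sum_congr rfl
    intro f _
    rw [Matrix.det_apply, Finset.mul_sum]
    apply Finset.sum_congr rfl
    intro σ' _
    simp only [Finset.prod_mul_distrib, Matrix.submatrix_apply, id]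
    rw [Units.smul_def, Units.smul_def, zsmul_eq_mul, zsmul_eq_mul]
    ring
  rw [h1]
  have h2 : ∀ f : n → E, (∏ i, z (f i)) * (∏ i, B i (f i)) * (B.submatrix id f).det
      = (∏ e ∈ Finset.univ.image f, z e) * ((∏ i, B i (f i)) * (B.submatrix id f).det) := by
    intro f
    by_cases hf : Function.Injective f
    · rw [Finset.prod_image (fun x _ y _ h => hf h)]
      ring
    · rw [det_submatrix_eq_zero_of_not_injective B hf]
      simp
  simp_rw [h2]
  rw [← Finset.sum_fiberwise (s := (Finset.univ : Finset (n → E))) (g := fun f => Finset.univ.image f)]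
  apply Finset.sum_congr rfl
  intro A _
  unfold cbCoeff
  rw [Finset.mul_sum]
  apply Finset.sum_congr rfl
  intro f hf
  rw [(Finset.mem_filter.mp hf).2]

/-- If no injective map has image `A`, the coefficient vanishes. -/
lemma cbCoeff_eq_zero (B : Matrix n E R) {A : Finset E} (hA : A.card ≠ Fintype.card n) :
    cbCoeff B A = 0 := by
  unfold cbCoeff
  apply Finset.sum_eq_zero
  intro f hf
  have himg := (Finset.mem_filter.mp hf).2
  have hninj : ¬ Function.Injective f := by
    intro hinj
    apply hA
    rw [← himg, Finset.card_image_of_injective _ hinj, Finset.card_univ]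
  rw [det_submatrix_eq_zero_of_not_injective B hninj, mul_zero]

/-- The coefficient is a square when `A` is the image of an injective map. -/
lemma cbCoeff_eq_sq (B : Matrix n E R) {g : n → E} (hg : Function.Injective g) :
    cbCoeff B (Finset.univ.image g) = ((B.submatrix id g).det) ^ 2 := by
  have hcard : (Finset.univ.image g).card = Fintype.card n := by
    rw [Finset.card_image_of_injective _ hg, Finset.card_univ]
  unfold cbCoeff
  -- reindex the fibre by permutations
  have hsum : ∑ f ∈ (Finset.univ : Finset (n → E)).filter
        (fun f => Finset.univ.image f = Finset.univ.image g),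
        (∏ i, B i (f i)) * (B.submatrix id f).det
      = ∑ τ : Equiv.Perm n, (∏ i, B i (g (τ i))) * (B.submatrix id (g ∘ τ)).det := by
    symm
    apply Finset.sum_bij (fun (τ : Equiv.Perm n) _ => g ∘ τ)
    · intro τ _
      rw [Finset.mem_filter]
      refine ⟨Finset.mem_univ _, ?_⟩
      ext e
      simp only [Finset.mem_image, Finset.mem_univ, true_and, Function.comp]
      constructor
      · rintro ⟨i, rfl⟩
        exact ⟨τ i, rfl⟩
      · rintro ⟨i, rfl⟩
        exact ⟨τ.symm i, by simp⟩
    · intro τ _ τ' _ h
      ext i
      have := congrFun h i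
      exact hg this
    · intro f hf
      have himg := (Finset.mem_filter.mp hf).2
      have hfinj : Function.Injective f := by
        have hc : (Finset.univ.image f).card = (Finset.univ : Finset n).card := by
          rw [himg, hcard, Finset.card_univ]
        have := Finset.card_image_iff.mp hc
        exact fun x y h => this (Finset.mem_coe.mpr (Finset.mem_univ x))
          (Finset.mem_coe.mpr (Finset.mem_univ y)) h
      have hex : ∀ i, ∃ j, g j = f i := by
        intro i
        have : f i ∈ Finset.univ.image g := by
          rw [← himg]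
          exact Finset.mem_image_of_mem _ (Finset.mem_univ _)
        obtain ⟨j, _, hj⟩ := Finset.mem_image.mp this
        exact ⟨j, hj⟩
      choose t ht using hex
      have htinj : Function.Injective t := by
        intro x y h
        apply hfinj
        rw [← ht x, ← ht y, h]
      have htbij : Function.Bijective t := Finite.injective_iff_bijective.mp htinj
      refine ⟨Equiv.ofBijective t htbij, Finset.mem_univ _, ?_⟩
      funext i
      simp [ht]
    · intro τ _
      rfl
  rw [hsum]
  have hdet : ∀ τ : Equiv.Perm n, (B.submatrix id (g ∘ τ)).det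
      = (Equiv.Perm.sign τ : ℤ) * (B.submatrix id g).det := by
    intro τ
    have : B.submatrix id (g ∘ τ) = (B.submatrix id g).submatrix id τ := rfl
    rw [this, Matrix.det_permute']
  simp_rw [hdet]
  have ht : (B.submatrix id g).det
      = ∑ τ : Equiv.Perm n, (Equiv.Perm.sign τ : ℤ) * ∏ i, B i (g (τ i)) := by
    rw [← Matrix.det_transpose, Matrix.det_apply]
    apply Finset.sum_congr rfl
    intro τ _
    rw [Units.smul_def, zsmul_eq_mul]
    congr 1
  calc ∑ τ : Equiv.Perm n, (∏ i, B i (g (τ i))) * ((Equiv.Perm.sign τ : ℤ) * (B.submatrix id g).det)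
      = (∑ τ : Equiv.Perm n, (Equiv.Perm.sign τ : ℤ) * ∏ i, B i (g (τ i))) * (B.submatrix id g).det := by
        rw [Finset.sum_mul]
        apply Finset.sum_congr rfl
        intro τ _
        ring
    _ = (B.submatrix id g).det * (B.submatrix id g).det := by rw [← ht]
    _ = _ := by rw [sq]

end Crest.Agent.Lib.SR
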