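import Mathlib

set_option autoImplicit false

open MeasureTheory Set Filter Topology
open scoped ENNReal unitInterval

namespace Crest.Agent.Lib.SR

/-- CDF of the channel with signal level `a`, on `[-1,1]`. -/
noncomputable def Fc (a s : ℝ) : ℝ := (s + 1) / 2 + (a - 1 / 2) * (s ^ 2 - 1) / 4

/-- Explicit inverse of the CDF `Fc a`. -/
noncomputable def Tc (a u : ℝ) : ℝ :=
  (a - 1 / 2 + 4 * u - 2) / (1 + Real.sqrt (1 + (a - 1 / 2) * (a - 1 / 2 + 4 * u - 2)))

/-- log-likelihood ratio of the two channel laws. -/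
noncomputable def ell (s : ℝ) : ℝ := Real.log (1 + s / 2) - Real.log (1 - s / 2)

/-- Clamp to the unit interval. -/
noncomputable def toUI (x : ℝ) : I := Set.projIcc 0 1 zero_le_one x

lemma toUI_coe {x : ℝ} (hx : x ∈ Icc (0 : ℝ) 1) : (toUI x : ℝ) = x := by
  unfold toUI
  rw [Set.projIcc_of_mem zero_le_one hx]

lemma measurable_Fc : Measurable (fun p : ℝ × ℝ => Fc p.1 p.2) := by
  unfold Fc
  fun_prop

lemma measurable_Tc : Measurable (fun p : ℝ × ℝ => Tc p.1 p.2) := by
  unfold Tc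
  apply Measurable.div
  · fun_prop
  · apply Measurable.add measurable_const
    apply Measurable.sqrt
    fun_prop

lemma measurable_ell : Measurable ell := by
  unfold ell
  apply Measurable.sub
  · exact Real.measurable_log.comp (by fun_prop)
  · exact Real.measurable_log.comp (by fun_prop)

lemma measurable_toUI : Measurable toUI := by
  unfold toUI
  exact continuous_projIcc.measurable

section algebra

variable {a a' u s s' : ℝ}

lemma disc_nonneg (ha : a ∈ Icc (0 : ℝ) 1) (hu : u ∈ Icc (0 : ℝ) 1) :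
    0 ≤ 1 + (a - 1 / 2) * (a - 1 / 2 + 4 * u - 2) := by
  obtain ⟨h1, h2⟩ := ha
  obtain ⟨h3, h4⟩ := hu
  by_cases hb : 0 ≤ a - 1 / 2
  · nlinarith [mul_nonneg hb h3, sq_nonneg (1 - (a - 1 / 2))]
  · push Not at hb
    have h5 : (a - 1 / 2) * (1 - u) ≤ 0 := mul_nonpos_of_nonpos_of_nonneg hb.le (by linarith)
    nlinarith [sq_nonneg (1 + (a - 1 / 2))]

lemma Fc_Tc (ha : a ∈ Icc (0 : ℝ) 1) (hu : u ∈ Icc (0 : ℝ) 1) : Fc a (Tc a u) = u := by
  have hdisc := disc_nonneg ha hu
  unfold Fc Tc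
  set b := a - 1 / 2 with hb
  set C := b + 4 * u - 2 with hC
  set D := Real.sqrt (1 + b * C) with hD
  have hD2 : D ^ 2 = 1 + b * C := Real.sq_sqrt hdisc
  have hDn : 0 ≤ D := Real.sqrt_nonneg _
  have hne : (1 + D) ≠ 0 := by linarith
  have hs : C / (1 + D) * (1 + D) = C := div_mul_cancel₀ _ hne
  set t := C / (1 + D) with ht
  have hbt : b * t = D - 1 := by
    have : (b * t - (D - 1)) * (1 + D) = 0 := by
      have e1 : b * t * (1 + D) = b * C := by rw [mul_assoc, hs]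
      have e2 : (D - 1) * (1 + D) = D ^ 2 - 1 := by ring
      rw [sub_mul, e1, e2, hD2]
      ring
    rcases mul_eq_zero.mp this with h | h
    · linarith
    · exact absurd h hne
  have h1 : (t + 1) / 2 + b * (t ^ 2 - 1) / 4 = (t * (1 + D) + 2 - b) / 4 := by
    have : b * (t ^ 2 - 1) = (b * t) * t - b := by ring
    rw [this, hbt]
    ring
  rw [h1, hs, hC]
  ring

lemma Tc_Fc (ha : a ∈ Icc (0 : ℝ) 1) (hs : s ∈ Icc (-1 : ℝ) 1) : Tc a (Fc a s) = s := by
  obtain ⟨h1, h2⟩ := ha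
  obtain ⟨h3, h4⟩ := hs
  unfold Tc Fc
  set b := a - 1 / 2 with hb
  have hb1 : -(1 / 2) ≤ b := by rw [hb]; linarith
  have hb2 : b ≤ 1 / 2 := by rw [hb]; linarith
  have hbs : -(1 / 2) ≤ b * s ∧ b * s ≤ 1 / 2 := by
    constructor <;> nlinarith
  have hC : b + 4 * ((s + 1) / 2 + b * (s ^ 2 - 1) / 4) - 2 = 2 * s + b * s ^ 2 := by ring
  rw [hC]
  have hD : 1 + b * (2 * s + b * s ^ 2) = (1 + b * s) ^ 2 := by ring
  rw [hD, Real.sqrt_sq (by linarith [hbs.1])]
  have hne : 1 + (1 + b * s) ≠ 0 := by linarith [hbs.1]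
  rw [div_eq_iff hne]
  ring

lemma Tc_mem (ha : a ∈ Icc (0 : ℝ) 1) (hu : u ∈ Icc (0 : ℝ) 1) : Tc a u ∈ Icc (-1 : ℝ) 1 := by
  have hdisc := disc_nonneg ha hu
  unfold Tc
  set b := a - 1 / 2 with hb
  set C := b + 4 * u - 2 with hC
  set D := Real.sqrt (1 + b * C) with hD
  have hD2 : D ^ 2 = 1 + b * C := Real.sq_sqrt hdisc
  have hDn : 0 ≤ D := Real.sqrt_nonneg _
  have hpos : 0 < 1 + D := by linarith
  obtain ⟨hu0, hu1⟩ := hu
  constructor
  · rw [le_div_iff₀ hpos]
    by_contra hcon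
    push Not at hcon
    have hC1 : C < -1 := by linarith
    have h1 : C * (C + 2 - b) ≤ 0 := by
      apply mul_nonpos_of_nonpos_of_nonneg (by linarith)
      rw [hC]
      linarith
    nlinarith
  · rw [div_le_one hpos]
    by_contra hcon
    push Not at hcon
    have hC1 : 1 < C := by linarith
    have h1 : C * (C - 2 - b) ≤ 0 := by
      apply mul_nonpos_of_nonneg_of_nonpos (by linarith)
      rw [hC]
      linarith
    nlinarith

lemma Fc_mem (ha : a ∈ Icc (0 : ℝ) 1) (hs : s ∈ Icc (-1 : ℝ) 1) : Fc a s ∈ Icc (0 : ℝ) 1 := by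
  obtain ⟨h1, h2⟩ := ha
  obtain ⟨h3, h4⟩ := hs
  unfold Fc
  set b := a - 1 / 2 with hb
  have hb1 : -(1 / 2) ≤ b := by rw [hb]; linarith
  have hb2 : b ≤ 1 / 2 := by rw [hb]; linarith
  have e : (s + 1) / 2 + b * (s ^ 2 - 1) / 4 = (s + 1) * (2 + b * (s - 1)) / 4 := by ring
  have e2 : (s + 1) / 2 + b * (s ^ 2 - 1) / 4 = 1 - (1 - s) * (2 + b * (1 + s)) / 4 := by ring
  constructor
  · rw [e]
    apply div_nonneg _ (by norm_num)
    apply mul_nonneg (by linarith)
    nlinarith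
  · rw [e2]
    have : 0 ≤ (1 - s) * (2 + b * (1 + s)) / 4 := by
      apply div_nonneg _ (by norm_num)
      apply mul_nonneg (by linarith)
      nlinarith
    linarith

lemma Fc_sub (a s s' : ℝ) :
    Fc a s - Fc a s' = (s - s') * (1 / 2 + (a - 1 / 2) * (s + s') / 4) := by
  unfold Fc
  ring

lemma factor_ge (ha : a ∈ Icc (0 : ℝ) 1) (hs : s ∈ Icc (-1 : ℝ) 1) (hs' : s' ∈ Icc (-1 : ℝ) 1) :
    1 / 4 ≤ 1 / 2 + (a - 1 / 2) * (s + s') / 4 := by
  obtain ⟨h1, h2⟩ := ha
  obtain ⟨h3, h4⟩ := hs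
  obtain ⟨h5, h6⟩ := hs'
  have hb1 : -(1 / 2) ≤ a - 1 / 2 := by linarith
  have hb2 : a - 1 / 2 ≤ 1 / 2 := by linarith
  have h7 : -2 ≤ s + s' := by linarith
  have h8 : s + s' ≤ 2 := by linarith
  nlinarith

lemma abs_Fc_sub_ge (ha : a ∈ Icc (0 : ℝ) 1) (hs : s ∈ Icc (-1 : ℝ) 1)
    (hs' : s' ∈ Icc (-1 : ℝ) 1) : |s - s'| / 4 ≤ |Fc a s - Fc a s'| := by
  rw [Fc_sub, abs_mul]
  have hf := factor_ge ha hs hs'
  rw [abs_of_pos (by linarith : 0 < 1 / 2 + (a - 1 / 2) * (s + s') / 4)]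
  have := abs_nonneg (s - s')
  nlinarith

lemma Fc_le_iff (ha : a ∈ Icc (0 : ℝ) 1) (hs : s ∈ Icc (-1 : ℝ) 1)
    (hs' : s' ∈ Icc (-1 : ℝ) 1) : Fc a s ≤ Fc a s' ↔ s ≤ s' := by
  have hf := factor_ge ha hs hs'
  have hfp : 0 < 1 / 2 + (a - 1 / 2) * (s + s') / 4 := by linarith
  have e := Fc_sub a s s'
  constructor
  · intro h
    by_contra hcon
    push Not at hcon
    have : 0 < (s - s') * (1 / 2 + (a - 1 / 2) * (s + s') / 4) :=
      mul_pos (by linarith) hfp
    linarith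
  · intro h
    have : (s - s') * (1 / 2 + (a - 1 / 2) * (s + s') / 4) ≤ 0 :=
      mul_nonpos_of_nonpos_of_nonneg (by linarith) hfp.le
    linarith

lemma Tc_lipschitz (ha : a ∈ Icc (0 : ℝ) 1) (ha' : a' ∈ Icc (0 : ℝ) 1) (hu : u ∈ Icc (0 : ℝ) 1) :
    |Tc a u - Tc a' u| ≤ |a - a'| := by
  have h1 := Tc_mem ha hu
  have h2 := Tc_mem ha' hu
  have h3 := abs_Fc_sub_ge ha h1 h2
  have e1 : Fc a (Tc a u) = Fc a' (Tc a' u) := by rw [Fc_Tc ha hu, Fc_Tc ha' hu]
  have e2 : Fc a (Tc a u) - Fc a (Tc a' u) = (a' - a) * ((Tc a' u) ^ 2 - 1) / 4 := by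
    rw [e1]
    unfold Fc
    ring
  rw [e2, abs_div, abs_mul, abs_sub_comm a' a] at h3
  have h4 : |(Tc a' u) ^ 2 - 1| ≤ 1 := by
    rw [abs_le]
    constructor
    · nlinarith [sq_nonneg (Tc a' u)]
    · have := h2.1
      have := h2.2
      nlinarith
  have h5 := abs_nonneg (a - a')
  have h6 : |(4 : ℝ)| = 4 := by norm_num
  rw [h6] at h3
  nlinarith

lemma ell_sub_le (hs : s ∈ Icc (-1 : ℝ) 1) (hs' : s' ∈ Icc (-1 : ℝ) 1) :
    |ell s - ell s'| ≤ 4 / 3 * |s - s'| := by
  have hder : ∀ x ∈ Icc (-1 : ℝ) 1,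
      HasDerivWithinAt ell ((1 / 2) / (1 + x / 2) - (-(1 / 2)) / (1 - x / 2)) (Icc (-1 : ℝ) 1) x := by
    intro x hx
    have h1 : (1 + x / 2) ≠ 0 := by linarith [hx.1]
    have h2 : (1 - x / 2) ≠ 0 := by linarith [hx.2]
    have d1 : HasDerivAt (fun y : ℝ => 1 + y / 2) (1 / 2) x := by
      have := ((hasDerivAt_id x).div_const 2).const_add 1
      simpa using this
    have d2 : HasDerivAt (fun y : ℝ => 1 - y / 2) (-(1 / 2)) x := by
      have := ((hasDerivAt_id x).div_const 2).const_sub 1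
      simpa using this
    exact ((d1.log h1).sub (d2.log h2)).hasDerivWithinAt
  have hbd : ∀ x ∈ Icc (-1 : ℝ) 1, ‖(1 / 2) / (1 + x / 2) - (-(1 / 2)) / (1 - x / 2)‖ ≤ 4 / 3 := by
    intro x hx
    have h1 : 0 < (1 + x / 2) := by linarith [hx.1]
    have h2 : 0 < (1 - x / 2) := by linarith [hx.2]
    have e : (1 / 2) / (1 + x / 2) - (-(1 / 2)) / (1 - x / 2) = 1 / ((1 + x / 2) * (1 - x / 2)) := by
      have e0 : (1 / 2) / (1 + x / 2) - (-(1 / 2)) / (1 - x / 2)
          = (1 / 2) / (1 + x / 2) + (1 / 2) / (1 - x / 2) := by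
        rw [neg_div]
        ring
      rw [e0, div_add_div _ _ h1.ne' h2.ne']
      congr 1
      ring
    rw [e, Real.norm_of_nonneg (by positivity), div_le_iff₀ (by positivity)]
    nlinarith [hx.1, hx.2]
  have := Convex.norm_image_sub_le_of_norm_hasDerivWithin_le hder hbd (convex_Icc _ _) hs' hs
  simpa [Real.norm_eq_abs] using this

lemma exp_ell (hs : s ∈ Icc (-1 : ℝ) 1) : Real.exp (ell s) = (1 + s / 2) / (1 - s / 2) := by
  have h1 : 0 < (1 + s / 2) := by linarith [hs.1]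
  have h2 : 0 < (1 - s / 2) := by linarith [hs.2]
  unfold ell
  rw [Real.exp_sub, Real.exp_log h1, Real.exp_log h2]

end algebra

section measures

lemma zero_mem_Icc01 : (0 : ℝ) ∈ Icc (0 : ℝ) 1 := ⟨le_refl _, zero_le_one⟩
lemma one_mem_Icc01 : (1 : ℝ) ∈ Icc (0 : ℝ) 1 := ⟨zero_le_one, le_refl _⟩

/-- The law of the channel output: CDF computation. -/
lemma volume_Tc_le {b x : ℝ} (hb : b ∈ Icc (0 : ℝ) 1) (hx : x ∈ Icc (-1 : ℝ) 1) :
    (volume : Measure I) {v : I | Tc b v ≤ x} = ENNReal.ofReal (Fc b x) := by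
  have hF := Fc_mem hb hx
  have : {v : I | Tc b v ≤ x} = Iic (⟨Fc b x, hF⟩ : I) := by
    ext v
    simp only [Set.mem_ofPred_eq, Set.mem_Iic]
    have hv : (v : ℝ) ∈ Icc (0 : ℝ) 1 := v.2
    have hT := Tc_mem hb hv
    rw [← Subtype.coe_le_coe]
    simp only
    rw [← Fc_le_iff hb hT hx, Fc_Tc hb hv]
  rw [this, unitInterval.volume_Iic]

/-- The mixture identity: applying the CDF `Fc a` to the output of the mixture of channels gives a
uniform variable. -/
lemma mixture_uniform {a : ℝ} (ha : a ∈ Icc (0 : ℝ) 1) {B : Set I} (hB : MeasurableSet B) :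
    ENNReal.ofReal a * (volume : Measure I) {v : I | toUI (Fc a (Tc 1 v)) ∈ B}
      + ENNReal.ofReal (1 - a) * (volume : Measure I) {v : I | toUI (Fc a (Tc 0 v)) ∈ B}
      = volume B := by
  have hm : ∀ b : ℝ, Measurable (fun v : I => toUI (Fc a (Tc b v))) := by
    intro b
    apply measurable_toUI.comp
    have h1 : Measurable (fun v : I => Tc b (v : ℝ)) :=
      measurable_Tc.comp (measurable_const.prodMk measurable_subtype_coe)
    exact measurable_Fc.comp (measurable_const.prodMk h1)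
  set m : Measure I := ENNReal.ofReal a • (volume : Measure I).map (fun v : I => toUI (Fc a (Tc 1 v)))
    + ENNReal.ofReal (1 - a) • (volume : Measure I).map (fun v : I => toUI (Fc a (Tc 0 v))) with hmdef
  have hfin1 : IsFiniteMeasure ((volume : Measure I).map (fun v : I => toUI (Fc a (Tc 1 v)))) :=
    Measure.isFiniteMeasure_map _ _
  have hfin0 : IsFiniteMeasure ((volume : Measure I).map (fun v : I => toUI (Fc a (Tc 0 v)))) :=
    Measure.isFiniteMeasure_map _ _
  have hfin : IsFiniteMeasure m := by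
    refine ⟨?_⟩
    rw [hmdef, Measure.add_apply, Measure.smul_apply, Measure.smul_apply]
    exact ENNReal.add_lt_top.mpr ⟨ENNReal.mul_lt_top ENNReal.ofReal_lt_top (measure_lt_top _ _),
      ENNReal.mul_lt_top ENNReal.ofReal_lt_top (measure_lt_top _ _)⟩
  have hEq : m = volume := by
    apply Measure.ext_of_Iic
    intro y
    rw [unitInterval.volume_Iic, hmdef, Measure.add_apply, Measure.smul_apply, Measure.smul_apply,
      Measure.map_apply (hm 1) measurableSet_Iic, Measure.map_apply (hm 0) measurableSet_Iic]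
    have hy : (y : ℝ) ∈ Icc (0 : ℝ) 1 := y.2
    set τ := Tc a y with hτ
    have hτm : τ ∈ Icc (-1 : ℝ) 1 := Tc_mem ha hy
    have hset : ∀ b : ℝ, b ∈ Icc (0 : ℝ) 1 →
        (fun v : I => toUI (Fc a (Tc b v))) ⁻¹' Iic y = {v : I | Tc b v ≤ τ} := by
      intro b hb
      ext v
      simp only [Set.mem_preimage, Set.mem_Iic, Set.mem_ofPred_eq]
      have hv : (v : ℝ) ∈ Icc (0 : ℝ) 1 := v.2
      have hT := Tc_mem hb hv
      rw [← Subtype.coe_le_coe, toUI_coe (Fc_mem ha hT), ← Fc_le_iff ha hT hτm, hτ, Fc_Tc ha hy]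
    rw [hset 1 one_mem_Icc01, hset 0 zero_mem_Icc01, volume_Tc_le one_mem_Icc01 hτm,
      volume_Tc_le zero_mem_Icc01 hτm]
    simp only [smul_eq_mul]
    have h1 := Fc_mem one_mem_Icc01 hτm
    have h0 := Fc_mem zero_mem_Icc01 hτm
    rw [← ENNReal.ofReal_mul ha.1, ← ENNReal.ofReal_mul (by linarith [ha.2]),
      ← ENNReal.ofReal_add (mul_nonneg ha.1 h1.1) (mul_nonneg (by linarith [ha.2]) h0.1)]
    congr 1
    have e : a * Fc 1 τ + (1 - a) * Fc 0 τ = Fc a τ := by
      unfold Fc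
      ring
    rw [e, hτ, Fc_Tc ha hy]
  have h3 : m B = volume B := by rw [hEq]
  rw [hmdef, Measure.add_apply, Measure.smul_apply, Measure.smul_apply, Measure.map_apply (hm 1) hB,
    Measure.map_apply (hm 0) hB] at h3
  simp only [smul_eq_mul] at h3
  exact h3

/-- Density of the channel output. -/
noncomputable def qDens (b s : ℝ) : ℝ := (1 + (b - 1 / 2) * s) / 2

lemma qDens_pos {b s : ℝ} (hb : b ∈ Icc (0 : ℝ) 1) (hs : s ∈ Icc (-1 : ℝ) 1) : 0 < qDens b s := by
  unfold qDens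
  obtain ⟨h1, h2⟩ := hb
  obtain ⟨h3, h4⟩ := hs
  have hb1 : -(1 / 2) ≤ b - 1 / 2 := by linarith
  have hb2 : b - 1 / 2 ≤ 1 / 2 := by linarith
  have : -(1 / 2) ≤ (b - 1 / 2) * s := by nlinarith
  linarith

lemma hasDerivAt_Fc (b s : ℝ) : HasDerivAt (Fc b) (qDens b s) s := by
  unfold Fc qDens
  have h1 : HasDerivAt (fun y : ℝ => (y + 1) / 2) (1 / 2) s := by
    have := ((hasDerivAt_id s).add_const 1).div_const 2
    simpa using this
  have h2 : HasDerivAt (fun y : ℝ => (b - 1 / 2) * (y ^ 2 - 1) / 4) ((b - 1 / 2) * (2 * s) / 4) s := by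
    have := (((hasDerivAt_pow 2 s).sub_const 1).const_mul (b - 1 / 2)).div_const 4
    simpa using this
  have e : (1 + (b - 1 / 2) * s) / 2 = 1 / 2 + (b - 1 / 2) * (2 * s) / 4 := by ring
  rw [e]
  exact h1.fun_add h2

lemma qDens_continuous (b : ℝ) : Continuous (qDens b) := by
  unfold qDens
  fun_prop

/-- The law of the output of the channel with level `b` has density `qDens b` on `[-1,1]`. -/
lemma map_Tc_eq {b : ℝ} (hb : b ∈ Icc (0 : ℝ) 1) :
    (volume : Measure I).map (fun v : I => Tc b v)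
      = ((volume : Measure ℝ).restrict (Icc (-1) 1)).withDensity
          (fun s => ENNReal.ofReal (qDens b s)) := by
  have hmT : Measurable (fun v : I => Tc b (v : ℝ)) :=
    measurable_Tc.comp (measurable_const.prodMk measurable_subtype_coe)
  have hint : ∀ x ∈ Icc (-1 : ℝ) 1, ∫⁻ s in Icc (-1 : ℝ) x, ENNReal.ofReal (qDens b s)
      = ENNReal.ofReal (Fc b x) := by
    intro x hx
    have hnn : ∀ s ∈ Icc (-1 : ℝ) x, 0 ≤ qDens b s := fun s hs =>
      (qDens_pos hb ⟨hs.1, hs.2.trans hx.2⟩).le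
    have hi : IntegrableOn (qDens b) (Icc (-1 : ℝ) x) :=
      (qDens_continuous b).continuousOn.integrableOn_Icc
    rw [← ofReal_integral_eq_lintegral_ofReal hi ((ae_restrict_iff' measurableSet_Icc).mpr
      (Filter.Eventually.of_forall hnn))]
    congr 1
    rw [integral_Icc_eq_integral_Ioc, ← intervalIntegral.integral_of_le hx.1]
    rw [intervalIntegral.integral_eq_sub_of_hasDerivAt (fun y _ => hasDerivAt_Fc b y)
      ((qDens_continuous b).intervalIntegrable _ _)]
    have : Fc b (-1) = 0 := by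
      unfold Fc
      norm_num
    rw [this, sub_zero]
  have hfin2 : IsFiniteMeasure (((volume : Measure ℝ).restrict (Icc (-1) 1)).withDensity
      (fun s => ENNReal.ofReal (qDens b s))) := by
    constructor
    rw [withDensity_apply _ MeasurableSet.univ, Measure.restrict_univ]
    have e : ∫⁻ s in Icc (-1 : ℝ) 1, ENNReal.ofReal (qDens b s) = ENNReal.ofReal (Fc b 1) :=
      hint 1 ⟨by norm_num, le_refl _⟩
    rw [e]
    exact ENNReal.ofReal_lt_top
  have hfin1 : IsFiniteMeasure ((volume : Measure I).map (fun v : I => Tc b v)) :=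
    Measure.isFiniteMeasure_map _ _
  apply Measure.ext_of_Iic
  intro x
  rw [Measure.map_apply hmT measurableSet_Iic, withDensity_apply _ measurableSet_Iic,
    Measure.restrict_restrict measurableSet_Iic]
  by_cases hx1 : x < -1
  · have h1 : Iic x ∩ Icc (-1 : ℝ) 1 = ∅ := by
      ext y
      simp only [mem_inter_iff, mem_Iic, mem_Icc, mem_empty_iff_false, iff_false, not_and, not_le]
      intro h2 h3
      linarith
    rw [h1]
    have h2 : (fun v : I => Tc b (v : ℝ)) ⁻¹' Iic x = ∅ := by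
      ext v
      simp only [mem_preimage, mem_Iic, mem_empty_iff_false, iff_false, not_le]
      have := (Tc_mem hb v.2).1
      linarith
    rw [h2]
    simp
  · push Not at hx1
    by_cases hx2 : 1 ≤ x
    · have h1 : Iic x ∩ Icc (-1 : ℝ) 1 = Icc (-1 : ℝ) 1 := by
        ext y
        simp only [mem_inter_iff, mem_Iic, mem_Icc]
        constructor
        · exact fun h => h.2
        · exact fun h => ⟨h.2.trans hx2, h⟩
      rw [h1, hint 1 ⟨by norm_num, le_refl _⟩]
      have h2 : (fun v : I => Tc b (v : ℝ)) ⁻¹' Iic x = univ := by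
        ext v
        simp only [mem_preimage, mem_Iic, mem_univ, iff_true]
        exact (Tc_mem hb v.2).2.trans hx2
      rw [h2]
      have : Fc b 1 = 1 := by
        unfold Fc
        norm_num
      rw [this]
      simp
    · push Not at hx2
      have hxm : x ∈ Icc (-1 : ℝ) 1 := ⟨hx1, hx2.le⟩
      have h1 : Iic x ∩ Icc (-1 : ℝ) 1 = Icc (-1 : ℝ) x := by
        ext y
        simp only [mem_inter_iff, mem_Iic, mem_Icc]
        constructor
        · exact fun h => ⟨h.2.1, h.1⟩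
        · exact fun h => ⟨h.2, h.1, h.2.trans hx2.le⟩
      rw [h1, hint x hxm]
      have : (fun v : I => Tc b (v : ℝ)) ⁻¹' Iic x = {v : I | Tc b v ≤ x} := rfl
      rw [this, volume_Tc_le hb hxm]

/-- Change of measure between the two channels. -/
lemma lintegral_Tc_one (φ : ℝ → ℝ≥0∞) (hφ : Measurable φ) :
    ∫⁻ v : I, φ (Tc 1 v) = ∫⁻ v : I, φ (Tc 0 v) * ENNReal.ofReal (Real.exp (ell (Tc 0 v))) := by
  have hm : ∀ b : ℝ, Measurable (fun v : I => Tc b (v : ℝ)) := fun b =>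
    measurable_Tc.comp (measurable_const.prodMk measurable_subtype_coe)
  have hmell : Measurable (fun s : ℝ => ENNReal.ofReal (Real.exp (ell s))) :=
    ENNReal.measurable_ofReal.comp (Real.measurable_exp.comp measurable_ell)
  have hq : ∀ b, Measurable (fun s => ENNReal.ofReal (qDens b s)) := fun b =>
    ENNReal.measurable_ofReal.comp (qDens_continuous b).measurable
  have e1 : ∫⁻ v : I, φ (Tc 1 v) = ∫⁻ s, φ s ∂((volume : Measure I).map (fun v : I => Tc 1 v)) :=
    (lintegral_map hφ (hm 1)).symm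
  have e0 : ∫⁻ v : I, φ (Tc 0 v) * ENNReal.ofReal (Real.exp (ell (Tc 0 v)))
      = ∫⁻ s, φ s * ENNReal.ofReal (Real.exp (ell s)) ∂((volume : Measure I).map (fun v : I => Tc 0 v)) :=
    (lintegral_map (hφ.mul hmell) (hm 0)).symm
  have e2 := lintegral_withDensity_eq_lintegral_mul ((volume : Measure ℝ).restrict (Icc (-1) 1))
    (hq 0) (hφ.mul hmell)
  have e3 := lintegral_withDensity_eq_lintegral_mul ((volume : Measure ℝ).restrict (Icc (-1) 1))
    (hq 1) hφ
  simp only [Pi.mul_apply] at e2 e3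
  rw [e1, e0, map_Tc_eq one_mem_Icc01, map_Tc_eq zero_mem_Icc01, e3, e2]
  apply setLIntegral_congr_fun measurableSet_Icc
  intro s hs
  have h0 := qDens_pos zero_mem_Icc01 hs
  have h1 := qDens_pos one_mem_Icc01 hs
  have hrel : qDens 1 s = qDens 0 s * Real.exp (ell s) := by
    rw [exp_ell hs]
    unfold qDens
    have h2 : (1 - s / 2) ≠ 0 := by linarith [hs.2]
    have e3 : (1 + (0 - 1 / 2) * s) / 2 * ((1 + s / 2) / (1 - s / 2))
        = ((1 - s / 2) / (1 - s / 2)) * ((1 + s / 2) / 2) := by ring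
    rw [e3, div_self h2]
    ring
  simp only
  rw [hrel, ENNReal.ofReal_mul h0.le]
  ring

end measures

end Crest.Agent.Lib.SR
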