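import Crest.Agent.Lib.SR.Law3

set_option autoImplicit false

open MeasureTheory Set Filter Topology ProbabilityTheory
open scoped ENNReal unitInterval

namespace Crest.Agent.Lib.SR

variable {ι : Type*}

section limsup

lemma limsup_mem_Icc {f : ℕ → ℝ} (hf : ∀ n, f n ∈ Icc (0 : ℝ) 1) :
    limsup f atTop ∈ Icc (0 : ℝ) 1 := by
  have hb : IsBoundedUnder (· ≤ ·) atTop f :=
    isBoundedUnder_of ⟨1, fun n => (hf n).2⟩
  have hc : IsCoboundedUnder (· ≤ ·) atTop f :=
    (isBoundedUnder_of ⟨0, fun n => (hf n).1⟩ : IsBoundedUnder (· ≥ ·) atTop f).isCoboundedUnder_le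
  constructor
  · apply le_limsup_of_frequently_le _ hb
    exact Filter.Frequently.of_forall (fun n => (hf n).1)
  · exact limsup_le_of_le hc (Filter.Eventually.of_forall (fun n => (hf n).2))

lemma limsup_le_add {f g : ℕ → ℝ} {c : ℝ} (hf : ∀ n, f n ∈ Icc (0 : ℝ) 1)
    (hg : ∀ n, g n ∈ Icc (0 : ℝ) 1) (h : ∀ n, f n ≤ g n + c) :
    limsup f atTop ≤ limsup g atTop + c := by
  have hbf : IsBoundedUnder (· ≤ ·) atTop f := isBoundedUnder_of ⟨1, fun n => (hf n).2⟩
  have hbg : IsBoundedUnder (· ≤ ·) atTop g := isBoundedUnder_of ⟨1, fun n => (hg n).2⟩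
  have hcf : IsCoboundedUnder (· ≤ ·) atTop f :=
    (isBoundedUnder_of ⟨0, fun n => (hf n).1⟩ : IsBoundedUnder (· ≥ ·) atTop f).isCoboundedUnder_le
  apply le_of_forall_pos_lt_add
  intro e he
  have hlt : limsup g atTop < limsup g atTop + e := by linarith
  have hev := eventually_lt_of_limsup_lt hlt hbg
  have : limsup f atTop ≤ limsup g atTop + e + c := by
    apply limsup_le_of_le hcf
    filter_upwards [hev] with n hn
    linarith [h n]
  have h2 : limsup f atTop < limsup g atTop + c + (e + e) := by linarith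
  by_contra hcon
  push Not at hcon
  -- use the bound with e/2
  have hlt' : limsup g atTop < limsup g atTop + e / 2 := by linarith
  have hev' := eventually_lt_of_limsup_lt hlt' hbg
  have h3 : limsup f atTop ≤ limsup g atTop + e / 2 + c := by
    apply limsup_le_of_le hcf
    filter_upwards [hev'] with n hn
    linarith [h n]
  linarith

lemma abs_limsup_sub_le {f g : ℕ → ℝ} {c : ℝ} (hf : ∀ n, f n ∈ Icc (0 : ℝ) 1)
    (hg : ∀ n, g n ∈ Icc (0 : ℝ) 1) (h : ∀ n, |f n - g n| ≤ c) :
    |limsup f atTop - limsup g atTop| ≤ c := by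
  rw [abs_le]
  have h1 := limsup_le_add hf hg (fun n => by linarith [(abs_le.mp (h n)).2])
  have h2 := limsup_le_add hg hf (fun n => by linarith [(abs_le.mp (h n)).1])
  constructor <;> linarith

end limsup

section slln

/-- The strong law for one site and one channel. -/
lemma slln_site (i : ι) (b : Bool) :
    ∀ᵐ V ∂(Unif (ℕ × ι)), Tendsto (fun K : ℕ =>
      (((Finset.range K).filter (fun k => 0 < Tc (bv b) (V (k, i)))).card : ℝ) / K) atTop
      (𝓝 (1 - Fc (bv b) 0)) := by
  set φ : I → ℝ := fun v => if 0 < Tc (bv b) v then 1 else 0 with hφ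
  have hT : Measurable (fun v : I => Tc (bv b) (v : ℝ)) :=
    measurable_Tc.comp (measurable_const.prodMk measurable_subtype_coe)
  have hS : MeasurableSet {v : I | 0 < Tc (bv b) v} := measurableSet_lt measurable_const hT
  have hφm : Measurable φ := Measurable.ite hS measurable_const measurable_const
  have hφb : ∀ v, |φ v| ≤ 1 := by
    intro v
    simp only [hφ]
    split_ifs <;> simp
  set X : ℕ → (ℕ × ι → I) → ℝ := fun k V => φ (V (k, i)) with hX
  have hXm : ∀ k, Measurable (X k) := fun k => hφm.comp (measurable_pi_apply _)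
  have hmap : ∀ k, (Unif (ℕ × ι)).map (X k) = (volume : Measure I).map φ := by
    intro k
    have h1 : X k = φ ∘ (Function.eval (k, i)) := rfl
    have h2 : Measurable (Function.eval (k, i) : (ℕ × ι → I) → I) := measurable_pi_apply _
    rw [h1, ← Measure.map_map hφm h2,
      (measurePreserving_eval_infinitePi (fun _ : ℕ × ι => (volume : Measure I)) (k, i)).map_eq]
  have hint : Integrable (X 0) (Unif (ℕ × ι)) :=
    Integrable.of_bound (hXm 0).aestronglyMeasurable 1
      (Filter.Eventually.of_forall (fun V => by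
        rw [Real.norm_eq_abs]
        exact hφb _))
  have hiid := iIndepFun_infinitePi (P := fun _ : ℕ × ι => (volume : Measure I))
    (X := fun _ => φ) (fun _ => hφm)
  have hindep : Pairwise (Function.onFun (· ⟂ᵢ[Unif (ℕ × ι)] ·) X) := by
    intro m n hmn
    have hne : ((m, i) : ℕ × ι) ≠ (n, i) := fun h => hmn (Prod.mk.inj h).1
    exact hiid.indepFun hne
  have hident : ∀ k, IdentDistrib (X k) (X 0) (Unif (ℕ × ι)) (Unif (ℕ × ι)) := fun k =>
    ⟨(hXm k).aemeasurable, (hXm 0).aemeasurable, by rw [hmap k, hmap 0]⟩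
  have hmean : ∫ V, X 0 V ∂(Unif (ℕ × ι)) = 1 - Fc (bv b) 0 := by
    have h1 : ∫ V, X 0 V ∂(Unif (ℕ × ι)) = ∫ v, φ v ∂(volume : Measure I) := by
      have e := measurePreserving_eval_infinitePi (fun _ : ℕ × ι => (volume : Measure I)) (0, i)
      rw [← e.map_eq, integral_map e.measurable.aemeasurable hφm.aestronglyMeasurable]
    rw [h1]
    have h2 : φ = {v : I | 0 < Tc (bv b) v}.indicator 1 := by
      funext v
      simp only [hφ, Set.indicator_apply, Set.mem_ofPred_eq, Pi.one_apply]
    rw [h2, integral_indicator_one hS]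
    have h3 : {v : I | 0 < Tc (bv b) v} = {v : I | Tc (bv b) v ≤ 0}ᶜ := by
      ext v
      simp
    have h0 : (0 : ℝ) ∈ Icc (-1 : ℝ) 1 := ⟨by norm_num, by norm_num⟩
    have hF := Fc_mem (bv_mem b) h0
    have hS' : MeasurableSet {v : I | Tc (bv b) v ≤ 0} := measurableSet_le hT measurable_const
    rw [Measure.real, h3, prob_compl_eq_one_sub hS', volume_Tc_le (bv_mem b) h0,
      ENNReal.toReal_sub_of_le (by
        rw [← ENNReal.ofReal_one]
        exact ENNReal.ofReal_le_ofReal hF.2) ENNReal.one_ne_top, ENNReal.toReal_ofReal hF.1]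
    simp
  have hlaw := strong_law_ae_real X hint hindep hident
  filter_upwards [hlaw] with V hV
  rw [hmean] at hV
  convert hV using 2 with K
  congr 1
  rw [Finset.card_filter]
  push_cast
  rfl

/-- Decoding recovers the configuration, for almost all noises, simultaneously in the
configuration. -/
theorem decode_obs_ae [Countable ι] :
    ∀ᵐ V ∂(Unif (ℕ × ι)), ∀ ω : ι → Bool, decode (fun k i => obs ω V (k, i)) = ω := by
  have h : ∀ᵐ V ∂(Unif (ℕ × ι)), ∀ (i : ι) (b : Bool), Tendsto (fun K : ℕ =>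
      (((Finset.range K).filter (fun k => 0 < Tc (bv b) (V (k, i)))).card : ℝ) / K) atTop
      (𝓝 (1 - Fc (bv b) 0)) := by
    rw [ae_all_iff]
    intro i
    rw [ae_all_iff]
    intro b
    exact slln_site i b
  filter_upwards [h] with V hV ω
  funext i
  have e : decode (fun k i => obs ω V (k, i)) i = decide ((1 / 2 : ℝ) < limsup (fun K : ℕ =>
      (((Finset.range K).filter (fun k => 0 < Tc (bv (ω i)) (V (k, i)))).card : ℝ) / K) atTop) := rfl
  rw [e, (hV i (ω i)).limsup_eq]
  cases hω : ω i
  · simp only [bv_false]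
    unfold Fc
    norm_num
  · simp only [bv_true]
    unfold Fc
    norm_num

end slln

section core

variable [DecidableEq ι]

/-- **The core theorem**: the sequential localization rule has law `ν`, for every injective
labelling. -/
theorem core_law [Countable ι] (ν : Measure (ι → Bool)) [IsProbabilityMeasure ν]
    {W : ι → ℕ → Finset ι} (hW : ∀ i, Monotone (W i))
    (hmem : ∀ i n, i ∈ W i n) (hex : ∀ i j, ∃ n, j ∈ W i n)
    {a : ι → (ι → ℝ) → ℝ}
    (ha : ∀ i h, a i h = limsup (fun n => aW ν (W i n) i h) atTop)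
    (hlip : ∀ i n h h' δ, (∀ j ∈ W i n, |h j - h' j| ≤ δ) →
      |aW ν (W i n) i h - aW ν (W i n) i h'| ≤ δ / 2)
    {ρ : ι → ℝ} (hρ : Function.Injective ρ) :
    (Unif (ℕ × ι)).map (Rule a ρ) = ν := by
  have ha01 : ∀ i h, a i h ∈ Icc (0 : ℝ) 1 := by
    intro i h
    rw [ha]
    exact limsup_mem_Icc (fun n => aW_mem ν _ _ _)
  have ham : ∀ i, Measurable (a i) := by
    intro i
    have : a i = fun h => limsup (fun n => aW ν (W i n) i h) atTop := by
      funext h
      exact ha i h
    rw [this]
    exact Measurable.limsup (fun n => measurable_aW ν _ _)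
  have hlip' : ∀ i h h' δ, (∀ j, |h j - h' j| ≤ δ) → |a i h - a i h'| ≤ δ / 2 := by
    intro i h h' δ hδ
    rw [ha, ha]
    exact abs_limsup_sub_le (fun n => aW_mem ν _ _ _) (fun n => aW_mem ν _ _ _)
      (fun n => hlip i n h h' δ (fun j _ => hδ j))
  have hlaw := map_epsOf_obsZ ν hρ hW hmem hex ha ha01 ham
  have hΘ : Measurable (fun z : OmZ ι => epsOf a ρ (obsZ z)) := by
    rw [measurable_pi_iff]
    intro q
    exact (measurable_epsOf ham ρ q).comp measurable_obsZ
  have hRule : Measurable (Rule a ρ) := by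
    have h1 := measurable_Rule (Θ := Unit) (a := fun _ => a)
      (fun i => (ham i).comp measurable_snd)
    have h2 : Measurable (fun ε : ℕ × ι → I => (((), ρ, ε) : Unit × (ι → ℝ) × (ℕ × ι → I))) :=
      measurable_const.prodMk (measurable_const.prodMk measurable_id)
    have h3 := h1.comp h2
    exact h3
  rw [← hlaw, Measure.map_map hRule hΘ]
  have hae : (Rule a ρ ∘ fun z : OmZ ι => epsOf a ρ (obsZ z)) =ᵐ[PP ν] Prod.fst := by
    have h1 : ∀ᵐ z ∂(PP ν), ∀ ω : ι → Bool, decode (fun k i => obs ω z.2 (k, i)) = ω :=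
      Measure.quasiMeasurePreserving_snd.ae decode_obs_ae
    filter_upwards [h1] with z hz
    simp only [Function.comp]
    rw [Rule_epsOf ha01 hlip' (obsZ_mem z)]
    exact hz z.1
  rw [Measure.map_congr hae, Measure.map_fst_prod]
  simp

end core

end Crest.Agent.Lib.SR
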