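import Crest.Agent.Lib.SR.Core

set_option autoImplicit false

open MeasureTheory Set Filter Topology
open scoped ENNReal unitInterval

namespace Crest.Agent.Lib.SR

variable {ι : Type*} [DecidableEq ι]

/-- The configuration occupied exactly on `A`. -/
def indOf (A : Finset ι) : ι → Bool := fun e => decide (e ∈ A)

/-- A finite mixture of point masses on configurations. -/
noncomputable def mixMeas (μ : Finset ι → ℝ) (E : Finset ι) : Measure (ι → Bool) :=
  ∑ A ∈ E.powerset, ENNReal.ofReal (μ A) • Measure.dirac (indOf A)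

lemma mixMeas_apply (μ : Finset ι → ℝ) (E : Finset ι) {B : Set (ι → Bool)} (hB : MeasurableSet B) :
    mixMeas μ E B = ∑ A ∈ E.powerset, ENNReal.ofReal (μ A) * B.indicator 1 (indOf A) := by
  unfold mixMeas
  rw [Measure.finsetSum_apply]
  apply Finset.sum_congr rfl
  intro A _
  rw [Measure.smul_apply, Measure.dirac_apply' _ hB, smul_eq_mul]

lemma mixMeas_real (μ : Finset ι → ℝ) (hμ : ∀ A, 0 ≤ μ A) (E : Finset ι) {B : Set (ι → Bool)}
    (hB : MeasurableSet B) :
    (mixMeas μ E B).toReal = ∑ A ∈ E.powerset, μ A * B.indicator (fun _ => (1 : ℝ)) (indOf A) := by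
  rw [mixMeas_apply μ E hB, ENNReal.toReal_sum]
  · apply Finset.sum_congr rfl
    intro A _
    rw [ENNReal.toReal_mul, ENNReal.toReal_ofReal (hμ A)]
    by_cases h : indOf A ∈ B <;> simp [h]
  · intro A _
    apply ENNReal.mul_ne_top ENNReal.ofReal_ne_top
    by_cases h : indOf A ∈ B <;> simp [h]

lemma isProbabilityMeasure_mixMeas {μ : Finset ι → ℝ} (hμ : ∀ A, 0 ≤ μ A) {E : Finset ι}
    (h1 : ∑ A ∈ E.powerset, μ A = 1) : IsProbabilityMeasure (mixMeas μ E) := by
  constructor
  rw [mixMeas_apply μ E MeasurableSet.univ]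
  simp only [indicator_univ, Pi.one_apply, mul_one]
  rw [← ENNReal.ofReal_sum_of_nonneg (fun A _ => hμ A), h1, ENNReal.ofReal_one]

lemma indOf_mem_cyl {W A₀ A : Finset ι} (hA₀ : A₀ ⊆ W) : indOf A ∈ cyl W A₀ ↔ A ∩ W = A₀ := by
  simp only [cyl, Set.mem_ofPred_eq, indOf, decide_eq_true_eq]
  constructor
  · intro h
    ext i
    simp only [Finset.mem_inter]
    constructor
    · rintro ⟨hi, hiW⟩
      exact (h i hiW).mp hi
    · intro hi
      exact ⟨(h i (hA₀ hi)).mpr hi, hA₀ hi⟩
  · rintro rfl i hi
    simp [hi]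

lemma massW_mix_sum {μ : Finset ι → ℝ} (hμ : ∀ A, 0 ≤ μ A) (E W : Finset ι) (g : Finset ι → ℝ) :
    ∑ A₀ ∈ W.powerset, massW (mixMeas μ E) W A₀ * g A₀ = ∑ A ∈ E.powerset, μ A * g (A ∩ W) := by
  have h1 : ∀ A₀ ∈ W.powerset, massW (mixMeas μ E) W A₀ * g A₀
      = ∑ A ∈ E.powerset, (if A ∩ W = A₀ then μ A * g A₀ else 0) := by
    intro A₀ hA₀
    unfold massW
    rw [mixMeas_real μ hμ E (measurableSet_cyl W A₀), Finset.sum_mul]
    apply Finset.sum_congr rfl
    intro A _
    by_cases h : A ∩ W = A₀
    · rw [if_pos h, indicator_of_mem ((indOf_mem_cyl (Finset.mem_powerset.mp hA₀)).mpr h)]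
      ring
    · rw [if_neg h, indicator_of_notMem (fun hm => h ((indOf_mem_cyl (Finset.mem_powerset.mp hA₀)).mp hm))]
      ring
  rw [Finset.sum_congr rfl h1, Finset.sum_comm]
  apply Finset.sum_congr rfl
  intro A _
  rw [Finset.sum_ite_eq, if_pos]
  exact Finset.mem_powerset.mpr Finset.inter_subset_right

/-- The exponential tilt concentrated on `W`. -/
noncomputable def tiltOn (W : Finset ι) (h : ι → ℝ) : ι → ℝ := fun e => if e ∈ W then h e else 0

lemma prod_tiltOn (W A : Finset ι) (h : ι → ℝ) :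
    ∏ e ∈ A, Real.exp (tiltOn W h e) = ∏ e ∈ A ∩ W, Real.exp (h e) := by
  rw [← Finset.filter_mem_eq_inter, Finset.prod_filter]
  apply Finset.prod_congr rfl
  intro e _
  unfold tiltOn
  split_ifs <;> simp

/-- The marginal of a mixture has the tilted mean of the mixture. -/
theorem aW_mix {μ : Finset ι → ℝ} (hμ : ∀ A, 0 ≤ μ A) (E : Finset ι) {W : Finset ι} {i : ι}
    (hi : i ∈ W) (h : ι → ℝ) :
    aW (mixMeas μ E) W i h = meanTilt μ E i (tiltOn W h) := by
  unfold aW meanTilt polyR
  have hden := massW_mix_sum hμ E W (fun A => ∏ j ∈ A, Real.exp (h j))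
  have hnum := massW_mix_sum hμ E W (fun A => (if i ∈ A then 1 else 0) * ∏ j ∈ A, Real.exp (h j))
  congr 1
  · have e1 : ∀ S ∈ W.powerset, (if i ∈ S then massW (mixMeas μ E) W S else 0) * ∏ j ∈ S, Real.exp (h j)
        = massW (mixMeas μ E) W S * ((if i ∈ S then 1 else 0) * ∏ j ∈ S, Real.exp (h j)) := by
      intro S _
      split_ifs <;> simp
    rw [Finset.sum_congr rfl e1, hnum]
    apply Finset.sum_congr rfl
    intro A _
    simp only [prod_tiltOn, Finset.mem_inter, hi, and_true]
    split_ifs <;> simp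
  · rw [hden]
    apply Finset.sum_congr rfl
    intro A _
    rw [prod_tiltOn]

/-- Marginals of a stable mixture have Lipschitz tilted means. -/
theorem aW_mix_lipschitz {μ : Finset ι → ℝ} (hμ : ∀ A, 0 ≤ μ A) {E : Finset ι} (hst : Stable μ E)
    {W : Finset ι} {i : ι} (hi : i ∈ W) {h h' : ι → ℝ} {δ : ℝ} (hδ : ∀ j ∈ W, |h j - h' j| ≤ δ) :
    |aW (mixMeas μ E) W i h - aW (mixMeas μ E) W i h'| ≤ δ / 2 := by
  have hδ0 : 0 ≤ δ := (abs_nonneg _).trans (hδ i hi)
  rw [aW_mix hμ E hi, aW_mix hμ E hi]
  by_cases hiE : i ∈ E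
  · apply meanTilt_lipschitz hiE hμ hst
    intro j _
    unfold tiltOn
    split_ifs with hj
    · exact hδ j hj
    · simpa using hδ0
  · have h0 : ∀ g : ι → ℝ, meanTilt μ E i g = 0 := by
      intro g
      unfold meanTilt polyR
      have : ∑ S ∈ E.powerset, (if i ∈ S then μ S else 0) * ∏ j ∈ S, Real.exp (g j) = 0 := by
        apply Finset.sum_eq_zero
        intro S hS
        rw [if_neg (fun hiS => hiE (Finset.mem_powerset.mp hS hiS)), zero_mul]
      rw [this, zero_div]
    rw [h0, h0]
    simp only [sub_zero, abs_zero]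
    linarith

/-- Occupied on `A`, empty on `D`. -/
def pat (A D : Finset ι) : Set (ι → Bool) :=
  {ω | (∀ e ∈ A, ω e = true) ∧ ∀ e ∈ D, ω e = false}

/-- Occupied on `F`. -/
def allTrue (F : Finset ι) : Set (ι → Bool) := {ω | ∀ e ∈ F, ω e = true}

omit [DecidableEq ι] in
lemma measurableSet_allTrue (F : Finset ι) : MeasurableSet (allTrue F) := by
  have : allTrue F = ⋂ e ∈ F, (fun ω : ι → Bool => ω e) ⁻¹' {true} := by
    ext ω
    simp [allTrue]
  rw [this]
  exact Finset.measurableSet_biInter _ (fun e _ => measurable_pi_apply e (measurableSet_singleton _))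

omit [DecidableEq ι] in
lemma measurableSet_pat (A D : Finset ι) : MeasurableSet (pat A D) := by
  have : pat A D = allTrue A ∩ ⋂ e ∈ D, (fun ω : ι → Bool => ω e) ⁻¹' {false} := by
    ext ω
    simp [pat, allTrue]
  rw [this]
  exact (measurableSet_allTrue A).inter
    (Finset.measurableSet_biInter _ (fun e _ => measurable_pi_apply e (measurableSet_singleton _)))

lemma pat_split (A D : Finset ι) (g : ι) :
    pat A D = pat A (insert g D) ∪ pat (insert g A) D := by
  ext ω
  simp only [pat, Set.mem_ofPred_eq, Set.mem_union, Finset.mem_insert, forall_eq_or_imp]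
  cases hω : ω g <;> simp

lemma pat_disjoint (A D : Finset ι) (g : ι) :
    Disjoint (pat A (insert g D)) (pat (insert g A) D) := by
  rw [Set.disjoint_left]
  intro ω h1 h2
  have h3 := h1.2 g (Finset.mem_insert_self _ _)
  have h4 := h2.1 g (Finset.mem_insert_self _ _)
  rw [h3] at h4
  exact Bool.false_ne_true h4

/-- Inclusion–exclusion for occupation patterns. -/
lemma real_pat (m : Measure (ι → Bool)) [IsProbabilityMeasure m] (D : Finset ι) :
    ∀ A : Finset ι, (m (pat A D)).toReal
      = ∑ C ∈ D.powerset, (-1 : ℝ) ^ C.card * (m (allTrue (A ∪ C))).toReal := by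
  induction D using Finset.induction_on with
  | empty =>
    intro A
    have : pat A ∅ = allTrue A := by
      ext ω
      simp [pat, allTrue]
    simp [this]
  | insert g D hg ih =>
    intro A
    have hsplit : (m (pat A D)).toReal
        = (m (pat A (insert g D))).toReal + (m (pat (insert g A) D)).toReal := by
      rw [pat_split A D g, measure_union (pat_disjoint A D g) (measurableSet_pat _ _),
        ENNReal.toReal_add (measure_ne_top _ _) (measure_ne_top _ _)]
    rw [Finset.sum_powerset_insert hg]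
    have h1 : (m (pat A (insert g D))).toReal = (m (pat A D)).toReal - (m (pat (insert g A) D)).toReal := by
      linarith
    rw [h1, ih A, ih (insert g A), sub_eq_add_neg, ← Finset.sum_neg_distrib]
    congr 1
    apply Finset.sum_congr rfl
    intro C hC
    have hgC : g ∉ C := fun h => hg (Finset.mem_powerset.mp hC h)
    rw [Finset.card_insert_of_notMem hgC, pow_succ]
    have : insert g A ∪ C = A ∪ insert g C := by
      ext x
      simp only [Finset.mem_union, Finset.mem_insert]
      tauto
    rw [this]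
    ring

lemma cyl_eq_pat {W A : Finset ι} (hA : A ⊆ W) : cyl W A = pat A (W \ A) := by
  ext ω
  simp only [cyl, pat, Set.mem_ofPred_eq, Finset.mem_sdiff]
  constructor
  · intro h
    refine ⟨fun e he => (h e (hA he)).mpr he, fun e he => ?_⟩
    by_contra hne
    have : ω e = true := by simpa using hne
    exact he.2 ((h e he.1).mp this)
  · rintro ⟨h1, h2⟩ i hi
    constructor
    · intro hω
      by_contra hiA
      have := h2 i ⟨hi, hiA⟩
      rw [hω] at this
      exact absurd this (by decide)
    · exact h1 i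

/-- Inclusion–exclusion for the mass function. -/
theorem massW_eq_sum (m : Measure (ι → Bool)) [IsProbabilityMeasure m] {W A : Finset ι} (hA : A ⊆ W) :
    massW m W A = ∑ C ∈ (W \ A).powerset, (-1 : ℝ) ^ C.card * (m (allTrue (A ∪ C))).toReal := by
  unfold massW
  rw [cyl_eq_pat hA, real_pat]

/-- Continuity of the tilted mean in the weights. -/
lemma tendsto_meanTilt {α : Type*} {L : Filter α} {μn : α → Finset ι → ℝ} {μ : Finset ι → ℝ}
    {W : Finset ι} (hlim : ∀ A ∈ W.powerset, Tendsto (fun n => μn n A) L (𝓝 (μ A))) (i : ι) (h : ι → ℝ)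
    (hpos : polyR μ W (fun j => Real.exp (h j)) ≠ 0) :
    Tendsto (fun n => meanTilt (μn n) W i h) L (𝓝 (meanTilt μ W i h)) := by
  unfold meanTilt
  apply Tendsto.div _ _ hpos
  · unfold polyR
    apply tendsto_finsetSum
    intro S hS
    apply Tendsto.mul_const
    simp only
    split_ifs
    · exact hlim S hS
    · exact tendsto_const_nhds
  · unfold polyR
    apply tendsto_finsetSum
    intro S hS
    exact (hlim S hS).mul_const _

/-- Positivity of the denominator for a probability measure. -/
lemma polyR_massW_ne_zero (ν : Measure (ι → Bool)) [IsProbabilityMeasure ν] (W : Finset ι) (h : ι → ℝ) :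
    polyR (massW ν W) W (fun j => Real.exp (h j)) ≠ 0 := by
  obtain ⟨A, hA, hpos⟩ := exists_massW_pos ν W
  exact (polyR_pos (massW_nonneg ν W) (fun j _ => Real.exp_pos _) ⟨A, hA, hpos⟩).ne'

end Crest.Agent.Lib.SR
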