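import Crest.Agent.Lib.SR.UstMono
import Crest.Agent.Lib.SR.Mix
import Crest.Agent.Lib.SR.Ball

set_option autoImplicit false

open MeasureTheory Set Filter Topology
open scoped ENNReal unitInterval
open Crest.ProbabilityR.SpanningTrees

namespace Crest.Agent.Lib.SR

variable {G : SimpleGraph ℕ} {S : Finset ℕ}

/-- The normalised tree weight. -/
noncomputable def treeN (G : SimpleGraph ℕ) (S : Finset ℕ) : Finset (Sym2 ℕ) → ℝ :=
  fun A => treeW G S A / cnt (treeW G S) (edgesIn G S) ∅ ∅

lemma treeN_nonneg (G : SimpleGraph ℕ) (S : Finset ℕ) (A : Finset (Sym2 ℕ)) : 0 ≤ treeN G S A :=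
  div_nonneg (treeW_nonneg _ _ _) (cnt_nonneg (treeW_nonneg _ _) _ _ _)

lemma cnt_empty_empty {ι : Type*} [DecidableEq ι] (μ : Finset ι → ℝ) (E : Finset ι) :
    cnt μ E ∅ ∅ = ∑ A ∈ E.powerset, μ A := by
  unfold cnt
  rw [Finset.filter_true_of_mem]
  intro A _
  exact ⟨Finset.empty_subset _, Finset.disjoint_empty_right _⟩

lemma sum_treeN (hS : (G.induce (S : Set ℕ)).Connected) :
    ∑ A ∈ (edgesIn G S).powerset, treeN G S A = 1 := by
  unfold treeN
  rw [← Finset.sum_div, ← cnt_empty_empty]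
  exact div_self (cnt_tree_pos hS).ne'

lemma stable_treeN (hS : (G.induce (S : Set ℕ)).Connected) : Stable (treeN G S) (edgesIn G S) := by
  intro z hz
  have h1 := stable_treeW G hS z hz
  have hpos := cnt_tree_pos hS
  have h2 : polyC (treeN G S) (edgesIn G S) z
      = ((cnt (treeW G S) (edgesIn G S) ∅ ∅)⁻¹ : ℝ) * polyC (treeW G S) (edgesIn G S) z := by
    unfold polyC treeN
    rw [Finset.mul_sum]
    apply Finset.sum_congr rfl
    intro A _
    push_cast
    rw [div_eq_inv_mul, mul_assoc]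
  rw [h2]
  apply mul_ne_zero _ h1
  exact_mod_cast (inv_pos.mpr hpos).ne'

/-- The law of the uniform spanning tree of a piece. -/
noncomputable def treeMeas (G : SimpleGraph ℕ) (S : Finset ℕ) : Measure (Sym2 ℕ → Bool) :=
  mixMeas (treeN G S) (edgesIn G S)

lemma isProb_treeMeas (hS : (G.induce (S : Set ℕ)).Connected) : IsProbabilityMeasure (treeMeas G S) :=
  isProbabilityMeasure_mixMeas (treeN_nonneg G S) (sum_treeN hS)

lemma indOf_mem_allTrue {ι : Type*} [DecidableEq ι] {A F : Finset ι} : indOf A ∈ allTrue F ↔ F ⊆ A := by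
  simp [indOf, allTrue, Finset.subset_iff]

lemma treeMeas_allTrue (G : SimpleGraph ℕ) (S : Finset ℕ) (F : Finset (Sym2 ℕ)) :
    (treeMeas G S (allTrue F)).toReal = ustContains G S F := by
  unfold treeMeas
  rw [mixMeas_real _ (treeN_nonneg G S) _ (measurableSet_allTrue F), ust_eq_cnt]
  unfold treeN
  have h2 : cnt (treeW G S) (edgesIn G S) F ∅
      = ∑ A ∈ (edgesIn G S).powerset, treeW G S A * (allTrue F).indicator (fun _ => (1 : ℝ)) (indOf A) := by
    unfold cnt
    rw [Finset.sum_filter]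
    apply Finset.sum_congr rfl
    intro A _
    by_cases h : F ⊆ A
    · rw [if_pos ⟨h, Finset.disjoint_empty_right _⟩, indicator_of_mem (indOf_mem_allTrue.mpr h), mul_one]
    · rw [if_neg (fun h' => h h'.1), indicator_of_notMem (fun h' => h (indOf_mem_allTrue.mp h')), mul_zero]
  rw [h2, Finset.sum_div]
  apply Finset.sum_congr rfl
  intro A _
  ring

section clopen

variable {Ω : Type*} [MeasurableSpace Ω] [TopologicalSpace Ω] [OpensMeasurableSpace Ω]

lemma tendsto_clopen {α : Type*} {L : Filter α} {Pn : α → ProbabilityMeasure Ω} {ν : ProbabilityMeasure Ω}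
    (h : Tendsto Pn L (𝓝 ν)) {B : Set Ω} (hB : IsClopen B) :
    Tendsto (fun n => ((Pn n : Measure Ω) B).toReal) L (𝓝 (((ν : Measure Ω) B).toReal)) := by
  classical
  have hcont : Continuous (B.indicator (fun _ => (1 : ℝ))) :=
    hB.continuous_indicator continuous_const
  let f : BoundedContinuousFunction Ω ℝ :=
    BoundedContinuousFunction.ofNormedAddCommGroup (B.indicator (fun _ => (1 : ℝ))) hcont 1 (by
      intro x
      by_cases hx : x ∈ B <;> simp [hx])
  have hmeas : MeasurableSet B := hB.isOpen.measurableSet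
  have h1 := ProbabilityMeasure.tendsto_iff_forall_integral_tendsto.mp h f
  have h2 : ∀ m : Measure Ω, ∫ ω, f ω ∂m = (m B).toReal := by
    intro m
    have : ∀ ω, f ω = B.indicator (fun _ => (1 : ℝ)) ω := fun _ => rfl
    simp_rw [this]
    rw [integral_indicator_const _ hmeas]
    simp [measureReal_def]
  simp_rw [h2] at h1
  exact h1

end clopen

lemma isClopen_allTrue (F : Finset (Sym2 ℕ)) : IsClopen (allTrue F : Set (Sym2 ℕ → Bool)) := by
  have : allTrue F = ⋂ e ∈ F, (fun ω : Sym2 ℕ → Bool => ω e) ⁻¹' {true} := by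
    ext ω
    simp [allTrue]
  rw [this]
  apply Set.Finite.isClopen_biInter F.finite_toSet
  intro e _
  exact (isClopen_discrete _).preimage (continuous_apply e)

/-- The limiting mass function. -/
noncomputable def cG (G : SimpleGraph ℕ) (W A : Finset (Sym2 ℕ)) : ℝ :=
  ∑ C ∈ (W \ A).powerset, (-1 : ℝ) ^ C.card * uG G (A ∪ C)

/-- **The free uniform spanning forest.** -/
theorem exists_fusf (hG : Good G) :
    ∃ ν : Measure (Sym2 ℕ → Bool), IsProbabilityMeasure ν ∧
      (∀ F, (ν (allTrue F)).toReal = uG G F) ∧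
      (∀ W i (h h' : Sym2 ℕ → ℝ) (δ : ℝ), i ∈ W → (∀ j ∈ W, |h j - h' j| ≤ δ) →
        |aW ν W i h - aW ν W i h'| ≤ δ / 2) := by
  -- the canonical exhaustion
  set Sn : ℕ → Finset ℕ := fun n => finsetOf (ball G 0 n) with hSn
  have hcoe : ∀ n, ((Sn n : Finset ℕ) : Set ℕ) = ball G 0 n := fun n =>
    coe_finsetOf (ball_finite hG.2 0 n)
  have hmono : Monotone Sn := by
    intro m n hmn
    rw [← Finset.coe_subset, hcoe, hcoe]
    exact ball_mono G 0 hmn
  have hex : ∀ v, ∃ n, v ∈ Sn n := by
    intro v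
    obtain ⟨n, hn⟩ := exists_mem_ball_of_reachable (hG.1.preconnected 0 v)
    refine ⟨n, ?_⟩
    rw [← Finset.mem_coe, hcoe]
    exact hn
  have hconn : ∀ n, (G.induce (Sn n : Set ℕ)).Connected := by
    intro n
    rw [hcoe]
    exact ball_induce_connected G 0 n
  have hinst : ∀ n, IsProbabilityMeasure (treeMeas G (Sn n)) := fun n => isProb_treeMeas (hconn n)
  let P : ℕ → ProbabilityMeasure (Sym2 ℕ → Bool) := fun n => ⟨treeMeas G (Sn n), hinst n⟩
  let U : Ultrafilter ℕ := hyperfilter ℕ
  let V : Ultrafilter (ProbabilityMeasure (Sym2 ℕ → Bool)) := U.map P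
  let ν₀ : ProbabilityMeasure (Sym2 ℕ → Bool) := V.lim
  have hlim : Tendsto P U (𝓝 ν₀) := V.le_nhds_lim
  have hU : (U : Filter ℕ) ≤ atTop := Nat.hyperfilter_le_atTop
  have hall : ∀ F, ((ν₀ : Measure (Sym2 ℕ → Bool)) (allTrue F)).toReal = uG G F := by
    intro F
    have h1 := tendsto_clopen hlim (isClopen_allTrue F)
    have h2 : (fun n => ((P n : Measure (Sym2 ℕ → Bool)) (allTrue F)).toReal)
        = fun n => ustContains G (Sn n) F := by
      funext n
      exact treeMeas_allTrue G (Sn n) F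
    rw [h2] at h1
    exact tendsto_nhds_unique h1 ((tendsto_ust hmono hex hconn F).mono_left hU)
  refine ⟨(ν₀ : Measure (Sym2 ℕ → Bool)), inferInstance, hall, ?_⟩
  · intro W i h h' δ hi hδ
    have hmass : ∀ A ∈ W.powerset, Tendsto (fun n => massW (treeMeas G (Sn n)) W A) U
        (𝓝 (massW (ν₀ : Measure (Sym2 ℕ → Bool)) W A)) := by
      intro A hA
      have hA' := Finset.mem_powerset.mp hA
      have e1 : (fun n => massW (treeMeas G (Sn n)) W A)
          = fun n => ∑ C ∈ (W \ A).powerset, (-1 : ℝ) ^ C.card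
            * ((P n : Measure (Sym2 ℕ → Bool)) (allTrue (A ∪ C))).toReal := by
        funext n
        haveI := hinst n
        exact massW_eq_sum _ hA'
      rw [e1, massW_eq_sum _ hA']
      apply tendsto_finsetSum
      intro C _
      exact (tendsto_clopen hlim (isClopen_allTrue _)).const_mul _
    have h1 := tendsto_meanTilt hmass i h (polyR_massW_ne_zero _ W h)
    have h2 := tendsto_meanTilt hmass i h' (polyR_massW_ne_zero _ W h')
    apply le_of_tendsto (h1.sub h2).abs
    filter_upwards with n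
    exact aW_mix_lipschitz (treeN_nonneg G _) (stable_treeN (hconn n)) hi hδ

/-- The mass function of the free forest. -/
lemma massW_eq_cG {ν : Measure (Sym2 ℕ → Bool)} [IsProbabilityMeasure ν]
    (hν : ∀ F, (ν (allTrue F)).toReal = uG G F) {W A : Finset (Sym2 ℕ)} (hA : A ⊆ W) :
    massW ν W A = cG G W A := by
  rw [massW_eq_sum ν hA]
  unfold cG
  simp_rw [hν]

end Crest.Agent.Lib.SR
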