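import Crest.Agent.Lib.SR.Labels
import Crest.Prelude.Def_Labels

set_option autoImplicit false

open MeasureTheory Set Filter Topology
open scoped ENNReal unitInterval
open Crest.ProbabilityR.SpanningTrees Crest.ProbabilityR.GraphTables Crest.ProbabilityR.Labels

namespace Crest.Agent.Lib.SR

/-- The labels of the pairs read from the labels of the vertices. -/
noncomputable def labG (f : I → ℕ → I) (G : SimpleGraph ℕ) (x : ℕ → I) : Sym2 ℕ → I :=
  labFn G (fun u => f (x u) 0) (fun u r => f (x u) (r + 1))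

open Classical in
/-- The factor map. -/
noncomputable def PhiF (f : I → ℕ → I) (G : SimpleGraph ℕ) (x : ℕ → I) : Sym2 ℕ → Bool :=
  if Good G then fiidRule (aG G) f (labG f G x) else fun _ => false

lemma good_comap (τ : Equiv.Perm ℕ) (G : SimpleGraph ℕ) : Good (G.comap τ) ↔ Good G := by
  unfold Good
  apply and_congr
  · rw [connected_iff_ball, connected_iff_ball]
    constructor
    · intro h a b
      obtain ⟨n, hn⟩ := h (τ.symm a) (τ.symm b)
      rw [mem_ball_comap] at hn
      exact ⟨n, by simpa using hn⟩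
    · intro h a b
      obtain ⟨n, hn⟩ := h (τ a) (τ b)
      exact ⟨n, (mem_ball_comap τ G a n b).mpr hn⟩
  · have hset : ∀ v, (G.comap τ).neighborSet v = τ ⁻¹' G.neighborSet (τ v) := by
      intro v
      ext w
      simp
    constructor
    · intro h v
      have h1 := h (τ.symm v)
      rw [hset] at h1
      have h2 := h1.image τ
      rw [Set.image_preimage_eq _ τ.surjective] at h2
      simpa using h2
    · intro h v
      rw [hset]
      exact (h (τ v)).preimage τ.injective.injOn

lemma labG_comap (f : I → ℕ → I) (τ : Equiv.Perm ℕ) (G : SimpleGraph ℕ) (x : ℕ → I) :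
    labG f (G.comap τ) (x ∘ τ) = labG f G x ∘ symE τ := by
  funext e
  exact labFn_comap τ G (fun u => f (x u) 0) (fun u r => f (x u) (r + 1)) e

lemma PhiF_comap (f : I → ℕ → I) (τ : Equiv.Perm ℕ) (G : SimpleGraph ℕ) (x : ℕ → I) :
    PhiF f (G.comap τ) (x ∘ τ) = PhiF f G x ∘ Sym2.map τ := by
  unfold PhiF
  by_cases hG : Good G
  · rw [if_pos hG, if_pos ((good_comap τ G).mpr hG)]
    set u := labG f G x with hu
    set u' := labG f (G.comap τ) (x ∘ τ) with hu'
    have huu : u' = u ∘ symE τ := labG_comap f τ G x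
    have h1 := Rule_equiv (symE τ) (fun i h => aG_comap τ G i h)
      (fun g => ((f (u' g) 0 : I) : ℝ)) (fun q => f (u' q.2) (q.1 + 1))
    have e1 : fiidRule (aG G) f u = Rule (aG G) ((fun g => ((f (u' g) 0 : I) : ℝ)) ∘ (symE τ).symm)
        (relabel (symE τ) (fun q => f (u' q.2) (q.1 + 1))) := by
      unfold fiidRule relabel
      congr 1
      · funext g
        simp [huu]
      · funext q
        simp [huu]
    rw [e1, h1]
    funext e
    have hs : (symE τ).symm (Sym2.map τ e) = e := (symE τ).symm_apply_apply e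
    simp only [fiidRule, Function.comp, hs]
  · rw [if_neg hG, if_neg (fun h => hG ((good_comap τ G).mp h))]
    rfl

/-- Measurability of the labels. -/
lemma measurable_labG {f : I → ℕ → I} (hf : Measurable f) :
    Measurable (fun p : (ℕ → ℕ → Bool) × (ℕ → I) => labG f (gT p.1) p.2) := by
  have h1 : Measurable (fun p : (ℕ → ℕ → Bool) × (ℕ → I) =>
      ((p.1, (fun u => f (p.2 u) 0), (fun q : ℕ × ℕ => f (p.2 q.1) (q.2 + 1))) : ParamL)) := by
    apply measurable_fst.prodMk
    apply Measurable.prodMk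
    · rw [measurable_pi_iff]
      intro u
      exact (measurable_pi_apply 0).comp (hf.comp ((measurable_pi_apply u).comp measurable_snd))
    · rw [measurable_pi_iff]
      intro q
      exact (measurable_pi_apply _).comp (hf.comp ((measurable_pi_apply q.1).comp measurable_snd))
  have h2 := measurable_labFn_param.comp h1
  exact h2

lemma measurable_PhiF {f : I → ℕ → I} (hf : Measurable f) :
    Measurable (fun p : (ℕ → ℕ → Bool) × (ℕ → I) => PhiF f (gT p.1) p.2) := by
  classical
  unfold PhiF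
  apply Measurable.ite (measurable_fst measurableSet_good) _ measurable_const
  have h1 := measurable_Rule (Θ := ℕ → ℕ → Bool) (a := fun t => aG (gT t))
    (fun e => measurable_aG e)
  have hlab := measurable_labG hf
  have h2 : Measurable (fun p : (ℕ → ℕ → Bool) × (ℕ → I) =>
      ((p.1, (fun g => ((f (labG f (gT p.1) p.2 g) 0 : I) : ℝ)),
        (fun q : ℕ × Sym2 ℕ => f (labG f (gT p.1) p.2 q.2) (q.1 + 1))) :
        (ℕ → ℕ → Bool) × (Sym2 ℕ → ℝ) × (ℕ × Sym2 ℕ → I))) := by
    apply measurable_fst.prodMk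
    apply Measurable.prodMk
    · rw [measurable_pi_iff]
      intro g
      exact measurable_subtype_coe.comp ((measurable_pi_apply 0).comp
        (hf.comp ((measurable_pi_apply g).comp hlab)))
    · rw [measurable_pi_iff]
      intro q
      exact (measurable_pi_apply _).comp (hf.comp ((measurable_pi_apply q.2).comp hlab))
  have h3 := h1.comp h2
  exact h3

/-- The law of the factor on a good graph. -/
theorem map_PhiF {f : I → ℕ → I} (hf : Measurable f) (hfmap : (volume : Measure I).map f = Unif ℕ)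
    {G : SimpleGraph ℕ} (hG : Good G) {ν : Measure (Sym2 ℕ → Bool)} [IsProbabilityMeasure ν]
    (hν : ∀ F, (ν (allTrue F)).toReal = uG G F)
    (hlip : ∀ W i (h h' : Sym2 ℕ → ℝ) (δ : ℝ), i ∈ W → (∀ j ∈ W, |h j - h' j| ≤ δ) →
        |aW ν W i h - aW ν W i h'| ≤ δ / 2) :
    (labelMeasure ℕ).map (PhiF f G) = ν := by
  classical
  have ham : ∀ e, Measurable (aG G e) := by
    intro e
    have h1 := measurable_aG e
    have h2 : Measurable (fun h : Sym2 ℕ → ℝ => ((tableOf G, h) : (ℕ → ℕ → Bool) × (Sym2 ℕ → ℝ))) :=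
      measurable_const.prodMk measurable_id
    have h3 := h1.comp h2
    have h4 : aG G e = (fun p : (ℕ → ℕ → Bool) × (Sym2 ℕ → ℝ) => aG (gT p.1) e p.2)
        ∘ (fun h : Sym2 ℕ → ℝ => ((tableOf G, h) : (ℕ → ℕ → Bool) × (Sym2 ℕ → ℝ))) := by
      funext h
      simp only [Function.comp, gT_tableOf]
    rw [h4]
    exact h3
  have hcore : ∀ ρ : Sym2 ℕ → ℝ, Function.Injective ρ → (Unif (ℕ × Sym2 ℕ)).map (Rule (aG G) ρ) = ν := by
    intro ρ hρ
    exact core_law ν (wnd_mono hG.2) (mem_wnd_self hG.2) (exists_mem_wnd hG)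
      (aG_eq_limsup hν)
      (fun e n h h' δ hδ => hlip _ e h h' δ (mem_wnd_self hG.2 e n) hδ) hρ
  have hlaw := map_fiidRule ham hf hfmap hcore
  have hlabm : Measurable (labG f G) := by
    have h1 := measurable_labG hf
    have h2 : Measurable (fun x : ℕ → I => ((tableOf G, x) : (ℕ → ℕ → Bool) × (ℕ → I))) :=
      measurable_const.prodMk measurable_id
    have h3 := h1.comp h2
    have h4 : labG f G = (fun p : (ℕ → ℕ → Bool) × (ℕ → I) => labG f (gT p.1) p.2)
        ∘ (fun x : ℕ → I => ((tableOf G, x) : (ℕ → ℕ → Bool) × (ℕ → I))) := by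
      funext x
      simp only [Function.comp, gT_tableOf]
    rw [h4]
    exact h3
  have hPhi : PhiF f G = fiidRule (aG G) f ∘ labG f G := by
    funext x
    unfold PhiF
    rw [if_pos hG]
    rfl
  rw [hPhi]
  have hlab : (labelMeasure ℕ).map (labG f G) = Unif (Sym2 ℕ) := lab_law hG hf hfmap
  rw [← Measure.map_map (measurable_fiidRule ham hf) hlabm, hlab, hlaw]

/-- **The free uniform spanning forest is a factor of independent labels.** -/
theorem fusf_factor :
    ∃ Φ : SimpleGraph ℕ → (ℕ → I) → (Sym2 ℕ → Bool),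
      Measurable (fun p : (ℕ → ℕ → Bool) × (ℕ → I) => Φ (graphOfTable p.1) p.2) ∧
      (∀ (τ : Equiv.Perm ℕ) (G : SimpleGraph ℕ) (x : ℕ → I),
          Φ (G.comap ⇑τ) (x ∘ ⇑τ) = Φ G x ∘ Sym2.map ⇑τ) ∧
      ∀ G : SimpleGraph ℕ, G.Connected → (∀ v : ℕ, (G.neighborSet v).Finite) →
        ∀ S : ℕ → Finset ℕ, Monotone S → (∀ v : ℕ, ∃ n, v ∈ S n) →
          (∀ n, (G.induce (S n : Set ℕ)).Connected) →
          ∀ F : Finset (Sym2 ℕ), (↑F : Set (Sym2 ℕ)) ⊆ G.edgeSet →
            Filter.Tendsto (fun n => ustContains G (S n) F) Filter.atTop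
              (nhds (((labelMeasure ℕ).map (Φ G) {ω | ∀ e ∈ F, ω e = true}).toReal)) := by
  obtain ⟨f, hf, hfmap⟩ := exists_split
  refine ⟨PhiF f, measurable_PhiF hf, PhiF_comap f, ?_⟩
  intro G hc hfin S hS hex hconn F _
  have hG : Good G := ⟨hc, hfin⟩
  obtain ⟨ν, hprob, hν, hlip⟩ := exists_fusf hG
  have hmap := map_PhiF hf hfmap hG hν hlip
  rw [hmap]
  have h1 : (ν {ω | ∀ e ∈ F, ω e = true}).toReal = uG G F := hν F
  rw [h1]
  exact tendsto_ust hS hex hconn F

end Crest.Agent.Lib.SR
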