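import Crest.Agent.Lib.SR.Window

set_option autoImplicit false

open MeasureTheory Set Filter Topology
open scoped ENNReal unitInterval
open Crest.ProbabilityR.GraphTables

namespace Crest.Agent.Lib.SR

section order

variable (B : ℕ → Set ℕ) (O : ℕ → I)

/-- `w` comes before `v`: it is in an earlier set, or in the same sets with a smaller label. -/
def bef (w v : ℕ) : Prop :=
  (∃ n, w ∈ B n ∧ v ∉ B n) ∨ ((∀ n, w ∈ B n ↔ v ∈ B n) ∧ O w < O v)

variable {B O}

lemma bef_irrefl (v : ℕ) : ¬ bef B O v v := by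
  rintro (⟨n, h1, h2⟩ | ⟨_, h⟩)
  · exact h2 h1
  · exact lt_irrefl _ h

lemma bef_trans (hB : Monotone B) {x y z : ℕ} (h1 : bef B O x y) (h2 : bef B O y z) : bef B O x z := by
  rcases h1 with ⟨n, hx, hy⟩ | ⟨h1, hxy⟩
  · rcases h2 with ⟨m, hy', hz⟩ | ⟨h2, _⟩
    · left
      have hnm : n ≤ m := by
        by_contra hcon
        exact hy (hB (not_le.mp hcon).le hy')
      exact ⟨m, hB hnm hx, hz⟩
    · left
      exact ⟨n, hx, fun h => hy ((h2 n).mpr h)⟩
  · rcases h2 with ⟨m, hy', hz⟩ | ⟨h2, hyz⟩
    · left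
      exact ⟨m, (h1 m).mpr hy', hz⟩
    · right
      exact ⟨fun n => (h1 n).trans (h2 n), hxy.trans hyz⟩

lemma bef_total (hO : Function.Injective O) {w v : ℕ} (hne : w ≠ v) : bef B O w v ∨ bef B O v w := by
  by_cases h1 : ∃ n, w ∈ B n ∧ v ∉ B n
  · exact Or.inl (Or.inl h1)
  by_cases h2 : ∃ n, v ∈ B n ∧ w ∉ B n
  · exact Or.inr (Or.inl h2)
  push Not at h1 h2
  have hs : ∀ n, w ∈ B n ↔ v ∈ B n := fun n => ⟨h1 n, h2 n⟩
  rcases lt_or_gt_of_ne (fun h => hne (hO h) : O w ≠ O v) with h | h
  · exact Or.inl (Or.inr ⟨hs, h⟩)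
  · exact Or.inr (Or.inr ⟨fun n => (hs n).symm, h⟩)

lemma bef_finite (hB : Monotone B) (hfin : ∀ n, (B n).Finite) (hex : ∀ v, ∃ n, v ∈ B n) (v : ℕ) :
    {w | bef B O w v}.Finite := by
  obtain ⟨n₀, hn₀⟩ := hex v
  apply (hfin n₀).subset
  rintro w (⟨n, hw, hv⟩ | ⟨h, _⟩)
  · have : n ≤ n₀ := by
      by_contra hcon
      exact hv (hB (not_le.mp hcon).le hn₀)
    exact hB this hw
  · exact (h n₀).mpr hn₀

lemma rk_lt (hB : Monotone B) (hfin : ∀ n, (B n).Finite) (hex : ∀ v, ∃ n, v ∈ B n) {w v : ℕ}
    (h : bef B O w v) :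
    (finsetOf {x | bef B O x w}).card < (finsetOf {x | bef B O x v}).card := by
  apply Finset.card_lt_card
  rw [Finset.ssubset_iff_of_subset]
  · refine ⟨w, ?_, ?_⟩
    · rw [mem_finsetOf (bef_finite hB hfin hex v)]
      exact h
    · rw [mem_finsetOf (bef_finite hB hfin hex w)]
      exact bef_irrefl w
  · intro x hx
    rw [mem_finsetOf (bef_finite hB hfin hex w)] at hx
    rw [mem_finsetOf (bef_finite hB hfin hex v)]
    exact bef_trans hB hx h

lemma rk_injective (hB : Monotone B) (hfin : ∀ n, (B n).Finite) (hex : ∀ v, ∃ n, v ∈ B n)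
    (hO : Function.Injective O) {w v : ℕ}
    (h : (finsetOf {x | bef B O x w}).card = (finsetOf {x | bef B O x v}).card) : w = v := by
  by_contra hne
  rcases bef_total (B := B) hO hne with h1 | h1
  · exact absurd h (rk_lt hB hfin hex h1).ne
  · exact absurd h (rk_lt hB hfin hex h1).ne'

end order

/-- The rank of `v` in the order seen from `u`. -/
noncomputable def rank (G : SimpleGraph ℕ) (O : ℕ → I) (u v : ℕ) : ℕ :=
  (finsetOf {w | bef (ball G u) O w v}).card

lemma rank_comap (τ : Equiv.Perm ℕ) (G : SimpleGraph ℕ) (O : ℕ → I) (u v : ℕ) :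
    rank (G.comap τ) (O ∘ τ) u v = rank G O (τ u) (τ v) := by
  unfold rank
  have h1 : {w | bef (ball (G.comap τ) u) (O ∘ τ) w v} = τ ⁻¹' {w | bef (ball G (τ u)) O w (τ v)} := by
    ext w
    simp [bef, mem_ball_comap]
  rw [h1, finsetOf_preimage, Finset.card_map]

lemma rank_injective {G : SimpleGraph ℕ} (hG : Good G) {O : ℕ → I} (hO : Function.Injective O) (u : ℕ)
    {w v : ℕ} (h : rank G O u w = rank G O u v) : w = v :=
  rk_injective (ball_mono G u) (ball_finite hG.2 u)
    (fun v => exists_mem_ball_of_reachable (hG.1.preconnected u v)) hO h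

/-- The label of a pair, read from the stock of its owner. -/
noncomputable def labPair (G : SimpleGraph ℕ) (O : ℕ → I) (st : ℕ → ℕ → I) (a b : ℕ) : I :=
  if O a < O b then st a (rank G O a b)
  else if O b < O a then st b (rank G O b a)
  else if a = b then st a (rank G O a a) else 0

lemma labPair_comm (G : SimpleGraph ℕ) (O : ℕ → I) (st : ℕ → ℕ → I) (a b : ℕ) :
    labPair G O st a b = labPair G O st b a := by
  unfold labPair
  by_cases h1 : O a < O b
  · have h2 : ¬ O b < O a := not_lt.mpr h1.le
    simp [h1, h2]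
  · by_cases h2 : O b < O a
    · simp [h1, h2]
    · by_cases hab : a = b
      · subst hab
        simp
      · simp [h1, h2, hab, Ne.symm hab]

/-- The labels of all pairs. -/
noncomputable def labFn (G : SimpleGraph ℕ) (O : ℕ → I) (st : ℕ → ℕ → I) : Sym2 ℕ → I :=
  Sym2.lift ⟨labPair G O st, labPair_comm G O st⟩

@[simp] lemma labFn_mk (G : SimpleGraph ℕ) (O : ℕ → I) (st : ℕ → ℕ → I) (a b : ℕ) :
    labFn G O st s(a, b) = labPair G O st a b := rfl

lemma labFn_comap (τ : Equiv.Perm ℕ) (G : SimpleGraph ℕ) (O : ℕ → I) (st : ℕ → ℕ → I) (e : Sym2 ℕ) :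
    labFn (G.comap τ) (O ∘ τ) (fun u r => st (τ u) r) e = labFn G O st (symE τ e) := by
  induction e using Sym2.ind with
  | _ a b =>
    simp only [labFn_mk, symE_mk]
    unfold labPair
    simp only [rank_comap, Function.comp, τ.injective.eq_iff]

section measurability

/-- The parameter space of the labels. -/
abbrev ParamL := (ℕ → ℕ → Bool) × (ℕ → I) × (ℕ × ℕ → I)

lemma measurableSet_ball_param (a w n : ℕ) :
    MeasurableSet {z : ParamL | w ∈ ball (gT z.1) a n} :=
  measurable_fst (measurableSet_mem_ball a w n)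

lemma measurableSet_lt_param (a b : ℕ) : MeasurableSet {z : ParamL | z.2.1 a < z.2.1 b} := by
  apply measurableSet_lt
  · exact (measurable_pi_apply a).comp (measurable_fst.comp measurable_snd)
  · exact (measurable_pi_apply b).comp (measurable_fst.comp measurable_snd)

lemma measurableSet_bef_param (u w v : ℕ) :
    MeasurableSet {z : ParamL | bef (ball (gT z.1) u) z.2.1 w v} := by
  have : {z : ParamL | bef (ball (gT z.1) u) z.2.1 w v}
      = (⋃ n : ℕ, ({z | w ∈ ball (gT z.1) u n} ∩ {z | v ∈ ball (gT z.1) u n}ᶜ))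
        ∪ ((⋂ n : ℕ, (({z | w ∈ ball (gT z.1) u n} ∩ {z | v ∈ ball (gT z.1) u n})
            ∪ ({z | w ∈ ball (gT z.1) u n}ᶜ ∩ {z | v ∈ ball (gT z.1) u n}ᶜ)))
          ∩ {z | z.2.1 w < z.2.1 v}) := by
    ext z
    simp only [bef, Set.mem_ofPred_eq, mem_union, mem_iUnion, mem_inter_iff, mem_compl_iff, mem_iInter]
    apply or_congr Iff.rfl
    apply and_congr _ Iff.rfl
    apply forall_congr'
    intro n
    tauto
  rw [this]
  apply MeasurableSet.union
  · exact MeasurableSet.iUnion (fun n =>
      (measurableSet_ball_param u w n).inter (measurableSet_ball_param u v n).compl)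
  · apply MeasurableSet.inter _ (measurableSet_lt_param w v)
    apply MeasurableSet.iInter
    intro n
    exact ((measurableSet_ball_param u w n).inter (measurableSet_ball_param u v n)).union
      ((measurableSet_ball_param u w n).compl.inter (measurableSet_ball_param u v n).compl)

lemma measurable_rank_param (u v : ℕ) : Measurable (fun z : ParamL => rank (gT z.1) z.2.1 u v) := by
  unfold rank
  exact measurable_select (fun z : ParamL => finsetOf {w | bef (ball (gT z.1) u) z.2.1 w v})
    (measurableSet_finsetOf _ (fun w => measurableSet_bef_param u w v))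
    (fun s _ => s.card) (fun s => measurable_const)

lemma measurable_st_rank (x u v : ℕ) :
    Measurable (fun z : ParamL => z.2.2 (x, rank (gT z.1) z.2.1 u v)) :=
  measurable_select (fun z : ParamL => rank (gT z.1) z.2.1 u v)
    (fun c => measurable_rank_param u v (measurableSet_singleton c))
    (fun r z => z.2.2 (x, r))
    (fun r => (measurable_pi_apply (x, r)).comp (measurable_snd.comp measurable_snd))

lemma measurable_labFn_param :
    Measurable (fun z : ParamL => labFn (gT z.1) z.2.1 (fun u r => z.2.2 (u, r))) := by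
  rw [measurable_pi_iff]
  intro e
  induction e using Sym2.ind with
  | _ a b =>
    simp only [labFn_mk]
    unfold labPair
    apply Measurable.ite (measurableSet_lt_param a b) (measurable_st_rank a a b)
    apply Measurable.ite (measurableSet_lt_param b a) (measurable_st_rank b b a)
    apply Measurable.ite (MeasurableSet.const _) (measurable_st_rank a a a) measurable_const

lemma gT_tableOf (G : SimpleGraph ℕ) : gT (tableOf G) = G := by
  ext a b
  rw [gT_adj]
  unfold tableOf
  simp only [decide_eq_true_eq]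
  constructor
  · rintro ⟨_, h | h⟩
    · exact h
    · exact h.symm
  · intro h
    exact ⟨h.ne, Or.inl h⟩

/-- Measurability for a fixed graph. -/
lemma measurable_labFn_fixed (G : SimpleGraph ℕ) :
    Measurable (fun z : (ℕ → I) × (ℕ × ℕ → I) => labFn G z.1 (fun u r => z.2 (u, r))) := by
  have h1 : Measurable (fun z : (ℕ → I) × (ℕ × ℕ → I) => ((tableOf G, z) : ParamL)) :=
    measurable_const.prodMk measurable_id
  have h2 := measurable_labFn_param.comp h1
  have h3 : (fun z : (ℕ → I) × (ℕ × ℕ → I) => labFn G z.1 (fun u r => z.2 (u, r)))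
      = (fun z : ParamL => labFn (gT z.1) z.2.1 (fun u r => z.2.2 (u, r)))
        ∘ (fun z : (ℕ → I) × (ℕ × ℕ → I) => ((tableOf G, z) : ParamL)) := by
    funext z
    simp only [Function.comp, gT_tableOf]
  rw [h3]
  exact h2

end measurability

section owner

/-- The stock address of a pair. -/
noncomputable def ownPair (G : SimpleGraph ℕ) (O : ℕ → I) (a b : ℕ) : ℕ × ℕ :=
  if O a < O b then (a, rank G O a b)
  else if O b < O a then (b, rank G O b a)
  else if a = b then (a, rank G O a a) else (0, 0)

lemma ownPair_comm (G : SimpleGraph ℕ) (O : ℕ → I) (a b : ℕ) : ownPair G O a b = ownPair G O b a := by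
  unfold ownPair
  by_cases h1 : O a < O b
  · have h2 : ¬ O b < O a := not_lt.mpr h1.le
    simp [h1, h2]
  · by_cases h2 : O b < O a
    · simp [h1, h2]
    · by_cases hab : a = b
      · subst hab
        simp
      · simp [h1, h2, hab, Ne.symm hab]

noncomputable def own (G : SimpleGraph ℕ) (O : ℕ → I) : Sym2 ℕ → ℕ × ℕ :=
  Sym2.lift ⟨ownPair G O, ownPair_comm G O⟩

variable {G : SimpleGraph ℕ} {O : ℕ → I}

lemma labFn_eq_own (hO : Function.Injective O) (S : ℕ × ℕ → I) (e : Sym2 ℕ) :
    labFn G O (fun u r => S (u, r)) e = S (own G O e) := by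
  induction e using Sym2.ind with
  | _ a b =>
    simp only [labFn_mk, own, Sym2.lift_mk]
    unfold labPair ownPair
    by_cases h1 : O a < O b
    · simp [h1]
    · by_cases h2 : O b < O a
      · simp [h1, h2]
      · have hab : a = b := hO (le_antisymm (not_lt.mp h2) (not_lt.mp h1))
        simp [hab]

lemma own_form (hO : Function.Injective O) (e : Sym2 ℕ) :
    ∃ x y, e = s(x, y) ∧ own G O e = (x, rank G O x y) := by
  induction e using Sym2.ind with
  | _ a b =>
    by_cases h1 : O a < O b
    · exact ⟨a, b, rfl, by simp [own, ownPair, h1]⟩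
    · by_cases h2 : O b < O a
      · exact ⟨b, a, Sym2.eq_swap, by simp [own, ownPair, h1, h2]⟩
      · have hab : a = b := hO (le_antisymm (not_lt.mp h2) (not_lt.mp h1))
        exact ⟨a, a, by rw [hab], by simp [own, ownPair, hab]⟩

lemma own_injective (hG : Good G) (hO : Function.Injective O) : Function.Injective (own G O) := by
  intro e e' h
  obtain ⟨x, y, rfl, h1⟩ := own_form (G := G) hO e
  obtain ⟨x', y', rfl, h2⟩ := own_form (G := G) hO e'
  rw [h1, h2] at h
  obtain ⟨rfl, hr⟩ := Prod.mk.inj h
  rw [rank_injective hG hO x hr]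

end owner

section law

/-- Coordinates along an injective map of independent labels are independent labels. -/
lemma unif_map_comp_injective {A C : Type*} {π : A → C} (hπ : Function.Injective π) :
    (Unif C).map (fun x : C → I => x ∘ π) = Unif A := by
  have hT := unif_map_prod (B := {c : C // c ∉ Set.range π}) hπ Subtype.val_injective
    (fun a b h => b.2 ⟨a, h⟩)
  have hm : Measurable (fun x : C → I => ((x ∘ π, x ∘ Subtype.val) : (A → I) × ({c : C // c ∉ Set.range π} → I))) := by
    apply Measurable.prodMk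
    · rw [measurable_pi_iff]
      intro a
      exact measurable_pi_apply _
    · rw [measurable_pi_iff]
      intro a
      exact measurable_pi_apply _
  have h2 := congrArg (fun m => m.map Prod.fst) hT
  rw [Measure.map_map measurable_fst hm, Measure.map_fst_prod] at h2
  have h3 : (Prod.fst ∘ fun x : C → I =>
      ((x ∘ π, x ∘ Subtype.val) : (A → I) × ({c : C // c ∉ Set.range π} → I))) = fun x : C → I => x ∘ π := rfl
  rw [h3] at h2
  simpa using h2

/-- The labels of the pairs are independent and uniform. -/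
theorem lab_law {G : SimpleGraph ℕ} (hG : Good G) {f : I → ℕ → I} (hf : Measurable f)
    (hfmap : (volume : Measure I).map f = Unif ℕ) :
    (Unif ℕ).map (fun x : ℕ → I => labFn G (fun u => f (x u) 0) (fun u r => f (x u) (r + 1)))
      = Unif (Sym2 ℕ) := by
  set E : (ℕ → I) → ℕ × ℕ → I := fun u q => f (u q.1) q.2 with hE
  have hEm : Measurable E := by
    rw [measurable_pi_iff]
    intro q
    exact (measurable_pi_apply _).comp (hf.comp (measurable_pi_apply q.1))
  have hElaw : (Unif ℕ).map E = Unif (ℕ × ℕ) := unif_map_split hf hfmap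
  set i₁ : ℕ → ℕ × ℕ := fun g => (g, 0) with hi₁
  set i₂ : ℕ × ℕ → ℕ × ℕ := fun q => (q.1, q.2 + 1) with hi₂
  have hinj1 : Function.Injective i₁ := fun x y h => (Prod.mk.inj h).1
  have hinj2 : Function.Injective i₂ := fun x y h => by
    have h' := Prod.mk.inj h
    exact Prod.ext h'.1 (by simpa using h'.2)
  have hdisj : ∀ a b, i₁ a ≠ i₂ b := fun a b h => by
    have h' := (Prod.mk.inj h).2
    simp at h'
  have hT := unif_map_prod hinj1 hinj2 hdisj
  have hTm : Measurable (fun x : ℕ × ℕ → I => ((x ∘ i₁, x ∘ i₂) : (ℕ → I) × (ℕ × ℕ → I))) := by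
    apply Measurable.prodMk
    · rw [measurable_pi_iff]
      intro a
      exact measurable_pi_apply _
    · rw [measurable_pi_iff]
      intro a
      exact measurable_pi_apply _
  set Ψ : (ℕ → I) × (ℕ × ℕ → I) → (Sym2 ℕ → I) := fun z => labFn G z.1 (fun u r => z.2 (u, r)) with hΨ
  have hΨm : Measurable Ψ := measurable_labFn_fixed G
  have hfac : (fun x : ℕ → I => labFn G (fun u => f (x u) 0) (fun u r => f (x u) (r + 1)))
      = (Ψ ∘ (fun x : ℕ × ℕ → I => ((x ∘ i₁, x ∘ i₂) : (ℕ → I) × (ℕ × ℕ → I)))) ∘ E := by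
    funext u
    rfl
  rw [hfac, ← Measure.map_map (hΨm.comp hTm) hEm, hElaw, ← Measure.map_map hΨm hTm, hT]
  ext B hB
  rw [Measure.map_apply hΨm hB, Measure.prod_apply (hΨm hB)]
  have hsec : ∀ᵐ O ∂(Unif ℕ), (Unif (ℕ × ℕ)) (Prod.mk O ⁻¹' (Ψ ⁻¹' B)) = Unif (Sym2 ℕ) B := by
    filter_upwards [ae_injective_labels] with O hO
    have hO' : Function.Injective O := fun a b h => hO (by simp only [h])
    have hown := own_injective hG hO'
    have h1 := unif_map_comp_injective (π := own G O) hown
    have hm : Measurable (fun x : ℕ × ℕ → I => x ∘ own G O) := by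
      rw [measurable_pi_iff]
      intro a
      exact measurable_pi_apply _
    have hset : Prod.mk O ⁻¹' (Ψ ⁻¹' B) = (fun x : ℕ × ℕ → I => x ∘ own G O) ⁻¹' B := by
      ext S
      simp only [Set.mem_preimage, hΨ]
      have : labFn G O (fun u r => S (u, r)) = S ∘ own G O := by
        funext e
        exact labFn_eq_own hO' S e
      rw [this]
    rw [hset, ← Measure.map_apply hm hB, h1]
  rw [lintegral_congr_ae hsec]
  simp

end law

end Crest.Agent.Lib.SR
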