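import Crest.Agent.Lib.SR.Bayes

set_option autoImplicit false

open MeasureTheory Set Filter Topology
open scoped ENNReal unitInterval

namespace Crest.Agent.Lib.SR

variable {ι : Type*}

/-- The joint sample space of configuration and channel noise. -/
abbrev OmZ (ι : Type*) := (ι → Bool) × (ℕ × ι → I)

/-- The observation vector on the joint space. -/
noncomputable def obsZ (z : OmZ ι) : ℕ × ι → ℝ := obs z.1 z.2

lemma measurable_bv : Measurable bv := measurable_of_countable _

lemma measurable_obsZ : Measurable (obsZ : OmZ ι → ℕ × ι → ℝ) := by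
  rw [measurable_pi_iff]
  intro q
  unfold obsZ obs
  have h1 : Measurable (fun z : OmZ ι => ((z.2 q : I) : ℝ)) :=
    measurable_subtype_coe.comp ((measurable_pi_apply q).comp measurable_snd)
  have h2 : Measurable (fun z : OmZ ι => bv (z.1 q.2)) :=
    measurable_bv.comp ((measurable_pi_apply q.2).comp measurable_fst)
  exact measurable_Tc.comp (h2.prodMk h1)

lemma measurable_bv_site (i : ι) : Measurable (fun z : OmZ ι => bv (z.1 i)) :=
  measurable_bv.comp ((measurable_pi_apply i).comp measurable_fst)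

lemma obsZ_mem (z : OmZ ι) (q : ℕ × ι) : obsZ z q ∈ Icc (-1 : ℝ) 1 := obs_mem z.1 z.2 q

lemma bv_nonneg (b : Bool) : 0 ≤ bv b := (bv_mem b).1
lemma bv_le_one (b : Bool) : bv b ≤ 1 := (bv_mem b).2

section mean

variable [DecidableEq ι]

lemma meanTilt_nonneg {μ : Finset ι → ℝ} (hμ : ∀ S, 0 ≤ μ S) (E : Finset ι) (i : ι) (h : ι → ℝ) :
    0 ≤ meanTilt μ E i h := by
  unfold meanTilt
  apply div_nonneg
  · apply polyR_nonneg _ (fun j _ => Real.exp_pos _)
    intro S
    split_ifs
    · exact hμ S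
    · exact le_rfl
  · exact polyR_nonneg hμ (fun j _ => Real.exp_pos _)

lemma meanTilt_le_one {μ : Finset ι → ℝ} (hμ : ∀ S, 0 ≤ μ S) (E : Finset ι) (i : ι) (h : ι → ℝ) :
    meanTilt μ E i h ≤ 1 := by
  unfold meanTilt
  apply div_le_one_of_le₀ _ (polyR_nonneg hμ (fun j _ => Real.exp_pos _))
  unfold polyR
  apply Finset.sum_le_sum
  intro S _
  have hp : 0 ≤ ∏ j ∈ S, Real.exp (h j) := by
    apply Finset.prod_nonneg
    intro j _
    exact (Real.exp_pos _).le
  apply mul_le_mul_of_nonneg_right _ hp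
  simp only
  split_ifs
  · exact le_rfl
  · exact hμ S

lemma aW_mem (ν : Measure (ι → Bool)) (W : Finset ι) (i : ι) (h : ι → ℝ) :
    aW ν W i h ∈ Icc (0 : ℝ) 1 :=
  ⟨meanTilt_nonneg (massW_nonneg ν W) W i h, meanTilt_le_one (massW_nonneg ν W) W i h⟩

lemma aW_congr (ν : Measure (ι → Bool)) {W : Finset ι} {i : ι} {h h' : ι → ℝ}
    (hh : ∀ j ∈ W, h j = h' j) : aW ν W i h = aW ν W i h' := by
  unfold aW meanTilt
  have e : ∀ j ∈ W, Real.exp (h j) = Real.exp (h' j) := fun j hj => by rw [hh j hj]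
  rw [polyR_congr e, polyR_congr e]

lemma measurable_polyR_exp (μ : Finset ι → ℝ) (E : Finset ι) :
    Measurable (fun h : ι → ℝ => polyR μ E (fun j => Real.exp (h j))) := by
  unfold polyR
  apply Finset.measurable_sum
  intro S _
  apply Measurable.const_mul
  apply Finset.measurable_prod
  intro j _
  exact Real.measurable_exp.comp (measurable_pi_apply j)

lemma measurable_aW (ν : Measure (ι → Bool)) (W : Finset ι) (i : ι) :
    Measurable (fun h : ι → ℝ => aW ν W i h) := by
  unfold aW meanTilt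
  exact (measurable_polyR_exp _ _).div (measurable_polyR_exp _ _)

end mean

lemma measurable_tilt (ρ : ι → ℝ) (k : ℕ) (i : ι) :
    Measurable (fun x : ℕ × ι → ℝ => tilt ρ x k i) := by
  rw [measurable_pi_iff]
  intro j
  unfold tilt
  apply Measurable.add
  · apply Finset.measurable_sum
    intro m _
    exact measurable_ell.comp (measurable_pi_apply _)
  · by_cases h : ρ j < ρ i
    · simp only [h, if_true]
      exact measurable_ell.comp (measurable_pi_apply _)
    · simp only [h, if_false]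
      exact measurable_const

section bayes

variable [DecidableEq ι] (ν : Measure (ι → Bool)) [IsProbabilityMeasure ν]

/-- The joint law. -/
noncomputable abbrev PP : Measure (OmZ ι) := ν.prod (Unif (ℕ × ι))

lemma ofReal_bv_eq (W : Finset ι) {i : ι} (hi : i ∈ W) (ω : ι → Bool) :
    ENNReal.ofReal (bv (ω i)) = (fun A : Finset ι => if i ∈ A then (1 : ℝ≥0∞) else 0) (suppW W ω) := by
  simp only [suppW, Finset.mem_filter, hi, true_and]
  cases h : ω i <;> simp [bv]

/-- **Finite Bayes rule**. -/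
lemma bayes_window {W : Finset ι} {i : ι} (hi : i ∈ W) (ρ : ι → ℝ) (k : ℕ)
    {g : (ℕ × ι → ℝ) → ℝ≥0∞} (hg : Measurable g)
    (hgD : ∀ x x', (∀ q ∈ pastD ρ k i W, x q = x' q) → g x = g x') :
    ∫⁻ z, ENNReal.ofReal (bv (z.1 i)) * g (obsZ z) ∂(PP ν)
      = ∫⁻ z, ENNReal.ofReal (aW ν W i (tilt ρ (obsZ z) k i)) * g (obsZ z) ∂(PP ν) := by
  set D := pastD ρ k i W with hDdef
  have hD : ∀ q ∈ D, q.2 ∈ W := pastD_subset_window
  set g' : (ℕ × ι → ℝ) → ℝ≥0∞ := fun x => ENNReal.ofReal (aW ν W i (tilt ρ x k i)) * g x with hg'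
  have hg'm : Measurable g' :=
    (ENNReal.measurable_ofReal.comp ((measurable_aW ν W i).comp (measurable_tilt ρ k i))).mul hg
  have hg'D : ∀ x x', (∀ q ∈ D, x q = x' q) → g' x = g' x' := by
    intro x x' h
    simp only [hg']
    rw [hgD x x' h]
    congr 2
    apply aW_congr
    intro j hj
    apply tilt_congr_past
    rintro q rfl hq
    exact h q (mem_pastD.mpr ⟨hj, hq⟩)
  have hL : ∫⁻ z, ENNReal.ofReal (bv (z.1 i)) * g (obsZ z) ∂(PP ν)
      = ∫⁻ ω, (fun A : Finset ι => if i ∈ A then (1 : ℝ≥0∞) else 0) (suppW W ω) *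
          ∫⁻ V, g (obs ω V) ∂(Unif (ℕ × ι)) ∂ν := by
    have hm : Measurable (fun z : OmZ ι => ENNReal.ofReal (bv (z.1 i)) * g (obsZ z)) :=
      (ENNReal.measurable_ofReal.comp (measurable_bv_site i)).mul (hg.comp measurable_obsZ)
    rw [lintegral_prod _ hm.aemeasurable]
    apply lintegral_congr
    intro ω
    simp only [obsZ]
    have hm2 : Measurable (fun V => g (obs ω V)) := hg.comp (measurable_obs ω)
    rw [lintegral_const_mul _ hm2, ofReal_bv_eq W hi ω]
  have hR : ∫⁻ z, ENNReal.ofReal (aW ν W i (tilt ρ (obsZ z) k i)) * g (obsZ z) ∂(PP ν)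
      = ∫⁻ ω, (fun _ : Finset ι => (1 : ℝ≥0∞)) (suppW W ω) *
          ∫⁻ V, g' (obs ω V) ∂(Unif (ℕ × ι)) ∂ν := by
    have hm : Measurable (fun z : OmZ ι => g' (obsZ z)) := hg'm.comp measurable_obsZ
    have := lintegral_prod (μ := ν) (ν := Unif (ℕ × ι)) _ hm.aemeasurable
    refine this.trans ?_
    apply lintegral_congr
    intro ω
    simp only [one_mul, obsZ]
  refine hL.trans (Eq.trans (lintegral_window ν hD
    (fun A : Finset ι => if i ∈ A then (1 : ℝ≥0∞) else 0) hg hgD) ?_)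
  refine Eq.trans ?_ (hR.trans (lintegral_window ν hD (fun _ : Finset ι => (1 : ℝ≥0∞)) hg'm hg'D)).symm
  apply lintegral_congr
  intro V
  simp only [hg']
  have hpart := aW_mul_partition ν W i (tilt ρ (obs0 V) k i)
  have hlik : ∀ A ∈ W.powerset, likD D A (obs0 V)
      = ENNReal.ofReal (Real.exp (∑ j ∈ A, tilt ρ (obs0 V) k i j)) := fun A hA =>
    likD_pastD ρ k i (Finset.mem_powerset.mp hA) _
  have e1 : ∑ A ∈ W.powerset, (if i ∈ A then (1 : ℝ≥0∞) else 0) * ν (cyl W A) * likD D A (obs0 V)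
      = ∑ A ∈ W.powerset, (if i ∈ A then (1 : ℝ≥0∞) else 0) * ν (cyl W A) *
        ENNReal.ofReal (Real.exp (∑ j ∈ A, tilt ρ (obs0 V) k i j)) := by
    apply Finset.sum_congr rfl
    intro A hA
    rw [hlik A hA]
  have e2 : ∑ A ∈ W.powerset, 1 * ν (cyl W A) * likD D A (obs0 V)
      = ∑ A ∈ W.powerset, 1 * ν (cyl W A) *
        ENNReal.ofReal (Real.exp (∑ j ∈ A, tilt ρ (obs0 V) k i j)) := by
    apply Finset.sum_congr rfl
    intro A hA
    rw [hlik A hA]
  rw [e1, e2, ← hpart]
  ring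

end bayes

end Crest.Agent.Lib.SR
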