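import Crest.Agent.Lib.SR.Law1

set_option autoImplicit false

open MeasureTheory Set Filter Topology
open scoped ENNReal unitInterval

namespace Crest.Agent.Lib.SR

variable {ι : Type*}

/-- The σ-algebra of past observations in a window. -/
noncomputable def pastSigma (ρ : ι → ℝ) (k : ℕ) (i : ι) (W : Finset ι) : MeasurableSpace (OmZ ι) :=
  MeasurableSpace.comap (fun z : OmZ ι => fun q : ↥(pastD ρ k i W) => obsZ z q) inferInstance

lemma measurable_restrict_obsZ (D : Finset (ℕ × ι)) :
    Measurable (fun z : OmZ ι => fun q : ↥D => obsZ z q) := by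
  rw [measurable_pi_iff]
  intro q
  exact (measurable_pi_apply (q : ℕ × ι)).comp measurable_obsZ

lemma pastSigma_le (ρ : ι → ℝ) (k : ℕ) (i : ι) (W : Finset ι) :
    pastSigma ρ k i W ≤ (inferInstance : MeasurableSpace (OmZ ι)) :=
  (measurable_restrict_obsZ _).comap_le

lemma measurable_coord_pastSigma {ρ : ι → ℝ} {k : ℕ} {i : ι} {W : Finset ι} {q : ℕ × ι}
    (hq : q ∈ pastD ρ k i W) : Measurable[pastSigma ρ k i W] (fun z : OmZ ι => obsZ z q) := by
  have h1 : Measurable[pastSigma ρ k i W] (fun z : OmZ ι => fun q : ↥(pastD ρ k i W) => obsZ z q) :=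
    comap_measurable _
  exact (measurable_pi_apply (⟨q, hq⟩ : ↥(pastD ρ k i W))).comp h1

lemma pastSigma_mono {ρ : ι → ℝ} {k : ℕ} {i : ι} {W W' : Finset ι} (h : W ⊆ W') :
    pastSigma ρ k i W ≤ pastSigma ρ k i W' := by
  intro s hs
  obtain ⟨C, hC, rfl⟩ := hs
  have h1 : Measurable[pastSigma ρ k i W']
      (fun z : OmZ ι => fun q : ↥(pastD ρ k i W) => obsZ z q) := by
    rw [@measurable_pi_iff]
    intro q
    exact measurable_coord_pastSigma (pastD_mono h q.2)
  exact h1 hC

/-- Extension by zero of a function on a finite set of indices. -/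
noncomputable def extZero {J : Type*} (D : Finset J) (y : ↥D → ℝ) : J → ℝ := by
  classical
  exact fun q => if h : q ∈ D then y ⟨q, h⟩ else 0

lemma measurable_extZero {J : Type*} (D : Finset J) : Measurable (extZero D) := by
  classical
  rw [measurable_pi_iff]
  intro q
  unfold extZero
  by_cases h : q ∈ D
  · simp only [h, dif_pos]
    exact measurable_pi_apply _
  · simp only [h, dif_neg, not_false_eq_true]
    exact measurable_const

lemma extZero_apply {J : Type*} {D : Finset J} (y : J → ℝ) {q : J} (h : q ∈ D) :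
    extZero D (fun r : ↥D => y r) q = y q := by
  classical
  unfold extZero
  simp [h]

section condexp

variable [DecidableEq ι] (ν : Measure (ι → Bool)) [IsProbabilityMeasure ν]

lemma measurable_aW_pastSigma (ρ : ι → ℝ) (k : ℕ) (i : ι) (W : Finset ι) :
    Measurable[pastSigma ρ k i W] (fun z : OmZ ι => aW ν W i (tilt ρ (obsZ z) k i)) := by
  set D := pastD ρ k i W with hD
  have hF : Measurable (fun y : ↥D → ℝ => aW ν W i (tilt ρ (extZero D y) k i)) :=
    (measurable_aW ν W i).comp ((measurable_tilt ρ k i).comp (measurable_extZero D))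
  have hZ : Measurable[pastSigma ρ k i W] (fun z : OmZ ι => fun q : ↥D => obsZ z q) :=
    comap_measurable _
  have := hF.comp hZ
  convert this using 1
  funext z
  simp only [Function.comp]
  apply aW_congr
  intro j hj
  apply tilt_congr_past
  rintro q rfl hq
  have hqD : q ∈ D := mem_pastD.mpr ⟨hj, hq⟩
  exact (extZero_apply (obsZ z) hqD).symm

lemma integrable_of_bounded {Ω : Type*} {m : MeasurableSpace Ω} {μ : Measure Ω}
    [IsFiniteMeasure μ] {f : Ω → ℝ} (hf : Measurable f) (hb : ∀ z, |f z| ≤ 1) : Integrable f μ :=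
  Integrable.of_bound hf.aestronglyMeasurable 1 (Filter.Eventually.of_forall (fun z => by
    rw [Real.norm_eq_abs]
    exact hb z))

lemma setIntegral_eq_of_lintegral_eq {Ω : Type*} {m : MeasurableSpace Ω} {μ : Measure Ω}
    [IsFiniteMeasure μ] {f g : Ω → ℝ} (hf : Measurable f) (hg : Measurable g)
    (hf0 : ∀ z, 0 ≤ f z) (hg0 : ∀ z, 0 ≤ g z) {s : Set Ω}
    (h : ∫⁻ z in s, ENNReal.ofReal (f z) ∂μ = ∫⁻ z in s, ENNReal.ofReal (g z) ∂μ) :
    ∫ z in s, f z ∂μ = ∫ z in s, g z ∂μ := by
  rw [integral_eq_lintegral_of_nonneg_ae (Filter.Eventually.of_forall hf0)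
      hf.aestronglyMeasurable,
    integral_eq_lintegral_of_nonneg_ae (Filter.Eventually.of_forall hg0)
      hg.aestronglyMeasurable, h]

/-- The finite-window posterior is the conditional expectation given window observations. -/
lemma aW_ae_eq_condExp {W : Finset ι} {i : ι} (hi : i ∈ W) (ρ : ι → ℝ) (k : ℕ) :
    (fun z : OmZ ι => aW ν W i (tilt ρ (obsZ z) k i))
      =ᵐ[PP ν] (PP ν)[fun z : OmZ ι => bv (z.1 i) | pastSigma ρ k i W] := by
  set D := pastD ρ k i W with hD
  have hX : Measurable (fun z : OmZ ι => bv (z.1 i)) := measurable_bv_site i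
  have hXb : ∀ z : OmZ ι, |bv (z.1 i)| ≤ 1 := fun z => by
    rw [abs_of_nonneg (bv_nonneg _)]
    exact bv_le_one _
  have hA : Measurable (fun z : OmZ ι => aW ν W i (tilt ρ (obsZ z) k i)) :=
    (measurable_aW ν W i).comp ((measurable_tilt ρ k i).comp measurable_obsZ)
  have hAb : ∀ z : OmZ ι, |aW ν W i (tilt ρ (obsZ z) k i)| ≤ 1 := fun z => by
    rw [abs_of_nonneg (aW_mem ν W i _).1]
    exact (aW_mem ν W i _).2
  apply ae_eq_condExp_of_forall_setIntegral_eq (pastSigma_le ρ k i W)
    (integrable_of_bounded hX hXb)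
    (fun s _ _ => (integrable_of_bounded hA hAb).integrableOn)
  · intro s hs _
    obtain ⟨C, hC, rfl⟩ := hs
    apply setIntegral_eq_of_lintegral_eq hA hX (fun z => (aW_mem ν W i _).1) (fun z => bv_nonneg _)
    set C' : Set (ℕ × ι → ℝ) := (fun x : ℕ × ι → ℝ => fun q : ↥D => x q) ⁻¹' C with hC'
    have hres : Measurable (fun x : ℕ × ι → ℝ => fun q : ↥D => x q) := by
      rw [measurable_pi_iff]
      intro q
      exact measurable_pi_apply _
    have hC'm : MeasurableSet C' := hres hC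
    set G : (ℕ × ι → ℝ) → ℝ≥0∞ := C'.indicator 1 with hG
    have hGm : Measurable G := measurable_one.indicator hC'm
    have hGD : ∀ x x', (∀ q ∈ pastD ρ k i W, x q = x' q) → G x = G x' := by
      intro x x' h
      have : (fun q : ↥D => x q) = fun q : ↥D => x' q := by
        funext q
        exact h q q.2
      have hmem : x ∈ C' ↔ x' ∈ C' := by
        simp only [hC', Set.mem_preimage]
        rw [this]
      rw [hG]
      by_cases hx : x ∈ C'
      · rw [Set.indicator_of_mem hx, Set.indicator_of_mem (hmem.mp hx)]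
        rfl
      · rw [Set.indicator_of_notMem hx, Set.indicator_of_notMem (fun h' => hx (hmem.mpr h'))]
    have hsm : MeasurableSet ((fun z : OmZ ι => fun q : ↥(pastD ρ k i W) => obsZ z q) ⁻¹' C) :=
      (measurable_restrict_obsZ _) hC
    have hind : ∀ (u : OmZ ι → ℝ≥0∞), ∫⁻ z in (fun z : OmZ ι => fun q : ↥(pastD ρ k i W) => obsZ z q) ⁻¹' C,
        u z ∂(PP ν) = ∫⁻ z, u z * G (obsZ z) ∂(PP ν) := by
      intro u
      rw [← lintegral_indicator hsm]
      apply lintegral_congr
      intro z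
      by_cases hz : (fun q : ↥(pastD ρ k i W) => obsZ z q) ∈ C
      · rw [Set.indicator_of_mem (by exact hz)]
        have : G (obsZ z) = 1 := by
          simp only [hG]
          rw [Set.indicator_of_mem (by exact hz)]
          rfl
        rw [this, mul_one]
      · rw [Set.indicator_of_notMem (by exact hz)]
        have : G (obsZ z) = 0 := by
          simp only [hG]
          rw [Set.indicator_of_notMem (by exact hz)]
        rw [this, mul_zero]
    rw [hind, hind]
    exact (bayes_window ν hi ρ k hGm hGD).symm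
  · exact (measurable_aW_pastSigma ν ρ k i W).stronglyMeasurable.aestronglyMeasurable

/-- The filtration of window observations. -/
noncomputable def pastFiltration (ρ : ι → ℝ) (k : ℕ) (i : ι) {W : ℕ → Finset ι} (hW : Monotone W) :
    Filtration ℕ (inferInstance : MeasurableSpace (OmZ ι)) where
  seq := fun n => pastSigma ρ k i (W n)
  mono' := fun _ _ h => pastSigma_mono (hW h)
  le' := fun n => pastSigma_le ρ k i (W n)

/-- **Lévy upward**: the window posteriors converge to the full past posterior. -/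
lemma ae_tendsto_aW {i : ι} (ρ : ι → ℝ) (k : ℕ) {W : ℕ → Finset ι} (hW : Monotone W)
    (hmem : ∀ n, i ∈ W n) :
    ∀ᵐ z ∂(PP ν), Tendsto (fun n => aW ν (W n) i (tilt ρ (obsZ z) k i)) atTop
      (𝓝 ((PP ν)[fun z : OmZ ι => bv (z.1 i) | ⨆ n, pastSigma ρ k i (W n)] z)) := by
  have h1 := tendsto_ae_condExp (μ := PP ν) (ℱ := pastFiltration ρ k i hW)
    (fun z : OmZ ι => bv (z.1 i))
  have h2 : ∀ n, (fun z : OmZ ι => aW ν (W n) i (tilt ρ (obsZ z) k i))
      =ᵐ[PP ν] (PP ν)[fun z : OmZ ι => bv (z.1 i) | pastSigma ρ k i (W n)] := fun n =>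
    aW_ae_eq_condExp ν (hmem n) ρ k
  have h3 := ae_all_iff.mpr h2
  filter_upwards [h1, h3] with z hz1 hz3
  have : (fun n => aW ν (W n) i (tilt ρ (obsZ z) k i))
      = fun n => ((PP ν)[fun z : OmZ ι => bv (z.1 i) | pastFiltration ρ k i hW n]) z := by
    funext n
    exact hz3 n
  rw [this]
  exact hz1

/-- The conditional expectation identity for the full past, as an integral. -/
lemma integral_bv_mul {i : ι} (ρ : ι → ℝ) (k : ℕ) {W : ℕ → Finset ι} (hW : Monotone W)
    (hmem : ∀ n, i ∈ W n) {a : (ι → ℝ) → ℝ}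
    (ha : ∀ h, a h = limsup (fun n => aW ν (W n) i h) atTop)
    {g : OmZ ι → ℝ} (hg : Measurable[⨆ n, pastSigma ρ k i (W n)] g) (hb : ∀ z, |g z| ≤ 1) :
    ∫ z, bv (z.1 i) * g z ∂(PP ν) = ∫ z, a (tilt ρ (obsZ z) k i) * g z ∂(PP ν) := by
  have hle : (⨆ n, pastSigma ρ k i (W n)) ≤ (inferInstance : MeasurableSpace (OmZ ι)) :=
    iSup_le (fun n => pastSigma_le ρ k i (W n))
  have hgm : Measurable g := hg.mono hle le_rfl
  have hX : Measurable (fun z : OmZ ι => bv (z.1 i)) := measurable_bv_site i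
  have hXb : ∀ z : OmZ ι, |bv (z.1 i)| ≤ 1 := fun z => by
    rw [abs_of_nonneg (bv_nonneg _)]
    exact bv_le_one _
  have hXi : Integrable (fun z : OmZ ι => bv (z.1 i)) (PP ν) := integrable_of_bounded hX hXb
  have hgXb : ∀ z : OmZ ι, |g z * bv (z.1 i)| ≤ 1 := fun z => by
    rw [abs_mul]
    exact mul_le_one₀ (hb z) (abs_nonneg _) (hXb z)
  have hgXi : Integrable (g * fun z : OmZ ι => bv (z.1 i)) (PP ν) :=
    integrable_of_bounded (hgm.mul hX) hgXb
  have hpull := condExp_mul_of_stronglyMeasurable_left (μ := PP ν)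
    (m := ⨆ n, pastSigma ρ k i (W n)) hg.stronglyMeasurable hgXi hXi
  have hlim : (PP ν)[fun z : OmZ ι => bv (z.1 i) | ⨆ n, pastSigma ρ k i (W n)]
      =ᵐ[PP ν] fun z => a (tilt ρ (obsZ z) k i) := by
    filter_upwards [ae_tendsto_aW ν ρ k hW hmem] with z hz
    rw [ha]
    exact hz.limsup_eq.symm
  calc ∫ z, bv (z.1 i) * g z ∂(PP ν)
      = ∫ z, (g * fun z : OmZ ι => bv (z.1 i)) z ∂(PP ν) := by
        apply integral_congr_ae
        filter_upwards with z
        simp only [Pi.mul_apply]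
        ring
    _ = ∫ z, ((PP ν)[g * fun z : OmZ ι => bv (z.1 i) | ⨆ n, pastSigma ρ k i (W n)]) z ∂(PP ν) :=
        (integral_condExp hle).symm
    _ = ∫ z, a (tilt ρ (obsZ z) k i) * g z ∂(PP ν) := by
        apply integral_congr_ae
        filter_upwards [hpull, hlim] with z hz1 hz2
        rw [hz1, Pi.mul_apply, hz2]
        ring

/-- A function of the past observations is measurable for the past σ-algebra. -/
lemma measurable_past_function {i : ι} (ρ : ι → ℝ) (k : ℕ) {W : ℕ → Finset ι}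
    (hex : ∀ j, ∃ n, j ∈ W n)
    {G : (ℕ × ι → ℝ) → ℝ≥0∞} (hG : Measurable G)
    (hpast : ∀ x x', (∀ q, prec ρ q (k, i) → x q = x' q) → G x = G x') :
    Measurable[⨆ n, pastSigma ρ k i (W n)] (fun z : OmZ ι => G (obsZ z)) := by
  classical
  set cut : (ℕ × ι → ℝ) → ℕ × ι → ℝ := fun x q => if prec ρ q (k, i) then x q else 0 with hcut
  have h1 : ∀ x, G x = G (cut x) := by
    intro x
    apply hpast
    intro q hq
    simp [hcut, hq]
  have h2 : Measurable[⨆ n, pastSigma ρ k i (W n)] (fun z : OmZ ι => cut (obsZ z)) := by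
    rw [@measurable_pi_iff]
    intro q
    by_cases hq : prec ρ q (k, i)
    · simp only [hcut, hq, if_true]
      obtain ⟨n, hn⟩ := hex q.2
      have hqD : q ∈ pastD ρ k i (W n) := mem_pastD.mpr ⟨hn, hq⟩
      exact (measurable_coord_pastSigma hqD).mono (le_iSup (fun n => pastSigma ρ k i (W n)) n) le_rfl
    · simp only [hcut, hq, if_false]
      exact measurable_const
  have h3 := hG.comp h2
  convert h3 using 1
  funext z
  exact h1 _

/-- The conditional expectation identity in lintegral form, for both values of the site. -/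
lemma lintegral_past {i : ι} (ρ : ι → ℝ) (k : ℕ) {W : ℕ → Finset ι} (hW : Monotone W)
    (hmem : ∀ n, i ∈ W n) (hex : ∀ j, ∃ n, j ∈ W n) {a : (ι → ℝ) → ℝ}
    (ha : ∀ h, a h = limsup (fun n => aW ν (W n) i h) atTop) (ha01 : ∀ h, a h ∈ Icc (0 : ℝ) 1)
    (ham : Measurable a)
    {G : (ℕ × ι → ℝ) → ℝ≥0∞} (hG : Measurable G) (hG1 : ∀ x, G x ≤ 1)
    (hpast : ∀ x x', (∀ q, prec ρ q (k, i) → x q = x' q) → G x = G x') :
    (∫⁻ z, ENNReal.ofReal (bv (z.1 i)) * G (obsZ z) ∂(PP ν)
        = ∫⁻ z, ENNReal.ofReal (a (tilt ρ (obsZ z) k i)) * G (obsZ z) ∂(PP ν)) ∧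
    (∫⁻ z, ENNReal.ofReal (1 - bv (z.1 i)) * G (obsZ z) ∂(PP ν)
        = ∫⁻ z, ENNReal.ofReal (1 - a (tilt ρ (obsZ z) k i)) * G (obsZ z) ∂(PP ν)) := by
  set g : OmZ ι → ℝ := fun z => (G (obsZ z)).toReal with hg
  have hGne : ∀ x, G x ≠ ⊤ := fun x => ne_top_of_le_ne_top ENNReal.one_ne_top (hG1 x)
  have hgm : Measurable[⨆ n, pastSigma ρ k i (W n)] g :=
    (measurable_past_function ρ k hex hG hpast).ennreal_toReal
  have hg0 : ∀ z, 0 ≤ g z := fun z => ENNReal.toReal_nonneg
  have hg1 : ∀ z, g z ≤ 1 := fun z => by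
    have := ENNReal.toReal_mono ENNReal.one_ne_top (hG1 (obsZ z))
    simpa using this
  have hgb : ∀ z, |g z| ≤ 1 := fun z => by
    rw [abs_of_nonneg (hg0 z)]
    exact hg1 z
  have hle : (⨆ n, pastSigma ρ k i (W n)) ≤ (inferInstance : MeasurableSpace (OmZ ι)) :=
    iSup_le (fun n => pastSigma_le ρ k i (W n))
  have hgm' : Measurable g := hgm.mono hle le_rfl
  have hofG : ∀ z, G (obsZ z) = ENNReal.ofReal (g z) := fun z =>
    (ENNReal.ofReal_toReal (hGne _)).symm
  have hX : Measurable (fun z : OmZ ι => bv (z.1 i)) := measurable_bv_site i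
  have hA : Measurable (fun z : OmZ ι => a (tilt ρ (obsZ z) k i)) :=
    ham.comp ((measurable_tilt ρ k i).comp measurable_obsZ)
  -- general conversion
  have hconv : ∀ u : OmZ ι → ℝ, Measurable u → (∀ z, 0 ≤ u z) → (∀ z, u z ≤ 1) →
      ∫⁻ z, ENNReal.ofReal (u z) * G (obsZ z) ∂(PP ν) = ENNReal.ofReal (∫ z, u z * g z ∂(PP ν)) := by
    intro u hu hu0 hu1
    have hub : ∀ z, |u z * g z| ≤ 1 := fun z => by
      rw [abs_mul, abs_of_nonneg (hu0 z), abs_of_nonneg (hg0 z)]
      exact mul_le_one₀ (hu1 z) (hg0 z) (hg1 z)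
    have hi : Integrable (fun z => u z * g z) (PP ν) := integrable_of_bounded (hu.mul hgm') hub
    rw [ofReal_integral_eq_lintegral_ofReal hi
      (Filter.Eventually.of_forall (fun z => mul_nonneg (hu0 z) (hg0 z)))]
    apply lintegral_congr
    intro z
    rw [hofG z, ENNReal.ofReal_mul (hu0 z)]
  have hmainI := integral_bv_mul ν ρ k hW hmem ha hgm hgb
  have hXb : ∀ z : OmZ ι, |bv (z.1 i)| ≤ 1 := fun z => by
    rw [abs_of_nonneg (bv_nonneg _)]
    exact bv_le_one _
  have hAb : ∀ z : OmZ ι, |a (tilt ρ (obsZ z) k i)| ≤ 1 := fun z => by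
    rw [abs_of_nonneg (ha01 _).1]
    exact (ha01 _).2
  constructor
  · rw [hconv _ hX (fun z => bv_nonneg _) (fun z => bv_le_one _),
      hconv _ hA (fun z => (ha01 _).1) (fun z => (ha01 _).2), hmainI]
  · rw [hconv (fun z => 1 - bv (z.1 i)) (hX.const_sub 1) (fun z => by linarith [bv_le_one (z.1 i)])
        (fun z => by linarith [bv_nonneg (z.1 i)]),
      hconv (fun z => 1 - a (tilt ρ (obsZ z) k i)) (hA.const_sub 1)
        (fun z => by linarith [(ha01 (tilt ρ (obsZ z) k i)).2])
        (fun z => by linarith [(ha01 (tilt ρ (obsZ z) k i)).1])]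
    congr 1
    have e1 : ∀ u : OmZ ι → ℝ, Measurable u → (∀ z, |u z| ≤ 1) →
        ∫ z, (1 - u z) * g z ∂(PP ν) = ∫ z, g z ∂(PP ν) - ∫ z, u z * g z ∂(PP ν) := by
      intro u hu hub
      rw [← integral_sub (integrable_of_bounded hgm' hgb)]
      · apply integral_congr_ae
        filter_upwards with z
        ring
      · exact integrable_of_bounded (hu.mul hgm') (fun z => by
          rw [abs_mul]
          exact mul_le_one₀ (hub z) (abs_nonneg _) (hgb z))
    rw [e1 _ hX hXb, e1 _ hA hAb, hmainI]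

end condexp

end Crest.Agent.Lib.SR
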