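import Crest.Agent.Lib.SR.Law2

set_option autoImplicit false

open MeasureTheory Set Filter Topology
open scoped ENNReal unitInterval

namespace Crest.Agent.Lib.SR

variable {ι : Type*}

/-- The chance that the innovation falls in `B` when the channel has level `b` and the posterior
is `α`. -/
noncomputable def psiB (B : Set I) (b α : ℝ) : ℝ≥0∞ :=
  (volume : Measure I) {v : I | toUI (Fc α (Tc b v)) ∈ B}

lemma measurable_innov (b : ℝ) :
    Measurable (fun p : ℝ × I => toUI (Fc p.1 (Tc b p.2))) := by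
  apply measurable_toUI.comp
  have h1 : Measurable (fun p : ℝ × I => Tc b (p.2 : ℝ)) :=
    measurable_Tc.comp (measurable_const.prodMk (measurable_subtype_coe.comp measurable_snd))
  exact measurable_Fc.comp (measurable_fst.prodMk h1)

lemma measurable_innov_const (b α : ℝ) : Measurable (fun v : I => toUI (Fc α (Tc b v))) := by
  have h1 : Measurable (fun v : I => Tc b (v : ℝ)) :=
    measurable_Tc.comp (measurable_const.prodMk measurable_subtype_coe)
  have h2 : Measurable (fun v : I => Fc α (Tc b v)) :=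
    measurable_Fc.comp (measurable_const.prodMk h1)
  exact measurable_toUI.comp h2

lemma measurable_psiB {B : Set I} (hB : MeasurableSet B) (b : ℝ) : Measurable (psiB B b) := by
  have hset : MeasurableSet {p : ℝ × I | toUI (Fc p.1 (Tc b p.2)) ∈ B} := (measurable_innov b) hB
  exact measurable_measure_prodMk_left hset

lemma psiB_le_one (B : Set I) (b α : ℝ) : psiB B b α ≤ 1 := prob_le_one

lemma tilt_update_self {ρ : ι → ℝ} [DecidableEq ι] (x : ℕ × ι → ℝ) (k : ℕ) (i : ι) (y : ℝ) :
    tilt ρ (Function.update x (k, i) y) k i = tilt ρ x k i := by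
  funext j
  apply tilt_congr_past
  rintro q - hq
  have hne : q ≠ (k, i) := by
    rintro rfl
    rcases hq with h | h
    · exact lt_irrefl _ h
    · exact lt_irrefl _ h.2
  rw [Function.update_of_ne hne]

lemma obs_update [DecidableEq ι] (ω : ι → Bool) (V : ℕ × ι → I) (p : ℕ × ι) (v : I) :
    obs ω (Function.update V p v) = Function.update (obs ω V) p (Tc (bv (ω p.2)) v) := by
  funext q
  by_cases hq : q = p
  · subst hq
    simp [obs]
  · simp [obs, Function.update_of_ne hq]

lemma measurable_epsOf {a : ι → (ι → ℝ) → ℝ} (ham : ∀ i, Measurable (a i)) (ρ : ι → ℝ) (q : ℕ × ι) :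
    Measurable (fun x : ℕ × ι → ℝ => epsOf a ρ x q) := by
  unfold epsOf
  apply measurable_toUI.comp
  have h1 : Measurable (fun x : ℕ × ι → ℝ => a q.2 (tilt ρ x q.1 q.2)) :=
    (ham q.2).comp (measurable_tilt ρ q.1 q.2)
  exact measurable_Fc.comp (h1.prodMk (measurable_pi_apply q))

lemma prec_trans {ρ : ι → ℝ} {q r p : ℕ × ι} (h1 : prec ρ q r) (h2 : prec ρ r p) : prec ρ q p := by
  rcases h1 with h1 | ⟨h1, h3⟩
  · rcases h2 with h2 | ⟨h2, _⟩
    · exact Or.inl (h1.trans h2)
    · exact Or.inl (h2 ▸ h1)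
  · rcases h2 with h2 | ⟨h2, h4⟩
    · exact Or.inl (h1 ▸ h2)
    · exact Or.inr ⟨h1.trans h2, h3.trans h4⟩

lemma epsOf_congr_past {a : ι → (ι → ℝ) → ℝ} {ρ : ι → ℝ} {q p : ℕ × ι} (hqp : prec ρ q p)
    {x x' : ℕ × ι → ℝ} (h : ∀ r, prec ρ r p → x r = x' r) : epsOf a ρ x q = epsOf a ρ x' q := by
  unfold epsOf
  have h1 : tilt ρ x q.1 q.2 = tilt ρ x' q.1 q.2 := by
    funext j
    apply tilt_congr_past
    rintro r - hr
    exact h r (prec_trans hr hqp)
  rw [h1, h q hqp]

lemma lintegral_indicator_innov (b α : ℝ) {B : Set I} (hB : MeasurableSet B) :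
    ∫⁻ v : I, B.indicator (1 : I → ℝ≥0∞) (toUI (Fc α (Tc b v))) = psiB B b α := by
  have hset : {v : I | toUI (Fc α (Tc b v)) ∈ B} = (fun v : I => toUI (Fc α (Tc b v))) ⁻¹' B := rfl
  unfold psiB
  rw [hset, ← lintegral_indicator_one ((measurable_innov_const b α) hB)]
  apply lintegral_congr
  intro v
  by_cases h : toUI (Fc α (Tc b v)) ∈ B
  · rw [Set.indicator_of_mem h, Set.indicator_of_mem (by exact h)]
    rfl
  · rw [Set.indicator_of_notMem h, Set.indicator_of_notMem (by exact h)]

lemma mul_indicator_eq {α β γ : Type*} (S : Set β) (T : Set γ) (f : α → β) (h : α → γ) (z : α) :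
    S.indicator (1 : β → ℝ≥0∞) (f z) * T.indicator (1 : γ → ℝ≥0∞) (h z)
      = ((fun z => f z) ⁻¹' S ∩ {z | h z ∈ T}).indicator 1 z := by
  classical
  by_cases h1 : f z ∈ S <;> by_cases h2 : h z ∈ T <;>
    simp [h1, h2]

section main

variable [DecidableEq ι] (ν : Measure (ι → Bool)) [IsProbabilityMeasure ν]

/-- **The innovation at `p` is uniform and independent of the past.** -/
lemma lintegral_innovation {a : ι → (ι → ℝ) → ℝ} {ρ : ι → ℝ} {k : ℕ} {i : ι}
    {W : ℕ → Finset ι} (hW : Monotone W)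
    (hmem : ∀ n, i ∈ W n) (hex : ∀ j, ∃ n, j ∈ W n)
    (ha : ∀ h, a i h = limsup (fun n => aW ν (W n) i h) atTop) (ha01 : ∀ h, a i h ∈ Icc (0 : ℝ) 1)
    (ham : Measurable (a i))
    {G : (ℕ × ι → ℝ) → ℝ≥0∞} (hG : Measurable G) (hG1 : ∀ x, G x ≤ 1)
    (hpast : ∀ x x', (∀ q, prec ρ q (k, i) → x q = x' q) → G x = G x')
    {B : Set I} (hB : MeasurableSet B) :
    ∫⁻ z, G (obsZ z) * B.indicator 1 (toUI (Fc (a i (tilt ρ (obsZ z) k i)) (obsZ z (k, i)))) ∂(PP ν)
      = (∫⁻ z, G (obsZ z) ∂(PP ν)) * volume B := by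
  set p : ℕ × ι := (k, i) with hp
  have hGpast_upd : ∀ x y, G (Function.update x p y) = G x := by
    intro x y
    apply hpast
    intro q hq
    have hne : q ≠ p := by
      rintro rfl
      rcases hq with h | h
      · exact lt_irrefl _ h
      · exact lt_irrefl _ h.2
    rw [Function.update_of_ne hne]
  set A : (ℕ × ι → ℝ) → ℝ := fun x => a i (tilt ρ x k i) with hA
  have hAm : Measurable A := ham.comp (measurable_tilt ρ k i)
  have hind : Measurable (fun x : ℕ × ι → ℝ =>
      B.indicator (1 : I → ℝ≥0∞) (toUI (Fc (A x) (x p)))) := by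
    apply (measurable_one.indicator hB).comp
    apply measurable_toUI.comp
    exact measurable_Fc.comp (hAm.prodMk (measurable_pi_apply p))
  have hinteg : Measurable (fun x : ℕ × ι → ℝ => G x *
      B.indicator (1 : I → ℝ≥0∞) (toUI (Fc (A x) (x p)))) := hG.mul hind
  -- integrate out the noise at `p`, for a fixed configuration
  have hstep : ∀ ω : ι → Bool, ∫⁻ V, G (obs ω V) *
        B.indicator 1 (toUI (Fc (A (obs ω V)) (obs ω V p))) ∂(Unif (ℕ × ι))
      = ∫⁻ V, G (obs ω V) * psiB B (bv (ω i)) (A (obs ω V)) ∂(Unif (ℕ × ι)) := by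
    intro ω
    have hm : Measurable (fun V : ℕ × ι → I => G (obs ω V) *
        B.indicator (1 : I → ℝ≥0∞) (toUI (Fc (A (obs ω V)) (obs ω V p)))) :=
      hinteg.comp (measurable_obs ω)
    rw [lintegral_resample p hm]
    apply lintegral_congr
    intro V
    have h1 : ∀ v : I, G (obs ω (Function.update V p v)) *
        B.indicator 1 (toUI (Fc (A (obs ω (Function.update V p v))) (obs ω (Function.update V p v) p)))
        = G (obs ω V) * B.indicator 1 (toUI (Fc (A (obs ω V)) (Tc (bv (ω i)) v))) := by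
      intro v
      rw [obs_update, hGpast_upd, Function.update_self]
      have : A (Function.update (obs ω V) p (Tc (bv (ω p.2)) v)) = A (obs ω V) := by
        simp only [hA, hp]
        rw [tilt_update_self]
      rw [this]
    simp_rw [h1]
    have hInd : Measurable (B.indicator (1 : I → ℝ≥0∞)) := measurable_one.indicator hB
    have hm2 : Measurable (fun v : I =>
        B.indicator (1 : I → ℝ≥0∞) (toUI (Fc (A (obs ω V)) (Tc (bv (ω i)) v)))) :=
      hInd.comp (measurable_innov_const _ _)
    rw [lintegral_const_mul _ hm2]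
    congr 1
    exact lintegral_indicator_innov _ _ hB
  -- pass to the joint space
  have hψ1 := measurable_psiB hB 1
  have hψ0 := measurable_psiB hB 0
  set G1 : (ℕ × ι → ℝ) → ℝ≥0∞ := fun x => G x * psiB B 1 (A x) with hG1def
  set G0 : (ℕ × ι → ℝ) → ℝ≥0∞ := fun x => G x * psiB B 0 (A x) with hG0def
  have hG1m : Measurable G1 := hG.mul (hψ1.comp hAm)
  have hG0m : Measurable G0 := hG.mul (hψ0.comp hAm)
  have hAcongr : ∀ x x', (∀ q, prec ρ q (k, i) → x q = x' q) → A x = A x' := by
    intro x x' h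
    simp only [hA]
    congr 1
    funext j
    apply tilt_congr_past
    rintro q - hq
    exact h q hq
  have hG1past : ∀ x x', (∀ q, prec ρ q (k, i) → x q = x' q) → G1 x = G1 x' := by
    intro x x' h
    simp only [hG1def]
    rw [hpast x x' h, hAcongr x x' h]
  have hG0past : ∀ x x', (∀ q, prec ρ q (k, i) → x q = x' q) → G0 x = G0 x' := by
    intro x x' h
    simp only [hG0def]
    rw [hpast x x' h, hAcongr x x' h]
  have hG1le : ∀ x, G1 x ≤ 1 := fun x => mul_le_one' (hG1 x) (psiB_le_one _ _ _)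
  have hG0le : ∀ x, G0 x ≤ 1 := fun x => mul_le_one' (hG1 x) (psiB_le_one _ _ _)
  have hpast1 := (lintegral_past ν ρ k hW hmem hex ha ha01 ham hG1m hG1le hG1past).1
  have hpast0 := (lintegral_past ν ρ k hW hmem hex ha ha01 ham hG0m hG0le hG0past).2
  have hjoint : ∫⁻ z, G (obsZ z) *
        B.indicator 1 (toUI (Fc (a i (tilt ρ (obsZ z) k i)) (obsZ z (k, i)))) ∂(PP ν)
      = ∫⁻ z, ENNReal.ofReal (bv (z.1 i)) * G1 (obsZ z) ∂(PP ν)
        + ∫⁻ z, ENNReal.ofReal (1 - bv (z.1 i)) * G0 (obsZ z) ∂(PP ν) := by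
    have hm1 : Measurable (fun z : OmZ ι => ENNReal.ofReal (bv (z.1 i)) * G1 (obsZ z)) :=
      (ENNReal.measurable_ofReal.comp (measurable_bv_site i)).mul (hG1m.comp measurable_obsZ)
    have hm0 : Measurable (fun z : OmZ ι => ENNReal.ofReal (1 - bv (z.1 i)) * G0 (obsZ z)) :=
      (ENNReal.measurable_ofReal.comp ((measurable_bv_site i).const_sub 1)).mul
        (hG0m.comp measurable_obsZ)
    rw [← lintegral_add_left hm1]
    have hmL : Measurable (fun z : OmZ ι => G (obsZ z) *
        B.indicator (1 : I → ℝ≥0∞) (toUI (Fc (A (obsZ z)) (obsZ z p)))) :=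
      hinteg.comp measurable_obsZ
    have hmR : Measurable (fun z : OmZ ι => ENNReal.ofReal (bv (z.1 i)) * G1 (obsZ z)
        + ENNReal.ofReal (1 - bv (z.1 i)) * G0 (obsZ z)) := hm1.add hm0
    have eL := lintegral_prod (μ := ν) (ν := Unif (ℕ × ι)) _ hmL.aemeasurable
    have eR := lintegral_prod (μ := ν) (ν := Unif (ℕ × ι)) _ hmR.aemeasurable
    refine eL.trans (Eq.trans ?_ eR.symm)
    apply lintegral_congr
    intro ω
    simp only [obsZ]
    refine (hstep ω).trans ?_
    apply lintegral_congr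
    intro V
    simp only [hG1def, hG0def]
    cases hω : ω i with
    | true =>
      simp only [bv_true, sub_self, ENNReal.ofReal_zero, ENNReal.ofReal_one, one_mul, zero_mul,
        add_zero]
    | false =>
      simp only [bv_false, sub_zero, ENNReal.ofReal_zero, ENNReal.ofReal_one, one_mul, zero_mul,
        zero_add]
  rw [hjoint, hpast1, hpast0]
  have hm1' : Measurable (fun z : OmZ ι => ENNReal.ofReal (a i (tilt ρ (obsZ z) k i)) * G1 (obsZ z)) :=
    (ENNReal.measurable_ofReal.comp (hAm.comp measurable_obsZ)).mul (hG1m.comp measurable_obsZ)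
  have hGz : Measurable (fun z : OmZ ι => G (obsZ z)) := hG.comp measurable_obsZ
  rw [← lintegral_add_left hm1', ← lintegral_mul_const _ hGz]
  apply lintegral_congr
  intro z
  have hmix := mixture_uniform (ha01 (tilt ρ (obsZ z) k i)) hB
  simp only [hG1def, hG0def, hA]
  rw [← hmix]
  unfold psiB
  ring

/-- **Law of the innovations**: they are independent and uniform. -/
theorem map_epsOf_obsZ {a : ι → (ι → ℝ) → ℝ} {ρ : ι → ℝ} (hρ : Function.Injective ρ)
    {W : ι → ℕ → Finset ι} (hW : ∀ i, Monotone (W i))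
    (hmem : ∀ i n, i ∈ W i n) (hex : ∀ i j, ∃ n, j ∈ W i n)
    (ha : ∀ i h, a i h = limsup (fun n => aW ν (W i n) i h) atTop)
    (ha01 : ∀ i h, a i h ∈ Icc (0 : ℝ) 1) (ham : ∀ i, Measurable (a i)) :
    (PP ν).map (fun z : OmZ ι => epsOf a ρ (obsZ z)) = Unif (ℕ × ι) := by
  have hΘ : Measurable (fun z : OmZ ι => epsOf a ρ (obsZ z)) := by
    rw [measurable_pi_iff]
    intro q
    exact (measurable_epsOf ham ρ q).comp measurable_obsZ
  apply Measure.eq_infinitePi
  intro s t ht
  rw [Measure.map_apply hΘ (MeasurableSet.pi s.countable_toSet (fun i _ => ht i))]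
  -- linear order on indices
  let key : ℕ × ι → ℕ ×ₗ ℝ := fun q => toLex (q.1, ρ q.2)
  have hkey : Function.Injective key := by
    intro q r h
    have h1 := (Prod.mk.inj (toLex.injective h))
    exact Prod.ext h1.1 (hρ h1.2)
  let _ : LinearOrder (ℕ × ι) := LinearOrder.lift' key hkey
  have hlt : ∀ q r : ℕ × ι, q < r → prec ρ q r := by
    intro q r h
    have h2 : key q < key r := h
    rw [Prod.Lex.toLex_lt_toLex] at h2
    exact h2
  induction s using Finset.induction_on_max with
  | empty =>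
    simp
  | insert p s' hp ih =>
    have hp' : p ∉ s' := fun h => lt_irrefl _ (hp p h)
    rw [Finset.prod_insert hp']
    obtain ⟨k, i⟩ := p
    set E : Set (ℕ × ι → ℝ) := {x | ∀ q ∈ s', epsOf a ρ x q ∈ t q} with hE
    have hEm : MeasurableSet E := by
      have : E = ⋂ q ∈ s', (fun x => epsOf a ρ x q) ⁻¹' (t q) := by
        ext x
        simp [hE]
      rw [this]
      apply Finset.measurableSet_biInter
      intro q _
      exact (measurable_epsOf ham ρ q) (ht q)
    set G : (ℕ × ι → ℝ) → ℝ≥0∞ := E.indicator 1 with hG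
    have hGm : Measurable G := measurable_one.indicator hEm
    have hG1 : ∀ x, G x ≤ 1 := by
      intro x
      rw [hG]
      by_cases hx : x ∈ E
      · rw [Set.indicator_of_mem hx]
        exact le_rfl
      · rw [Set.indicator_of_notMem hx]
        exact zero_le_one
    have hGpast : ∀ x x', (∀ q, prec ρ q (k, i) → x q = x' q) → G x = G x' := by
      intro x x' h
      have hmemE : x ∈ E ↔ x' ∈ E := by
        simp only [hE, Set.mem_ofPred_eq]
        constructor
        · intro hx q hq
          rw [← epsOf_congr_past (hlt _ _ (hp q hq)) h]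
          exact hx q hq
        · intro hx q hq
          rw [epsOf_congr_past (hlt _ _ (hp q hq)) h]
          exact hx q hq
      simp only [hG]
      by_cases hx : x ∈ E
      · rw [Set.indicator_of_mem hx, Set.indicator_of_mem (hmemE.mp hx)]
        rfl
      · rw [Set.indicator_of_notMem hx, Set.indicator_of_notMem (fun h' => hx (hmemE.mpr h'))]
    have hkey2 := lintegral_innovation ν (hW i) (hmem i) (hex i) (ha i) (ha01 i) (ham i) hGm hG1 hGpast
      (ht (k, i))
    have hs1 : (fun z : OmZ ι => epsOf a ρ (obsZ z)) ⁻¹' (Set.pi (↑(insert (k, i) s')) t)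
        = (fun z : OmZ ι => obsZ z) ⁻¹' E ∩
          {z | toUI (Fc (a i (tilt ρ (obsZ z) k i)) (obsZ z (k, i))) ∈ t (k, i)} := by
      ext z
      simp only [Set.mem_preimage, Set.mem_pi, Finset.coe_insert, Set.mem_insert_iff, Finset.mem_coe,
        Set.mem_inter_iff, hE, Set.mem_ofPred_eq]
      constructor
      · intro h
        exact ⟨fun q hq => h q (Or.inr hq), h (k, i) (Or.inl rfl)⟩
      · rintro ⟨h1, h2⟩ q hq
        rcases hq with rfl | hq
        · exact h2
        · exact h1 q hq
    have hs2 : (fun z : OmZ ι => epsOf a ρ (obsZ z)) ⁻¹' (Set.pi (↑s') t)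
        = (fun z : OmZ ι => obsZ z) ⁻¹' E := by
      ext z
      simp only [Set.mem_preimage, Set.mem_pi, Finset.mem_coe, hE, Set.mem_ofPred_eq]
    rw [hs2] at ih
    have hEz : MeasurableSet ((fun z : OmZ ι => obsZ z) ⁻¹' E) := measurable_obsZ hEm
    have hlhs : ∫⁻ z, G (obsZ z) ∂(PP ν) = (PP ν) ((fun z : OmZ ι => obsZ z) ⁻¹' E) := by
      rw [← lintegral_indicator_one hEz]
      apply lintegral_congr
      intro z
      rw [hG]
      by_cases hz : obsZ z ∈ E
      · rw [Set.indicator_of_mem hz, Set.indicator_of_mem (by exact hz)]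
        rfl
      · rw [Set.indicator_of_notMem hz, Set.indicator_of_notMem (by exact hz)]
    have hFm : Measurable (fun z : OmZ ι => toUI (Fc (a i (tilt ρ (obsZ z) k i)) (obsZ z (k, i)))) :=
      (measurable_epsOf ham ρ (k, i)).comp measurable_obsZ
    have hrhs : ∫⁻ z, G (obsZ z) * (t (k, i)).indicator 1
          (toUI (Fc (a i (tilt ρ (obsZ z) k i)) (obsZ z (k, i)))) ∂(PP ν)
        = (PP ν) ((fun z : OmZ ι => obsZ z) ⁻¹' E ∩
          {z | toUI (Fc (a i (tilt ρ (obsZ z) k i)) (obsZ z (k, i))) ∈ t (k, i)}) := by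
      have hF2 : MeasurableSet {z : OmZ ι | toUI (Fc (a i (tilt ρ (obsZ z) k i)) (obsZ z (k, i))) ∈ t (k, i)} :=
        hFm (ht (k, i))
      rw [← lintegral_indicator_one (hEz.inter hF2)]
      apply lintegral_congr
      intro z
      rw [hG]
      exact mul_indicator_eq E (t (k, i)) obsZ
        (fun z : OmZ ι => toUI (Fc (a i (tilt ρ (obsZ z) k i)) (obsZ z (k, i)))) z
    rw [hs1, ← hrhs, hkey2, hlhs, ih]
    ring

end main

end Crest.Agent.Lib.SR
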