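import Crest.Agent.Lib.SR.Stable

set_option autoImplicit false

open Filter Topology

namespace Crest.Agent.Lib.SR

variable {ι : Type*} [DecidableEq ι]

/-- Total weight of the subsets of `E` containing `C` and avoiding `X`. -/
noncomputable def cnt (μ : Finset ι → ℝ) (E C X : Finset ι) : ℝ :=
  ∑ A ∈ E.powerset.filter (fun A => C ⊆ A ∧ Disjoint A X), μ A

/-- The polynomial in `t` interpolating the count. -/
noncomputable def cntPoly (ν : Finset ι → ℝ) (E C X : Finset ι) (t : ℝ) : ℝ :=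
  ∑ A ∈ E.powerset, ν A * t ^ ((C \ A).card + (A ∩ X).card)

noncomputable def tiltT (C X : Finset ι) (t : ℝ) : ι → ℝ :=
  fun k => if k ∈ C then t⁻¹ else if k ∈ X then t else 1

lemma tiltT_pos (C X : Finset ι) {t : ℝ} (ht : 0 < t) (k : ι) : 0 < tiltT C X t k := by
  unfold tiltT
  split_ifs
  · exact inv_pos.mpr ht
  · exact ht
  · exact one_pos

lemma prod_tiltT {C X : Finset ι} (hCX : Disjoint C X) {t : ℝ} (ht : 0 < t) (A : Finset ι) :
    t ^ C.card * ∏ k ∈ A, tiltT C X t k = t ^ ((C \ A).card + (A ∩ X).card) := by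
  have hpt : ∀ k, tiltT C X t k * t ^ (if k ∈ C then 1 else 0) = t ^ (if k ∈ X then 1 else 0) := by
    intro k
    unfold tiltT
    by_cases hkC : k ∈ C
    · have hkX : k ∉ X := Finset.disjoint_left.mp hCX hkC
      simp [hkC, hkX, ht.ne']
    · by_cases hkX : k ∈ X <;> simp [hkC, hkX]
  have h1 : (∏ k ∈ A, tiltT C X t k) * t ^ (A ∩ C).card = t ^ (A ∩ X).card := by
    have h2 : ∀ D : Finset ι, ∏ k ∈ A, t ^ (if k ∈ D then 1 else 0) = t ^ (A ∩ D).card := by
      intro D
      rw [Finset.prod_pow_eq_pow_sum, ← Finset.card_filter, Finset.filter_mem_eq_inter]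
    rw [← h2 C, ← h2 X, ← Finset.prod_mul_distrib]
    exact Finset.prod_congr rfl (fun k _ => hpt k)
  have h3 : C.card = (C \ A).card + (A ∩ C).card := by
    have := Finset.card_sdiff_add_card_inter C A
    rw [Finset.inter_comm] at this
    omega
  rw [pow_add, ← h1, h3, pow_add]
  ring

lemma cntPoly_eq {C X : Finset ι} (hCX : Disjoint C X) {t : ℝ} (ht : 0 < t)
    (ν : Finset ι → ℝ) (E : Finset ι) :
    cntPoly ν E C X t = t ^ C.card * polyR ν E (tiltT C X t) := by
  unfold cntPoly polyR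
  rw [Finset.mul_sum]
  apply Finset.sum_congr rfl
  intro A _
  rw [← prod_tiltT hCX ht A]
  ring

lemma cntPoly_zero (ν : Finset ι → ℝ) (E C X : Finset ι) :
    cntPoly ν E C X 0 = cnt ν E C X := by
  unfold cntPoly cnt
  rw [Finset.sum_filter]
  apply Finset.sum_congr rfl
  intro A _
  by_cases h : C ⊆ A ∧ Disjoint A X
  · have h1 : (C \ A).card = 0 := by
      rw [Finset.card_eq_zero]
      exact Finset.sdiff_eq_empty_iff_subset.mpr h.1
    have h2 : (A ∩ X).card = 0 := by
      rw [Finset.card_eq_zero]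
      exact Finset.disjoint_iff_inter_eq_empty.mp h.2
    rw [if_pos h, h1, h2]
    simp
  · rw [if_neg h]
    have : (C \ A).card + (A ∩ X).card ≠ 0 := by
      intro h0
      apply h
      constructor
      · apply Finset.sdiff_eq_empty_iff_subset.mp
        rw [← Finset.card_eq_zero]
        omega
      · apply Finset.disjoint_iff_inter_eq_empty.mpr
        rw [← Finset.card_eq_zero]
        omega
    rw [zero_pow this, mul_zero]

lemma continuous_cntPoly (ν : Finset ι → ℝ) (E C X : Finset ι) : Continuous (cntPoly ν E C X) := by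
  unfold cntPoly
  fun_prop

/-- The Rayleigh inequality passes to the conditioned counts. -/
theorem cnt_rayleigh {μ : Finset ι → ℝ} {E : Finset ι} {i j : ι} (hij : i ≠ j) (hiE : i ∉ E)
    (hjE : j ∉ E) (hst : Stable μ (insert i (insert j E))) {C X : Finset ι} (hCX : Disjoint C X) :
    cnt μ E C X * cnt (shiftW i (shiftW j μ)) E C X
      ≤ cnt (shiftW i μ) E C X * cnt (shiftW j μ) E C X := by
  simp only [← cntPoly_zero]
  have hL : Tendsto (fun t => cntPoly μ E C X t * cntPoly (shiftW i (shiftW j μ)) E C X t)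
      (𝓝[>] (0 : ℝ)) (𝓝 (cntPoly μ E C X 0 * cntPoly (shiftW i (shiftW j μ)) E C X 0)) :=
    ((continuous_cntPoly _ _ _ _).mul (continuous_cntPoly _ _ _ _)).continuousAt.tendsto.mono_left
      nhdsWithin_le_nhds
  have hR : Tendsto (fun t => cntPoly (shiftW i μ) E C X t * cntPoly (shiftW j μ) E C X t)
      (𝓝[>] (0 : ℝ)) (𝓝 (cntPoly (shiftW i μ) E C X 0 * cntPoly (shiftW j μ) E C X 0)) :=
    ((continuous_cntPoly _ _ _ _).mul (continuous_cntPoly _ _ _ _)).continuousAt.tendsto.mono_left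
      nhdsWithin_le_nhds
  apply le_of_tendsto_of_tendsto hL hR
  filter_upwards [self_mem_nhdsWithin] with t ht
  have ht : 0 < t := ht
  have h := rayleigh_of_stable (x := tiltT C X t) hij hiE hjE hst (fun k _ => tiltT_pos C X ht k)
  simp only [cntPoly_eq hCX ht]
  have hpos : 0 ≤ t ^ C.card * t ^ C.card := by positivity
  have := mul_le_mul_of_nonneg_left h hpos
  nlinarith [this]

lemma cnt_exclude (ν : Finset ι → ℝ) {E : Finset ι} {i : ι} (hi : i ∉ E) (C X : Finset ι) :
    cnt ν (insert i E) C (insert i X) = cnt ν E C X := by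
  unfold cnt
  apply Finset.sum_congr _ (fun _ _ => rfl)
  ext A
  simp only [Finset.mem_filter, Finset.mem_powerset, Finset.disjoint_insert_right]
  constructor
  · rintro ⟨h1, h2, h3, h4⟩
    exact ⟨(Finset.subset_insert_iff_of_notMem h3).mp h1, h2, h4⟩
  · rintro ⟨h1, h2, h4⟩
    exact ⟨h1.trans (Finset.subset_insert _ _), h2, fun h => hi (h1 h), h4⟩

lemma cnt_include (ν : Finset ι → ℝ) {E : Finset ι} {i : ι} (hi : i ∉ E) {C X : Finset ι}
    (hiC : i ∉ C) (hiX : i ∉ X) :
    cnt ν (insert i E) (insert i C) X = cnt (shiftW i ν) E C X := by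
  unfold cnt shiftW
  symm
  refine Finset.sum_bij' (fun A _ => insert i A) (fun A _ => A.erase i) ?_ ?_ ?_ ?_ ?_
  · intro A hA
    simp only [Finset.mem_filter, Finset.mem_powerset] at hA ⊢
    refine ⟨Finset.insert_subset_insert _ hA.1, Finset.insert_subset_insert _ hA.2.1, ?_⟩
    rw [Finset.disjoint_insert_left]
    exact ⟨hiX, hA.2.2⟩
  · intro A hA
    simp only [Finset.mem_filter, Finset.mem_powerset] at hA ⊢
    refine ⟨?_, ?_, ?_⟩
    · intro k hk
      obtain ⟨hk1, hk2⟩ := Finset.mem_erase.mp hk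
      exact (Finset.mem_insert.mp (hA.1 hk2)).resolve_left hk1
    · intro k hk
      refine Finset.mem_erase.mpr ⟨fun h => hiC (h ▸ hk), hA.2.1 (Finset.mem_insert_of_mem hk)⟩
    · exact Finset.disjoint_of_subset_left (Finset.erase_subset _ _) hA.2.2
  · intro A hA
    simp only [Finset.mem_filter, Finset.mem_powerset] at hA
    exact Finset.erase_insert (fun h => hi (hA.1 h))
  · intro A hA
    simp only [Finset.mem_filter, Finset.mem_powerset] at hA
    exact Finset.insert_erase (hA.2.1 (Finset.mem_insert_self _ _))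
  · intro A _
    rfl

lemma cnt_split (μ : Finset ι → ℝ) (E C X : Finset ι) (i : ι) :
    cnt μ E C X = cnt μ E (insert i C) X + cnt μ E C (insert i X) := by
  unfold cnt
  rw [← Finset.sum_union]
  · apply Finset.sum_congr _ (fun _ _ => rfl)
    ext A
    simp only [Finset.mem_union, Finset.mem_filter, Finset.mem_powerset, Finset.insert_subset_iff,
      Finset.disjoint_insert_right]
    tauto
  · rw [Finset.disjoint_left]
    intro A hA hA'
    simp only [Finset.mem_filter, Finset.mem_powerset, Finset.insert_subset_iff,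
      Finset.disjoint_insert_right] at hA hA'
    exact hA'.2.2.1 hA.2.1.1

lemma cnt_nonneg {μ : Finset ι → ℝ} (hμ : ∀ S, 0 ≤ μ S) (E C X : Finset ι) : 0 ≤ cnt μ E C X :=
  Finset.sum_nonneg (fun A _ => hμ A)

lemma cnt_le_left {μ : Finset ι → ℝ} (hμ : ∀ S, 0 ≤ μ S) (E C X : Finset ι) (i : ι) :
    cnt μ E (insert i C) X ≤ cnt μ E C X := by
  rw [cnt_split μ E C X i]
  linarith [cnt_nonneg hμ E C (insert i X)]

lemma cnt_le_right {μ : Finset ι → ℝ} (hμ : ∀ S, 0 ≤ μ S) (E C X : Finset ι) (i : ι) :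
    cnt μ E C (insert i X) ≤ cnt μ E C X := by
  rw [cnt_split μ E C X i]
  linarith [cnt_nonneg hμ E (insert i C) X]

/-- Negative correlation of the conditioned measures. -/
theorem corr_of_stable {μ : Finset ι → ℝ} {𝓔 : Finset ι} (hst : Stable μ 𝓔) {i j : ι} (hij : i ≠ j)
    (hi : i ∈ 𝓔) (hj : j ∈ 𝓔) {C X : Finset ι} (hCX : Disjoint C X) (hiC : i ∉ C) (hjC : j ∉ C)
    (hiX : i ∉ X) (hjX : j ∉ X) :
    cnt μ 𝓔 (insert i (insert j C)) X * cnt μ 𝓔 C X
      ≤ cnt μ 𝓔 (insert i C) X * cnt μ 𝓔 (insert j C) X := by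
  set E := (𝓔.erase i).erase j with hE
  have hjE : j ∉ E := Finset.notMem_erase _ _
  have hiE : i ∉ E := fun h => Finset.notMem_erase i 𝓔 (Finset.mem_of_mem_erase h)
  have hiE' : i ∉ insert j E := by
    rw [Finset.mem_insert]
    rintro (h | h)
    · exact hij h
    · exact hiE h
  have h𝓔 : 𝓔 = insert i (insert j E) := by
    rw [hE, Finset.insert_erase (Finset.mem_erase.mpr ⟨hij.symm, hj⟩), Finset.insert_erase hi]
  rw [h𝓔] at hst ⊢
  have hR := cnt_rayleigh hij hiE hjE hst hCX
  have hij' : i ∉ insert j C := by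
    rw [Finset.mem_insert]
    rintro (h | h)
    · exact hij h
    · exact hiC h
  have hiX' : i ∉ insert j X := by
    rw [Finset.mem_insert]
    rintro (h | h)
    · exact hij h
    · exact hiX h
  -- the four pieces
  have h1 : cnt μ (insert i (insert j E)) C (insert i (insert j X)) = cnt μ E C X := by
    rw [cnt_exclude μ hiE', cnt_exclude μ hjE]
  have h2 : cnt μ (insert i (insert j E)) (insert i (insert j C)) X
      = cnt (shiftW i (shiftW j μ)) E C X := by
    rw [cnt_include μ hiE' hij' hiX, cnt_include _ hjE hjC hjX, shiftW_comm]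
  have h3 : cnt μ (insert i (insert j E)) (insert i C) (insert j X) = cnt (shiftW i μ) E C X := by
    rw [cnt_include μ hiE' hiC hiX', cnt_exclude _ hjE]
  have h4 : cnt μ (insert i (insert j E)) (insert j C) (insert i X) = cnt (shiftW j μ) E C X := by
    rw [cnt_exclude μ hiE', cnt_include _ hjE hjC hjX]
  -- expand
  set 𝓕 := insert i (insert j E) with h𝓕
  have e1 : cnt μ 𝓕 (insert i C) X
      = cnt μ 𝓕 (insert i (insert j C)) X + cnt μ 𝓕 (insert i C) (insert j X) := by
    rw [cnt_split μ 𝓕 (insert i C) X j, Finset.insert_comm j i C]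
  have e2 : cnt μ 𝓕 (insert j C) X
      = cnt μ 𝓕 (insert i (insert j C)) X + cnt μ 𝓕 (insert j C) (insert i X) := by
    rw [cnt_split μ 𝓕 (insert j C) X i]
  have e3 : cnt μ 𝓕 C X = cnt μ 𝓕 (insert i (insert j C)) X + cnt μ 𝓕 (insert i C) (insert j X)
      + (cnt μ 𝓕 (insert j C) (insert i X) + cnt μ 𝓕 C (insert i (insert j X))) := by
    rw [cnt_split μ 𝓕 C X i, e1, cnt_split μ 𝓕 C (insert i X) j, Finset.insert_comm j i X]
  rw [e1, e2, e3]
  rw [h1, h2, h3, h4]
  nlinarith [hR]

/-- Negative correlation of a site with a finite increasing event. -/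
theorem neg2 {μ : Finset ι → ℝ} (hμ : ∀ S, 0 ≤ μ S) {𝓔 : Finset ι} (hst : Stable μ 𝓔) {X : Finset ι}
    {g : ι} (hg : g ∈ 𝓔) (hgX : g ∉ X) {F : Finset ι} (hF : F ⊆ 𝓔) (hgF : g ∉ F)
    (hFX : Disjoint F X) :
    cnt μ 𝓔 (insert g F) X * cnt μ 𝓔 ∅ X ≤ cnt μ 𝓔 {g} X * cnt μ 𝓔 F X := by
  induction F using Finset.induction_on with
  | empty => simp [mul_comm]
  | insert f F' hf ih =>
    have hfg : f ≠ g := fun h => hgF (h ▸ Finset.mem_insert_self _ _)
    have hgF' : g ∉ F' := fun h => hgF (Finset.mem_insert_of_mem h)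
    have hfX : f ∉ X := Finset.disjoint_left.mp hFX (Finset.mem_insert_self _ _)
    have hF'X : Disjoint F' X :=
      Finset.disjoint_of_subset_left (Finset.subset_insert _ _) hFX
    have hF' : F' ⊆ 𝓔 := (Finset.subset_insert _ _).trans hF
    have hf𝓔 : f ∈ 𝓔 := hF (Finset.mem_insert_self _ _)
    have IH := ih hF' hgF' hF'X
    have hc := corr_of_stable hst hfg.symm hg hf𝓔 hF'X hgF' hf hgX hfX
    set a := cnt μ 𝓔 (insert g (insert f F')) X
    set b := cnt μ 𝓔 F' X
    set c := cnt μ 𝓔 (insert g F') X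
    set d := cnt μ 𝓔 (insert f F') X
    set e := cnt μ 𝓔 ∅ X
    set m := cnt μ 𝓔 {g} X
    have ha : 0 ≤ a := cnt_nonneg hμ _ _ _
    have hb : 0 ≤ b := cnt_nonneg hμ _ _ _
    have hcc : 0 ≤ c := cnt_nonneg hμ _ _ _
    have hd : 0 ≤ d := cnt_nonneg hμ _ _ _
    have he : 0 ≤ e := cnt_nonneg hμ _ _ _
    have hm : 0 ≤ m := cnt_nonneg hμ _ _ _
    rcases hb.eq_or_lt with hb0 | hbpos
    · have hdle : d ≤ b := cnt_le_left hμ _ _ _ _
      have hale : a ≤ d := cnt_le_left hμ _ _ _ _
      have : a = 0 := by linarith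
      rw [this]
      simp only [zero_mul]
      positivity
    · have h1 : a * e * b ≤ m * d * b := by
        calc a * e * b = (a * b) * e := by ring
          _ ≤ (c * d) * e := by gcongr
          _ = (c * e) * d := by ring
          _ ≤ (m * b) * d := by gcongr
          _ = m * d * b := by ring
      exact le_of_mul_le_mul_right h1 hbpos

/-- Avoiding `X` makes containing `F` likelier. -/
theorem exclusion {μ : Finset ι → ℝ} (hμ : ∀ S, 0 ≤ μ S) {𝓔 : Finset ι} (hst : Stable μ 𝓔)
    {F X : Finset ι} (hF : F ⊆ 𝓔) (hX : X ⊆ 𝓔) (hFX : Disjoint F X) :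
    cnt μ 𝓔 F ∅ * cnt μ 𝓔 ∅ X ≤ cnt μ 𝓔 F X * cnt μ 𝓔 ∅ ∅ := by
  induction X using Finset.induction_on with
  | empty => rfl
  | insert g X' hg ih =>
    have hgF : g ∉ F := fun h => Finset.disjoint_left.mp hFX h (Finset.mem_insert_self _ _)
    have hFX' : Disjoint F X' := Finset.disjoint_of_subset_right (Finset.subset_insert _ _) hFX
    have hg𝓔 : g ∈ 𝓔 := hX (Finset.mem_insert_self _ _)
    have IH := ih ((Finset.subset_insert _ _).trans hX) hFX'
    have hN := neg2 hμ hst hg𝓔 hg hF hgF hFX'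
    have e1 := cnt_split μ 𝓔 F X' g
    have e2 := cnt_split μ 𝓔 ∅ X' g
    have e3 : (insert g ∅ : Finset ι) = {g} := rfl
    rw [e3] at e2
    set a := cnt μ 𝓔 ∅ ∅
    set b := cnt μ 𝓔 F ∅
    set c := cnt μ 𝓔 ∅ X'
    set d := cnt μ 𝓔 F X'
    set c' := cnt μ 𝓔 ∅ (insert g X')
    set d' := cnt μ 𝓔 F (insert g X')
    set p := cnt μ 𝓔 (insert g F) X'
    set m := cnt μ 𝓔 {g} X'
    have ha : 0 ≤ a := cnt_nonneg hμ _ _ _
    have hb : 0 ≤ b := cnt_nonneg hμ _ _ _
    have hc : 0 ≤ c := cnt_nonneg hμ _ _ _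
    have hd' : 0 ≤ d' := cnt_nonneg hμ _ _ _
    have hc' : 0 ≤ c' := cnt_nonneg hμ _ _ _
    have hm : 0 ≤ m := cnt_nonneg hμ _ _ _
    have hkey : c' * d ≤ d' * c := by
      have hp : p = d - d' := by linarith
      have hm' : m = c - c' := by linarith
      rw [hp, hm'] at hN
      linarith
    rcases hc.eq_or_lt with hc0 | hcpos
    · have : c' = 0 := by linarith
      rw [this]
      simp only [mul_zero]
      positivity
    · have h1 : b * c' * c ≤ d' * a * c := by
        calc b * c' * c = (b * c) * c' := by ring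
          _ ≤ (d * a) * c' := by gcongr
          _ = a * (c' * d) := by ring
          _ ≤ a * (d' * c) := by gcongr
          _ = d' * a * c := by ring
      exact le_of_mul_le_mul_right h1 hcpos

end Crest.Agent.Lib.SR
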