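import Crest.Agent.Lib.SR.Rule

set_option autoImplicit false

open MeasureTheory Set Filter Topology
open scoped ENNReal unitInterval

namespace Crest.Agent.Lib.SR

section resample

variable {J : Type*}

/-- The law of independent uniform labels. -/
noncomputable abbrev Unif (J : Type*) : Measure (J → I) :=
  Measure.infinitePi (fun _ : J => (volume : Measure I))

variable [DecidableEq J]

/-- Resampling one coordinate preserves the product law. -/
lemma map_update_unif (p : J) :
    ((Unif J).prod (volume : Measure I)).map (fun z : (J → I) × I => Function.update z.1 p z.2)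
      = Unif J := by
  apply Measure.eq_infinitePi
  intro s t ht
  have hR : Measurable (fun z : (J → I) × I => Function.update z.1 p z.2) := measurable_update'
  rw [Measure.map_apply hR (MeasurableSet.pi s.countable_toSet (fun i _ => ht i))]
  by_cases hp : p ∈ s
  · have hset : (fun z : (J → I) × I => Function.update z.1 p z.2) ⁻¹' (Set.pi s t)
        = (Set.pi (s.erase p) t) ×ˢ (t p) := by
      ext ⟨V, v⟩
      simp only [Set.mem_preimage, Set.mem_pi, Set.mem_prod, Finset.coe_erase, Finset.mem_coe,
        Set.mem_sdiff, Set.mem_singleton_iff]
      constructor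
      · intro h
        refine ⟨fun i hi => ?_, ?_⟩
        · have := h i hi.1
          rwa [Function.update_of_ne hi.2] at this
        · have := h p hp
          rwa [Function.update_self] at this
      · rintro ⟨h1, h2⟩ i hi
        by_cases hip : i = p
        · subst hip
          rwa [Function.update_self]
        · rw [Function.update_of_ne hip]
          exact h1 i ⟨hi, hip⟩
    rw [hset, Measure.prod_prod]
    have hpi : ((Set.pi (s.erase p) t : Set (J → I)) = Set.pi (↑(s.erase p)) t) := rfl
    rw [Measure.infinitePi_pi _ (fun i _ => ht i), ← Finset.prod_erase_mul s _ hp]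
  · have hset : (fun z : (J → I) × I => Function.update z.1 p z.2) ⁻¹' (Set.pi s t)
        = (Set.pi s t) ×ˢ (univ : Set I) := by
      ext ⟨V, v⟩
      simp only [Set.mem_preimage, Set.mem_pi, Set.mem_prod, Finset.mem_coe, mem_univ, and_true]
      constructor
      · intro h i hi
        have := h i hi
        have hne : i ≠ p := fun e => hp (by rw [← e]; exact hi)
        rwa [Function.update_of_ne hne] at this
      · intro h i hi
        have hne : i ≠ p := fun e => hp (by rw [← e]; exact hi)
        rw [Function.update_of_ne hne]
        exact h i hi
    rw [hset, Measure.prod_prod, measure_univ, mul_one, Measure.infinitePi_pi _ (fun i _ => ht i)]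

/-- Tonelli form of resampling. -/
lemma lintegral_resample (p : J) {G : (J → I) → ℝ≥0∞} (hG : Measurable G) :
    ∫⁻ V, G V ∂(Unif J) = ∫⁻ V, (∫⁻ v : I, G (Function.update V p v)) ∂(Unif J) := by
  have hR : Measurable (fun z : (J → I) × I => Function.update z.1 p z.2) := measurable_update'
  conv_lhs => rw [← map_update_unif p]
  have hm : Measurable (fun a : (J → I) × I => G (Function.update a.1 p a.2)) := hG.comp hR
  rw [lintegral_map hG hR]
  exact lintegral_prod _ hm.aemeasurable

end resample

section hybrid

variable {J : Type*} [DecidableEq J]

/-- The numeric signal level of a Boolean. -/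
noncomputable def bv (b : Bool) : ℝ := if b then 1 else 0

@[simp] lemma bv_true : bv true = 1 := rfl
@[simp] lemma bv_false : bv false = 0 := rfl

lemma bv_mem (b : Bool) : bv b ∈ Icc (0 : ℝ) 1 := by
  cases b
  · exact zero_mem_Icc01
  · exact one_mem_Icc01

/-- Observations with site-dependent channel choice. -/
noncomputable def hybrid (σ' : J → Bool) (V : J → I) : J → ℝ := fun q => Tc (bv (σ' q)) (V q)

omit [DecidableEq J] in
lemma measurable_hybrid (σ' : J → Bool) : Measurable (hybrid σ') := by
  rw [measurable_pi_iff]
  intro q
  unfold hybrid
  have h1 : Measurable (fun V : J → I => ((V q : I) : ℝ)) :=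
    measurable_subtype_coe.comp (measurable_pi_apply q)
  exact measurable_Tc.comp (measurable_const.prodMk h1)

/-- The likelihood ratio at one site as an extended real. -/
noncomputable def likE (s : ℝ) : ℝ≥0∞ := ENNReal.ofReal (Real.exp (ell s))

lemma measurable_likE : Measurable likE :=
  ENNReal.measurable_ofReal.comp (Real.measurable_exp.comp measurable_ell)

lemma hybrid_update (σ' : J → Bool) (V : J → I) (p : J) (v : I) :
    hybrid σ' (Function.update V p v)
      = Function.update (hybrid σ' V) p (Tc (bv (σ' p)) v) := by
  funext q
  by_cases hq : q = p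
  · subst hq
    simp [hybrid]
  · simp [hybrid, Function.update_of_ne hq]

lemma hybrid_congr_of_ne {σ₁ σ₂ : J → Bool} {p : J} (h : ∀ q, q ≠ p → σ₁ q = σ₂ q) (V : J → I) :
    Function.update (hybrid σ₁ V) p = Function.update (hybrid σ₂ V) p := by
  funext y q
  by_cases hq : q = p
  · subst hq
    simp
  · simp [Function.update_of_ne hq, hybrid, h q hq]

/-- Change of measure from a hybrid channel to the base channel. -/
lemma lintegral_hybrid (C : Finset J) : ∀ (σ' : J → Bool), (∀ q, q ∉ C → σ' q = false) →
    ∀ {g : (J → ℝ) → ℝ≥0∞}, Measurable g →
    ∫⁻ V, g (hybrid σ' V) ∂(Unif J)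
      = ∫⁻ V, g (hybrid (fun _ => false) V) *
          ∏ q ∈ C, (if σ' q then likE (Tc 0 (V q)) else 1) ∂(Unif J) := by
  induction C using Finset.induction_on with
  | empty =>
    intro σ' hσ' g hg
    have : σ' = fun _ => false := by
      funext q
      exact hσ' q (by simp)
    subst this
    simp
  | insert p C hp ih =>
    intro σ' hσ' g hg
    set σ₀ : J → Bool := Function.update σ' p false with hσ₀
    have hσ₀C : ∀ q, q ∉ C → σ₀ q = false := by
      intro q hq
      by_cases hqp : q = p
      · subst hqp
        simp [hσ₀]
      · rw [hσ₀, Function.update_of_ne hqp]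
        apply hσ'
        simp [hqp, hq]
    have hprodcongr : ∀ V : J → I, ∏ q ∈ C, (if σ₀ q then likE (Tc 0 (V q)) else 1)
        = ∏ q ∈ C, (if σ' q then likE (Tc 0 (V q)) else 1) := by
      intro V
      apply Finset.prod_congr rfl
      intro q hq
      have hqp : q ≠ p := fun h => hp (h ▸ hq)
      rw [hσ₀, Function.update_of_ne hqp]
    by_cases hσp : σ' p = true
    · -- the signal is on at p: change one coordinate
      have hgm : Measurable (fun V => g (hybrid σ' V)) := hg.comp (measurable_hybrid σ')
      set g' : (J → ℝ) → ℝ≥0∞ := fun x => g x * likE (x p) with hg'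
      have hg'm : Measurable g' := hg.mul (measurable_likE.comp (measurable_pi_apply p))
      have hstep : ∫⁻ V, g (hybrid σ' V) ∂(Unif J) = ∫⁻ V, g' (hybrid σ₀ V) ∂(Unif J) := by
        have hgm' : Measurable (fun V => g' (hybrid σ₀ V)) := hg'm.comp (measurable_hybrid σ₀)
        rw [lintegral_resample p hgm, lintegral_resample p hgm']
        apply lintegral_congr
        intro V
        have h1 : ∀ v : I, g (hybrid σ' (Function.update V p v))
            = (fun y => g (Function.update (hybrid σ₀ V) p y)) (Tc 1 v) := by
          intro v
          simp only
          rw [hybrid_update, hσp, bv_true,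
            hybrid_congr_of_ne (σ₁ := σ') (σ₂ := σ₀) (p := p) (fun q hq => by
              rw [hσ₀, Function.update_of_ne hq]) V]
        have h2 : ∀ v : I, g' (hybrid σ₀ (Function.update V p v))
            = (fun y => g (Function.update (hybrid σ₀ V) p y)) (Tc 0 v) * likE (Tc 0 v) := by
          intro v
          simp only [hg']
          rw [hybrid_update]
          have : σ₀ p = false := by simp [hσ₀]
          rw [this, bv_false, Function.update_self]
        simp_rw [h1, h2]
        have hφ : Measurable (fun y => g (Function.update (hybrid σ₀ V) p y)) :=
          hg.comp (measurable_update _)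
        exact lintegral_Tc_one _ hφ
      rw [hstep, ih σ₀ hσ₀C hg'm]
      apply lintegral_congr
      intro V
      rw [Finset.prod_insert hp, hσp, hprodcongr V, hg']
      simp only [if_true]
      have : hybrid (fun _ => false) V p = Tc 0 (V p) := by simp [hybrid]
      rw [this]
      ring
    · -- the signal is off at p
      have hσeq : σ₀ = σ' := by
        funext q
        by_cases hqp : q = p
        · subst hqp
          simp only [hσ₀, Function.update_self]
          simpa using hσp
        · rw [hσ₀, Function.update_of_ne hqp]
      rw [← hσeq, ih σ₀ hσ₀C hg]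
      apply lintegral_congr
      intro V
      rw [Finset.prod_insert hp]
      have : σ₀ p = false := by simp [hσ₀]
      simp only [this, Bool.false_eq_true, if_false, one_mul]

end hybrid

end Crest.Agent.Lib.SR
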