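import Crest.Agent.Lib.SR.Stable
import Crest.Agent.Lib.SR.Channel

set_option autoImplicit false

open MeasureTheory Set Filter Topology
open scoped ENNReal unitInterval

namespace Crest.Agent.Lib.SR

variable {ι : Type*}

/-- One sweep of the fixed point iteration at one time step. -/
noncomputable def stepFn (a : ι → (ι → ℝ) → ℝ) (ρ : ι → ℝ) (P : ι → ℝ) (e : ι → I) (s : ι → ℝ) :
    ι → ℝ :=
  fun i => Tc (a i (fun j => P j + if ρ j < ρ i then ell (s j) else 0)) (e i)

/-- The fixed point, as the limsup of the iterates from `0`. -/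
noncomputable def fixFn (a : ι → (ι → ℝ) → ℝ) (ρ : ι → ℝ) (P : ι → ℝ) (e : ι → I) : ι → ℝ :=
  fun i => limsup (fun m : ℕ => (stepFn a ρ P e)^[m] 0 i) atTop

/-- Cumulated log-likelihoods. -/
noncomputable def runP (a : ι → (ι → ℝ) → ℝ) (ρ : ι → ℝ) (ε : ℕ × ι → I) : ℕ → ι → ℝ
  | 0 => 0
  | k + 1 => fun j => runP a ρ ε k j + ell (fixFn a ρ (runP a ρ ε k) (fun i => ε (k, i)) j)

/-- The observations produced at time `k`. -/
noncomputable def runS (a : ι → (ι → ℝ) → ℝ) (ρ : ι → ℝ) (ε : ℕ × ι → I) (k : ℕ) : ι → ℝ :=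
  fixFn a ρ (runP a ρ ε k) (fun i => ε (k, i))

/-- Decode a configuration from the frequency of positive observations. -/
noncomputable def decode (s : ℕ → ι → ℝ) (i : ι) : Bool :=
  decide ((1 / 2 : ℝ) < limsup (fun K : ℕ =>
    (((Finset.range K).filter (fun k => 0 < s k i)).card : ℝ) / K) atTop)

/-- The rule: from labels to configurations. -/
noncomputable def Rule (a : ι → (ι → ℝ) → ℝ) (ρ : ι → ℝ) (ε : ℕ × ι → I) : ι → Bool :=
  decode (runS a ρ ε)

/-- The tilt seen by site `i` at time `k`: cumulated log-likelihoods of earlier observations. -/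
noncomputable def tilt (ρ : ι → ℝ) (x : ℕ × ι → ℝ) (k : ℕ) (i j : ι) : ℝ :=
  ∑ m ∈ Finset.range k, ell (x (m, j)) + if ρ j < ρ i then ell (x (k, j)) else 0

/-- The innovation: the uniform label recovered from an observation sequence. -/
noncomputable def epsOf (a : ι → (ι → ℝ) → ℝ) (ρ : ι → ℝ) (x : ℕ × ι → ℝ) (p : ℕ × ι) : I :=
  toUI (Fc (a p.2 (tilt ρ x p.1 p.2)) (x p))

section deterministic

variable {a : ι → (ι → ℝ) → ℝ} {ρ : ι → ℝ} {P : ι → ℝ} {e : ι → I}

lemma stepFn_mem (ha01 : ∀ i h, a i h ∈ Icc (0 : ℝ) 1) (s : ι → ℝ) (i : ι) :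
    stepFn a ρ P e s i ∈ Icc (-1 : ℝ) 1 :=
  Tc_mem (ha01 _ _) (e i).2

lemma stepFn_contract (ha01 : ∀ i h, a i h ∈ Icc (0 : ℝ) 1)
    (hlip : ∀ i h h' δ, (∀ j, |h j - h' j| ≤ δ) → |a i h - a i h'| ≤ δ / 2)
    {s s' : ι → ℝ} (hs : ∀ j, s j ∈ Icc (-1 : ℝ) 1) (hs' : ∀ j, s' j ∈ Icc (-1 : ℝ) 1)
    {η : ℝ} (hη : ∀ j, |s j - s' j| ≤ η) (i : ι) :
    |stepFn a ρ P e s i - stepFn a ρ P e s' i| ≤ 2 / 3 * η := by
  have h1 := Tc_lipschitz (ha01 i (fun j => P j + if ρ j < ρ i then ell (s j) else 0))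
    (ha01 i (fun j => P j + if ρ j < ρ i then ell (s' j) else 0)) (e i).2
  have h2 := hlip i (fun j => P j + if ρ j < ρ i then ell (s j) else 0)
    (fun j => P j + if ρ j < ρ i then ell (s' j) else 0) (4 / 3 * η) (by
      intro j
      have hnn : 0 ≤ η := le_trans (abs_nonneg _) (hη j)
      split_ifs
      · have h3 := ell_sub_le (hs j) (hs' j)
        have h4 := hη j
        have e1 : P j + ell (s j) - (P j + ell (s' j)) = ell (s j) - ell (s' j) := by ring
        rw [e1]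
        linarith
      · have e1 : P j + 0 - (P j + 0) = 0 := by ring
        rw [e1, abs_zero]
        positivity)
  unfold stepFn
  calc _ ≤ _ := h1
    _ ≤ 4 / 3 * η / 2 := h2
    _ = 2 / 3 * η := by ring

lemma iterate_mem (ha01 : ∀ i h, a i h ∈ Icc (0 : ℝ) 1) (m : ℕ) (j : ι) :
    (stepFn a ρ P e)^[m] 0 j ∈ Icc (-1 : ℝ) 1 := by
  cases m with
  | zero =>
    simp only [Function.iterate_zero, id_eq, Pi.zero_apply, mem_Icc]
    norm_num
  | succ m =>
    rw [Function.iterate_succ_apply']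
    exact stepFn_mem ha01 _ j

/-- Iterates converge to any fixed point in the cube, and the limsup identifies it. -/
lemma fixFn_eq_of_fixed (ha01 : ∀ i h, a i h ∈ Icc (0 : ℝ) 1)
    (hlip : ∀ i h h' δ, (∀ j, |h j - h' j| ≤ δ) → |a i h - a i h'| ≤ δ / 2)
    {s : ι → ℝ} (hs : ∀ j, s j ∈ Icc (-1 : ℝ) 1) (hfix : stepFn a ρ P e s = s) :
    fixFn a ρ P e = s := by
  have hbound : ∀ m : ℕ, ∀ j, |(stepFn a ρ P e)^[m] 0 j - s j| ≤ (2 / 3 : ℝ) ^ m := by
    intro m
    induction m with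
    | zero =>
      intro j
      simp only [Function.iterate_zero, id_eq, Pi.zero_apply, zero_sub, abs_neg, pow_zero]
      rw [abs_le]
      exact ⟨(hs j).1, (hs j).2⟩
    | succ m ih =>
      intro j
      rw [Function.iterate_succ_apply']
      have h := stepFn_contract (P := P) (e := e) (ρ := ρ) ha01 hlip
        (s := (stepFn a ρ P e)^[m] 0) (s' := s) (iterate_mem ha01 m) hs ih j
      rw [hfix] at h
      calc _ ≤ _ := h
        _ = (2 / 3 : ℝ) ^ (m + 1) := by ring
  funext i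
  unfold fixFn
  apply Tendsto.limsup_eq
  rw [tendsto_iff_dist_tendsto_zero]
  have hlim : Tendsto (fun m : ℕ => (2 / 3 : ℝ) ^ m) atTop (𝓝 0) :=
    tendsto_pow_atTop_nhds_zero_of_lt_one (by norm_num) (by norm_num)
  apply squeeze_zero (fun m => dist_nonneg) _ hlim
  intro m
  rw [Real.dist_eq]
  exact hbound m i

/-- The true observations are recovered from their innovations. -/
theorem runS_epsOf (ha01 : ∀ i h, a i h ∈ Icc (0 : ℝ) 1)
    (hlip : ∀ i h h' δ, (∀ j, |h j - h' j| ≤ δ) → |a i h - a i h'| ≤ δ / 2)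
    {x : ℕ × ι → ℝ} (hx : ∀ q, x q ∈ Icc (-1 : ℝ) 1) (k : ℕ) :
    runS a ρ (epsOf a ρ x) k = fun i => x (k, i) := by
  have hfix : ∀ k, ∀ Pk : ι → ℝ, (Pk = fun j => ∑ m ∈ Finset.range k, ell (x (m, j))) →
      fixFn a ρ Pk (fun i => epsOf a ρ x (k, i)) = fun i => x (k, i) := by
    intro k Pk hPk
    apply fixFn_eq_of_fixed ha01 hlip (fun j => hx _)
    funext i
    unfold stepFn
    simp only
    have e1 : (fun j => Pk j + if ρ j < ρ i then ell (x (k, j)) else 0) = tilt ρ x k i := by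
      funext j
      rw [hPk]
      rfl
    rw [e1]
    unfold epsOf
    simp only
    have hF := Fc_mem (ha01 i (tilt ρ x k i)) (hx (k, i))
    rw [toUI_coe hF, Tc_Fc (ha01 i _) (hx (k, i))]
  have hP : ∀ k, runP a ρ (epsOf a ρ x) k = fun j => ∑ m ∈ Finset.range k, ell (x (m, j)) := by
    intro k
    induction k with
    | zero =>
      funext j
      simp [runP]
    | succ k ih =>
      funext j
      simp only [runP]
      rw [ih, hfix k _ rfl, Finset.sum_range_succ]
  unfold runS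
  exact hfix k _ (hP k)

theorem Rule_epsOf (ha01 : ∀ i h, a i h ∈ Icc (0 : ℝ) 1)
    (hlip : ∀ i h h' δ, (∀ j, |h j - h' j| ≤ δ) → |a i h - a i h'| ≤ δ / 2)
    {x : ℕ × ι → ℝ} (hx : ∀ q, x q ∈ Icc (-1 : ℝ) 1) :
    Rule a ρ (epsOf a ρ x) = decode (fun k i => x (k, i)) := by
  unfold Rule
  congr 1
  funext k
  exact runS_epsOf ha01 hlip hx k

end deterministic

section measurability

variable {Θ : Type*} [MeasurableSpace Θ]

/-- Joint measurability of one sweep. -/
lemma measurable_stepFn {a : Θ → ι → (ι → ℝ) → ℝ}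
    (ha : ∀ i, Measurable (fun p : Θ × (ι → ℝ) => a p.1 i p.2)) :
    Measurable (fun z : Θ × (ι → ℝ) × (ι → ℝ) × (ι → I) × (ι → ℝ) =>
      stepFn (a z.1) z.2.1 z.2.2.1 z.2.2.2.1 z.2.2.2.2) := by
  rw [measurable_pi_iff]
  intro i
  unfold stepFn
  have hA : Measurable (fun x : Θ × (ι → ℝ) × (ι → ℝ) × (ι → I) × (ι → ℝ) =>
      a x.1 i fun j => x.2.2.1 j + if x.2.1 j < x.2.1 i then ell (x.2.2.2.2 j) else 0) := by
    have hin : Measurable (fun x : Θ × (ι → ℝ) × (ι → ℝ) × (ι → I) × (ι → ℝ) =>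
        ((x.1, fun j => x.2.2.1 j + if x.2.1 j < x.2.1 i then ell (x.2.2.2.2 j) else 0) :
          Θ × (ι → ℝ))) := by
      apply Measurable.prodMk measurable_fst
      rw [measurable_pi_iff]
      intro j
      apply Measurable.add
      · exact (measurable_pi_apply j).comp (measurable_fst.comp (measurable_snd.comp measurable_snd))
      · apply Measurable.ite
        · have h1 : Measurable (fun z : Θ × (ι → ℝ) × (ι → ℝ) × (ι → I) × (ι → ℝ) => z.2.1 j) :=
            (measurable_pi_apply j).comp (measurable_fst.comp measurable_snd)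
          have h2 : Measurable (fun z : Θ × (ι → ℝ) × (ι → ℝ) × (ι → I) × (ι → ℝ) => z.2.1 i) :=
            (measurable_pi_apply i).comp (measurable_fst.comp measurable_snd)
          exact measurableSet_lt h1 h2
        · apply measurable_ell.comp
          exact (measurable_pi_apply j).comp
            (measurable_snd.comp (measurable_snd.comp (measurable_snd.comp measurable_snd)))
        · exact measurable_const
    exact (ha i).comp hin
  have hB : Measurable (fun x : Θ × (ι → ℝ) × (ι → ℝ) × (ι → I) × (ι → ℝ) =>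
      ((x.2.2.2.1 i : I) : ℝ)) := by
    apply measurable_subtype_coe.comp
    exact (measurable_pi_apply i).comp
      (measurable_fst.comp (measurable_snd.comp (measurable_snd.comp measurable_snd)))
  exact measurable_Tc.comp (hA.prodMk hB)

lemma measurable_iterate_stepFn {a : Θ → ι → (ι → ℝ) → ℝ}
    (ha : ∀ i, Measurable (fun p : Θ × (ι → ℝ) => a p.1 i p.2)) (m : ℕ) :
    Measurable (fun z : Θ × (ι → ℝ) × (ι → ℝ) × (ι → I) =>
      (stepFn (a z.1) z.2.1 z.2.2.1 z.2.2.2)^[m] 0) := by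
  induction m with
  | zero =>
    simp only [Function.iterate_zero, id_eq]
    exact measurable_const
  | succ m ih =>
    simp only [Function.iterate_succ_apply']
    have := measurable_stepFn ha
    have h1 : Measurable (fun z : Θ × (ι → ℝ) × (ι → ℝ) × (ι → I) =>
        ((z.1, z.2.1, z.2.2.1, z.2.2.2, (stepFn (a z.1) z.2.1 z.2.2.1 z.2.2.2)^[m] 0) :
          Θ × (ι → ℝ) × (ι → ℝ) × (ι → I) × (ι → ℝ))) :=
      measurable_fst.prodMk (measurable_snd.fst.prodMk
        (measurable_snd.snd.fst.prodMk (measurable_snd.snd.snd.prodMk ih)))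
    exact this.comp h1

lemma measurable_fixFn {a : Θ → ι → (ι → ℝ) → ℝ}
    (ha : ∀ i, Measurable (fun p : Θ × (ι → ℝ) => a p.1 i p.2)) :
    Measurable (fun z : Θ × (ι → ℝ) × (ι → ℝ) × (ι → I) =>
      fixFn (a z.1) z.2.1 z.2.2.1 z.2.2.2) := by
  rw [measurable_pi_iff]
  intro i
  unfold fixFn
  apply Measurable.limsup
  intro m
  exact (measurable_pi_apply i).comp (measurable_iterate_stepFn ha m)

lemma measurable_label_slice (k : ℕ) :
    Measurable (fun ε : ℕ × ι → I => fun i => ε (k, i)) := by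
  rw [measurable_pi_iff]
  intro i
  exact measurable_pi_apply _

lemma measurable_runP {a : Θ → ι → (ι → ℝ) → ℝ}
    (ha : ∀ i, Measurable (fun p : Θ × (ι → ℝ) => a p.1 i p.2)) (k : ℕ) :
    Measurable (fun z : Θ × (ι → ℝ) × (ℕ × ι → I) => runP (a z.1) z.2.1 z.2.2 k) := by
  induction k with
  | zero =>
    simp only [runP]
    exact measurable_const
  | succ k ih =>
    simp only [runP]
    rw [measurable_pi_iff]
    intro j
    apply Measurable.add
    · exact (measurable_pi_apply j).comp ih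
    · apply measurable_ell.comp
      have hf := measurable_fixFn ha
      have h1 : Measurable (fun z : Θ × (ι → ℝ) × (ℕ × ι → I) =>
          ((z.1, z.2.1, runP (a z.1) z.2.1 z.2.2 k, fun i => z.2.2 (k, i)) :
            Θ × (ι → ℝ) × (ι → ℝ) × (ι → I))) :=
        measurable_fst.prodMk (measurable_snd.fst.prodMk
          (ih.prodMk ((measurable_label_slice k).comp measurable_snd.snd)))
      have h2 := hf.comp h1
      exact (measurable_pi_apply j).comp h2

lemma measurable_runS {a : Θ → ι → (ι → ℝ) → ℝ}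
    (ha : ∀ i, Measurable (fun p : Θ × (ι → ℝ) => a p.1 i p.2)) (k : ℕ) :
    Measurable (fun z : Θ × (ι → ℝ) × (ℕ × ι → I) => runS (a z.1) z.2.1 z.2.2 k) := by
  have hf := measurable_fixFn ha
  have h0 := measurable_runP ha k
  have h1 : Measurable (fun z : Θ × (ι → ℝ) × (ℕ × ι → I) =>
      ((z.1, z.2.1, runP (a z.1) z.2.1 z.2.2 k, fun i => z.2.2 (k, i)) :
        Θ × (ι → ℝ) × (ι → ℝ) × (ι → I))) :=
    measurable_fst.prodMk (measurable_snd.fst.prodMk
      (h0.prodMk ((measurable_label_slice k).comp measurable_snd.snd)))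
  have h2 := hf.comp h1
  unfold runS
  exact h2

/-- Joint measurability of the rule. -/
theorem measurable_Rule {a : Θ → ι → (ι → ℝ) → ℝ}
    (ha : ∀ i, Measurable (fun p : Θ × (ι → ℝ) => a p.1 i p.2)) :
    Measurable (fun z : Θ × (ι → ℝ) × (ℕ × ι → I) => Rule (a z.1) z.2.1 z.2.2) := by
  rw [measurable_pi_iff]
  intro i
  unfold Rule decode
  apply measurable_to_bool
  have : (fun z : Θ × (ι → ℝ) × (ℕ × ι → I) => decide ((1 / 2 : ℝ) < limsup (fun K : ℕ =>
      (((Finset.range K).filter (fun k => 0 < runS (a z.1) z.2.1 z.2.2 k i)).card : ℝ) / K) atTop))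
      ⁻¹' {true}
      = {z | (1 / 2 : ℝ) < limsup (fun K : ℕ =>
      (((Finset.range K).filter (fun k => 0 < runS (a z.1) z.2.1 z.2.2 k i)).card : ℝ) / K) atTop} := by
    ext z
    simp
  rw [this]
  apply measurableSet_lt measurable_const
  apply Measurable.limsup
  intro K
  apply Measurable.div_const
  -- the count is a finite sum of indicators
  have hcount : (fun z : Θ × (ι → ℝ) × (ℕ × ι → I) =>
      (((Finset.range K).filter (fun k => 0 < runS (a z.1) z.2.1 z.2.2 k i)).card : ℝ))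
      = fun z => ∑ k ∈ Finset.range K, if 0 < runS (a z.1) z.2.1 z.2.2 k i then (1 : ℝ) else 0 := by
    funext z
    rw [Finset.card_filter]
    push_cast
    rfl
  rw [hcount]
  apply Finset.measurable_sum
  intro k _
  apply Measurable.ite _ measurable_const measurable_const
  apply measurableSet_lt measurable_const
  exact (measurable_pi_apply i).comp (measurable_runS ha k)

end measurability

section equivariance

variable {κ : Type*}

/-- Transport of the sweep along a bijection of the index. -/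
lemma stepFn_equiv {a : ι → (ι → ℝ) → ℝ} {a' : κ → (κ → ℝ) → ℝ} (τ : ι ≃ κ)
    (hτ : ∀ i h, a' (τ i) (h ∘ τ.symm) = a i h) (ρ : ι → ℝ) (P : ι → ℝ) (e : ι → I) (s : ι → ℝ) :
    stepFn a' (ρ ∘ τ.symm) (P ∘ τ.symm) (e ∘ τ.symm) (s ∘ τ.symm) = stepFn a ρ P e s ∘ τ.symm := by
  funext c
  obtain ⟨i, rfl⟩ := τ.surjective c
  simp only [stepFn, Function.comp_apply, Equiv.symm_apply_apply]
  rw [← hτ i]
  rfl

lemma iterate_stepFn_equiv {a : ι → (ι → ℝ) → ℝ} {a' : κ → (κ → ℝ) → ℝ} (τ : ι ≃ κ)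
    (hτ : ∀ i h, a' (τ i) (h ∘ τ.symm) = a i h) (ρ : ι → ℝ) (P : ι → ℝ) (e : ι → I) (m : ℕ) :
    (stepFn a' (ρ ∘ τ.symm) (P ∘ τ.symm) (e ∘ τ.symm))^[m] 0
      = ((stepFn a ρ P e)^[m] 0) ∘ τ.symm := by
  induction m with
  | zero =>
    funext c
    simp
  | succ m ih =>
    rw [Function.iterate_succ_apply', Function.iterate_succ_apply', ih]
    exact stepFn_equiv τ hτ ρ P e _

lemma fixFn_equiv {a : ι → (ι → ℝ) → ℝ} {a' : κ → (κ → ℝ) → ℝ} (τ : ι ≃ κ)
    (hτ : ∀ i h, a' (τ i) (h ∘ τ.symm) = a i h) (ρ : ι → ℝ) (P : ι → ℝ) (e : ι → I) :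
    fixFn a' (ρ ∘ τ.symm) (P ∘ τ.symm) (e ∘ τ.symm) = fixFn a ρ P e ∘ τ.symm := by
  funext c
  simp only [fixFn, Function.comp_apply, iterate_stepFn_equiv τ hτ]

/-- Labels transported along a bijection. -/
def relabel (τ : ι ≃ κ) (ε : ℕ × ι → I) : ℕ × κ → I := fun q => ε (q.1, τ.symm q.2)

lemma runP_equiv {a : ι → (ι → ℝ) → ℝ} {a' : κ → (κ → ℝ) → ℝ} (τ : ι ≃ κ)
    (hτ : ∀ i h, a' (τ i) (h ∘ τ.symm) = a i h) (ρ : ι → ℝ) (ε : ℕ × ι → I) (k : ℕ) :
    runP a' (ρ ∘ τ.symm) (relabel τ ε) k = runP a ρ ε k ∘ τ.symm := by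
  induction k with
  | zero =>
    funext c
    simp [runP]
  | succ k ih =>
    funext c
    simp only [runP, Function.comp_apply]
    rw [ih]
    have := fixFn_equiv τ hτ ρ (runP a ρ ε k) (fun i => ε (k, i))
    have e2 : (fun i => relabel τ ε (k, i)) = (fun i => ε (k, i)) ∘ τ.symm := by
      funext c
      rfl
    rw [e2, this]
    rfl

lemma runS_equiv {a : ι → (ι → ℝ) → ℝ} {a' : κ → (κ → ℝ) → ℝ} (τ : ι ≃ κ)
    (hτ : ∀ i h, a' (τ i) (h ∘ τ.symm) = a i h) (ρ : ι → ℝ) (ε : ℕ × ι → I) (k : ℕ) :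
    runS a' (ρ ∘ τ.symm) (relabel τ ε) k = runS a ρ ε k ∘ τ.symm := by
  unfold runS
  rw [runP_equiv τ hτ]
  have e2 : (fun i => relabel τ ε (k, i)) = (fun i => ε (k, i)) ∘ τ.symm := by
    funext c
    rfl
  rw [e2, fixFn_equiv τ hτ]

/-- The rule commutes with relabellings of the index. -/
theorem Rule_equiv {a : ι → (ι → ℝ) → ℝ} {a' : κ → (κ → ℝ) → ℝ} (τ : ι ≃ κ)
    (hτ : ∀ i h, a' (τ i) (h ∘ τ.symm) = a i h) (ρ : ι → ℝ) (ε : ℕ × ι → I) :
    Rule a' (ρ ∘ τ.symm) (relabel τ ε) = Rule a ρ ε ∘ τ.symm := by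
  funext c
  unfold Rule decode
  simp only [Function.comp_apply, runS_equiv τ hτ]

end equivariance

end Crest.Agent.Lib.SR
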