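import Mathlib

set_option autoImplicit false

open Complex Metric Set
open scoped ComplexConjugate

namespace Crest.Agent.Lib.SR

/-- The principal square root on the slit plane, written via the logarithm. -/
noncomputable def sqrtC (w : ℂ) : ℂ := Complex.exp (Complex.log w / 2)

lemma sqrtC_re_pos {w : ℂ} (hw : w ∈ slitPlane) : 0 < (sqrtC w).re := by
  unfold sqrtC
  rw [Complex.exp_re]
  apply mul_pos (Real.exp_pos _)
  have h1 : (Complex.log w / 2).im = w.arg / 2 := by
    have : Complex.log w / 2 = Complex.log w * ((1 / 2 : ℝ) : ℂ) := by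
      push_cast; ring
    rw [this, Complex.im_mul_ofReal, Complex.log_im]; ring
  rw [h1]
  apply Real.cos_pos_of_mem_Ioo
  have h2 := Complex.neg_pi_lt_arg w
  have h3 := Complex.arg_le_pi w
  have h4 : w.arg ≠ Real.pi := (Complex.mem_slitPlane_iff_arg.mp hw).1
  have h5 : w.arg < Real.pi := lt_of_le_of_ne h3 h4
  constructor <;> linarith

lemma differentiableOn_sqrtC : DifferentiableOn ℂ sqrtC slitPlane := by
  intro w hw
  have h : DifferentiableAt ℂ Complex.log w := Complex.differentiableAt_log hw
  have h2 : DifferentiableAt ℂ sqrtC w := by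
    unfold sqrtC
    exact Complex.differentiable_exp.differentiableAt.comp w (h.div_const 2)
  exact h2.differentiableWithinAt

lemma cayley_norm_le {g : ℂ} (hg : 0 < g.re) : ‖(g - 1) / (g + 1)‖ ≤ 1 := by
  have hne : g + 1 ≠ 0 := by
    intro h
    have := congrArg Complex.re h
    simp at this
    linarith
  rw [norm_div, div_le_one (norm_pos_iff.mpr hne)]
  have h1 : ‖g - 1‖ ^ 2 ≤ ‖g + 1‖ ^ 2 := by
    rw [← Complex.normSq_eq_norm_sq, ← Complex.normSq_eq_norm_sq, Complex.normSq_apply,
      Complex.normSq_apply]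
    simp only [Complex.sub_re, Complex.one_re, Complex.sub_im, Complex.one_im, Complex.add_re,
      Complex.add_im]
    nlinarith
  exact (sq_le_sq₀ (norm_nonneg _) (norm_nonneg _)).mp h1

/-- The key half-plane consequence of non-vanishing. -/
lemma im_key {a b : ℂ} (h : ∀ z : ℂ, 0 < z.im → a + z * b ≠ 0) :
    0 ≤ (a * conj b).im := by
  by_contra hneg
  push Not at hneg
  have hb : b ≠ 0 := by
    rintro rfl
    simp at hneg
  have hn : 0 < Complex.normSq b := Complex.normSq_pos.mpr hb
  set z : ℂ := -(a * conj b) / (Complex.normSq b : ℂ) with hz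
  have hzim : 0 < z.im := by
    rw [hz]
    have : -(a * conj b) / (Complex.normSq b : ℂ)
        = (-(a * conj b)) * (((Complex.normSq b)⁻¹ : ℝ) : ℂ) := by
      push_cast; rw [div_eq_mul_inv]
    rw [this, Complex.im_mul_ofReal, Complex.neg_im]
    apply mul_pos (by linarith) (inv_pos.mpr hn)
  apply h z hzim
  rw [hz]
  have hmul : conj b * b = (Complex.normSq b : ℂ) := by
    rw [mul_comm, Complex.mul_conj]
  have hn' : (Complex.normSq b : ℂ) ≠ 0 := by
    exact_mod_cast hn.ne'
  field_simp
  rw [hmul]
  ring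

lemma normSq_sub_le_add_of_im_key {a b : ℂ} (h : 0 ≤ (a * conj b).im) :
    ‖a - I * b‖ ≤ ‖a + I * b‖ := by
  have h1 : ‖a - I * b‖ ^ 2 ≤ ‖a + I * b‖ ^ 2 := by
    rw [← Complex.normSq_eq_norm_sq, ← Complex.normSq_eq_norm_sq, Complex.normSq_apply,
      Complex.normSq_apply]
    simp only [Complex.mul_im, Complex.conj_re, Complex.conj_im] at h
    simp only [Complex.sub_re, Complex.sub_im, Complex.add_re, Complex.add_im, Complex.mul_re,
      Complex.mul_im, Complex.I_re, Complex.I_im]
    nlinarith
  exact (sq_le_sq₀ (norm_nonneg _) (norm_nonneg _)).mp h1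

lemma norm_sub_eq_add_of_im_key {a b : ℂ} (h : (a * conj b).im = 0) :
    ‖a - I * b‖ = ‖a + I * b‖ := by
  have h1 : ‖a - I * b‖ ^ 2 = ‖a + I * b‖ ^ 2 := by
    rw [← Complex.normSq_eq_norm_sq, ← Complex.normSq_eq_norm_sq, Complex.normSq_apply,
      Complex.normSq_apply]
    simp only [Complex.mul_im, Complex.conj_re, Complex.conj_im] at h
    simp only [Complex.sub_re, Complex.sub_im, Complex.add_re, Complex.add_im, Complex.mul_re,
      Complex.mul_im, Complex.I_re, Complex.I_im]
    nlinarith
  exact (sq_eq_sq₀ (norm_nonneg _) (norm_nonneg _)).mp h1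

/-- The Möbius parameter: `((1+ζ)/(1-ζ))^2`. -/
noncomputable def phiD (ζ : ℂ) : ℂ := ((1 + ζ) / (1 - ζ)) ^ 2

lemma one_sub_ne_zero_of_ball {ζ : ℂ} (h : ζ ∈ ball (0 : ℂ) 1) : 1 - ζ ≠ 0 := by
  intro h0
  have : ζ = 1 := by
    have := sub_eq_zero.mp h0
    exact this.symm
  rw [mem_ball_zero_iff, this] at h
  simp at h

lemma cayleyD_re_pos {ζ : ℂ} (h : ζ ∈ ball (0 : ℂ) 1) : 0 < ((1 + ζ) / (1 - ζ)).re := by
  have h0 := one_sub_ne_zero_of_ball h
  have hn : 0 < Complex.normSq (1 - ζ) := Complex.normSq_pos.mpr h0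
  rw [Complex.div_re]
  have hz : ‖ζ‖ < 1 := by simpa [mem_ball_zero_iff] using h
  have hz2 : ζ.re * ζ.re + ζ.im * ζ.im < 1 := by
    have : ‖ζ‖ ^ 2 < 1 := by
      have := norm_nonneg ζ
      nlinarith
    rw [← Complex.normSq_eq_norm_sq, Complex.normSq_apply] at this
    exact this
  have : (1 + ζ).re * (1 - ζ).re / Complex.normSq (1 - ζ)
      + (1 + ζ).im * (1 - ζ).im / Complex.normSq (1 - ζ)
      = (1 - (ζ.re * ζ.re + ζ.im * ζ.im)) / Complex.normSq (1 - ζ) := by
    simp only [Complex.add_re, Complex.one_re, Complex.sub_re, Complex.add_im, Complex.one_im,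
      Complex.sub_im]
    field_simp
    ring
  rw [this]
  exact div_pos (by linarith) hn

lemma sq_mem_slitPlane {v : ℂ} (hv : 0 < v.re) : v ^ 2 ∈ slitPlane := by
  rw [Complex.mem_slitPlane_iff]
  by_cases h : v.im = 0
  · left
    rw [sq, Complex.mul_re, h]
    nlinarith
  · right
    rw [sq, Complex.mul_im]
    have : v.re * v.im + v.im * v.re = 2 * (v.re * v.im) := by ring
    rw [this]
    exact mul_ne_zero two_ne_zero (mul_ne_zero hv.ne' h)

lemma phiD_mem {ζ : ℂ} (h : ζ ∈ ball (0 : ℂ) 1) : phiD ζ ∈ slitPlane :=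
  sq_mem_slitPlane (cayleyD_re_pos h)

lemma differentiableOn_phiD : DifferentiableOn ℂ phiD (ball (0 : ℂ) 1) := by
  intro ζ hζ
  have h0 := one_sub_ne_zero_of_ball hζ
  have h : DifferentiableAt ℂ phiD ζ := by
    unfold phiD
    apply DifferentiableAt.pow
    apply DifferentiableAt.div
    · fun_prop
    · fun_prop
    · exact h0
  exact h.differentiableWithinAt

/-- **Schwarz scaling lemma**: if `a + z b` has no zero in the product of upper half planes, and
`a, b` are entire, real and positive on the positive axis, then `a/b` grows at most linearly. -/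
theorem schwarz_scale {a b : ℂ → ℂ} (ha : Differentiable ℂ a) (hb : Differentiable ℂ b)
    (ha_conj : ∀ w, a (conj w) = conj (a w)) (hb_conj : ∀ w, b (conj w) = conj (b w))
    {aR bR : ℝ → ℝ}
    (ha_pos : ∀ t : ℝ, 0 < t → a t = aR t ∧ 0 < aR t)
    (hb_pos : ∀ t : ℝ, 0 < t → b t = bR t ∧ 0 < bR t)
    (hstab : ∀ w z : ℂ, 0 < w.im → 0 < z.im → a w + z * b w ≠ 0)
    {t : ℝ} (ht : 1 ≤ t) : aR t * bR 1 ≤ t * (aR 1 * bR t) := by
  have ht0 : 0 < t := by linarith
  obtain ⟨hat, hatp⟩ := ha_pos t ht0
  obtain ⟨hbt, hbtp⟩ := hb_pos t ht0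
  obtain ⟨ha1, ha1p⟩ := ha_pos 1 one_pos
  obtain ⟨hb1, hb1p⟩ := hb_pos 1 one_pos
  set U : Set ℂ := {w | 0 < w.im} with hU
  have hUopen : IsOpen U := isOpen_lt continuous_const Complex.continuous_im
  have hUconn : IsPreconnected U := (convex_halfSpace_im_gt 0).isPreconnected
  have hkey : ∀ w ∈ U, 0 ≤ (a w * conj (b w)).im := fun w hw =>
    im_key (fun z hz => hstab w z hw hz)
  have hdenom : ∀ w ∈ U, a w + I * b w ≠ 0 := fun w hw => by
    have := hstab w I hw (by simp)
    exact this
  by_cases hcase : ∃ w₀ ∈ U, (a w₀ * conj (b w₀)).im = 0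
  · -- degenerate case : the Cayley transform is constant
    obtain ⟨w₀, hw₀, hw₀0⟩ := hcase
    set C : ℂ → ℂ := fun w => (a w - I * b w) / (a w + I * b w) with hC
    have hCd : DifferentiableOn ℂ C U := by
      apply DifferentiableOn.div
      · exact ((ha.sub ((differentiable_const I).mul hb))).differentiableOn
      · exact ((ha.add ((differentiable_const I).mul hb))).differentiableOn
      · exact hdenom
    have hCle : ∀ w ∈ U, ‖C w‖ ≤ 1 := fun w hw => by
      rw [hC]
      simp only
      rw [norm_div, div_le_one (norm_pos_iff.mpr (hdenom w hw))]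
      exact normSq_sub_le_add_of_im_key (hkey w hw)
    have hC0 : ‖C w₀‖ = 1 := by
      rw [hC]
      simp only
      rw [norm_div, norm_sub_eq_add_of_im_key hw₀0]
      exact div_self (norm_ne_zero_iff.mpr (hdenom w₀ hw₀))
    have hmax : IsMaxOn (norm ∘ C) U w₀ := by
      intro w hw
      simp only [Set.mem_ofPred_eq, Function.comp]
      rw [hC0]
      exact hCle w hw
    have hconst := Complex.eqOn_of_isPreconnected_of_isMaxOn_norm hUconn hUopen hCd hw₀ hmax
    set κ := C w₀ with hκ
    have hrel : ∀ w ∈ U, a w - I * b w = κ * (a w + I * b w) := fun w hw => by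
      have h1 : C w = κ := hconst hw
      rw [hC] at h1
      simp only at h1
      rw [← h1]
      field_simp [hdenom w hw]
    have hcont : Continuous (fun w => a w - I * b w - κ * (a w + I * b w)) := by
      have hac := ha.continuous
      have hbc := hb.continuous
      fun_prop
    have hclosed : IsClosed {w | a w - I * b w - κ * (a w + I * b w) = 0} :=
      isClosed_eq hcont continuous_const
    have hsub : closure U ⊆ {w | a w - I * b w - κ * (a w + I * b w) = 0} := by
      apply closure_minimal _ hclosed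
      intro w hw
      simp only [Set.mem_ofPred_eq]
      rw [hrel w hw]
      ring
    have hclosure : ∀ s : ℝ, ((s : ℂ)) ∈ closure U := by
      intro s
      rw [hU, Complex.closure_setOfPred_lt_im]
      simp
    have hts := hsub (hclosure t)
    have h1s := hsub (hclosure 1)
    simp only [Set.mem_ofPred_eq] at hts h1s
    rw [hat, hbt] at hts
    have ha1' : a 1 = (aR 1 : ℂ) := by simpa using ha1
    have hb1' : b 1 = (bR 1 : ℂ) := by simpa using hb1
    simp only [Complex.ofReal_one] at h1s
    rw [ha1', hb1'] at h1s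
    have hts' : (1 - κ) * (aR t : ℂ) = I * (1 + κ) * (bR t : ℂ) := by
      linear_combination hts
    have h1s' : (1 - κ) * (aR 1 : ℂ) = I * (1 + κ) * (bR 1 : ℂ) := by
      linear_combination h1s
    have hκ1 : (1 - κ) ≠ 0 := by
      intro h
      have hk : κ = 1 := (sub_eq_zero.mp h).symm
      rw [h, zero_mul, hk] at h1s'
      have h2 : (bR 1 : ℂ) ≠ 0 := by exact_mod_cast hb1p.ne'
      have : I * (1 + 1) * (bR 1 : ℂ) ≠ 0 := by
        apply mul_ne_zero _ h2
        apply mul_ne_zero Complex.I_ne_zero
        norm_num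
      exact this h1s'.symm
    have heq : (aR t : ℂ) * bR 1 = aR 1 * bR t := by
      apply mul_left_cancel₀ hκ1
      calc (1 - κ) * ((aR t : ℂ) * bR 1) = ((1 - κ) * (aR t : ℂ)) * bR 1 := by ring
        _ = I * (1 + κ) * (bR t : ℂ) * bR 1 := by rw [hts']
        _ = ((1 - κ) * (aR 1 : ℂ)) * bR t := by rw [h1s']; ring
        _ = (1 - κ) * ((aR 1 : ℂ) * bR t) := by ring
    have heqR : aR t * bR 1 = aR 1 * bR t := by exact_mod_cast heq
    rw [heqR]
    have hpos : 0 < aR 1 * bR t := mul_pos ha1p hbtp
    nlinarith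
  · -- nondegenerate case
    push Not at hcase
    have hstrict : ∀ w ∈ U, 0 < (a w * conj (b w)).im := fun w hw =>
      lt_of_le_of_ne (hkey w hw) (hcase w hw).symm
    have hbU : ∀ w ∈ U, b w ≠ 0 := fun w hw h0 => by
      have := hstrict w hw
      rw [h0] at this
      simp at this
    have hbL : ∀ w : ℂ, w.im < 0 → b w ≠ 0 := fun w hw h0 => by
      have hw' : conj w ∈ U := by
        simp only [hU, Set.mem_ofPred_eq, Complex.conj_im]
        linarith
      apply hbU _ hw'
      rw [hb_conj, h0]
      simp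
    have hbS : ∀ w ∈ slitPlane, b w ≠ 0 := by
      intro w hw
      rw [Complex.mem_slitPlane_iff] at hw
      by_cases him : w.im = 0
      · have hre : 0 < w.re := by
          rcases hw with h | h
          · exact h
          · exact absurd him h
        have : w = (w.re : ℂ) := by
          apply Complex.ext <;> simp [him]
        rw [this, (hb_pos _ hre).1]
        exact_mod_cast (hb_pos _ hre).2.ne'
      · rcases lt_or_gt_of_ne him with h | h
        · exact hbL w h
        · exact hbU w h
    set ρ : ℝ := aR 1 / bR 1 with hρ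
    have hρp : 0 < ρ := div_pos ha1p hb1p
    set r : ℂ → ℂ := fun w => a w / b w with hr
    have hrU : ∀ w ∈ U, 0 < (r w).im := by
      intro w hw
      have hne := hbU w hw
      have hn : 0 < Complex.normSq (b w) := Complex.normSq_pos.mpr hne
      have : r w = (a w * conj (b w)) * (((Complex.normSq (b w))⁻¹ : ℝ) : ℂ) := by
        rw [hr]
        simp only
        have hmul : b w * conj (b w) = (Complex.normSq (b w) : ℂ) := Complex.mul_conj _
        have hn' : (Complex.normSq (b w) : ℂ) ≠ 0 := by exact_mod_cast hn.ne'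
        push_cast
        field_simp
        rw [← hmul]
        ring
      rw [this, Complex.im_mul_ofReal]
      exact mul_pos (hstrict w hw) (inv_pos.mpr hn)
    have hr_conj : ∀ w, r (conj w) = conj (r w) := by
      intro w
      rw [hr]
      simp only
      rw [ha_conj, hb_conj, map_div₀]
    have hrS : ∀ w ∈ slitPlane, r w ∈ slitPlane := by
      intro w hw
      rw [Complex.mem_slitPlane_iff] at hw ⊢
      by_cases him : w.im = 0
      · have hre : 0 < w.re := by
          rcases hw with h | h
          · exact h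
          · exact absurd him h
        left
        have hw' : w = (w.re : ℂ) := by
          apply Complex.ext <;> simp [him]
        rw [hw', hr]
        simp only
        rw [(ha_pos _ hre).1, (hb_pos _ hre).1]
        rw [← Complex.ofReal_div, Complex.ofReal_re]
        exact div_pos (ha_pos _ hre).2 (hb_pos _ hre).2
      · right
        rcases lt_or_gt_of_ne him with h | h
        · have hw' : conj w ∈ U := by
            simp only [hU, Set.mem_ofPred_eq, Complex.conj_im]
            linarith
          have h2 := hrU _ hw'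
          rw [hr_conj, Complex.conj_im] at h2
          linarith
        · exact (hrU w h).ne'
    have hrd : DifferentiableOn ℂ r slitPlane := by
      apply DifferentiableOn.div ha.differentiableOn hb.differentiableOn hbS
    have hr1 : r 1 = (ρ : ℂ) := by
      rw [hr, hρ]
      simp only
      have e1 := ha1
      have e2 := hb1
      push_cast at e1 e2
      rw [e1, e2]
      push_cast
      rfl
    set Hf : ℂ → ℂ := fun ζ => r (phiD ζ) / (ρ : ℂ) with hHf
    have hρC : (ρ : ℂ) ≠ 0 := by exact_mod_cast hρp.ne'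
    have hHmem : ∀ ζ ∈ ball (0 : ℂ) 1, Hf ζ ∈ slitPlane := by
      intro ζ hζ
      have h1 := hrS _ (phiD_mem hζ)
      rw [Complex.mem_slitPlane_iff] at h1 ⊢
      have e : Hf ζ = r (phiD ζ) * ((ρ⁻¹ : ℝ) : ℂ) := by
        rw [hHf]
        simp only
        push_cast
        rw [div_eq_mul_inv]
      rw [e, Complex.re_mul_ofReal, Complex.im_mul_ofReal]
      rcases h1 with h | h
      · left
        exact mul_pos h (inv_pos.mpr hρp)
      · right
        exact mul_ne_zero h (inv_pos.mpr hρp).ne'
    have hHd : DifferentiableOn ℂ Hf (ball (0 : ℂ) 1) := by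
      apply DifferentiableOn.div_const
      exact hrd.comp differentiableOn_phiD (fun ζ hζ => phiD_mem hζ)
    set Gf : ℂ → ℂ := fun ζ => (sqrtC (Hf ζ) - 1) / (sqrtC (Hf ζ) + 1) with hGf
    have hsqrtd : DifferentiableOn ℂ (fun ζ => sqrtC (Hf ζ)) (ball (0 : ℂ) 1) :=
      differentiableOn_sqrtC.comp hHd hHmem
    have hGd : DifferentiableOn ℂ Gf (ball (0 : ℂ) 1) := by
      apply DifferentiableOn.div
      · exact hsqrtd.sub_const 1
      · exact hsqrtd.add_const 1
      · intro ζ hζ h0
        have hre := sqrtC_re_pos (hHmem ζ hζ)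
        have := congrArg Complex.re h0
        simp at this
        linarith
    have hGmaps : MapsTo Gf (ball (0 : ℂ) 1) (closedBall 0 1) := by
      intro ζ hζ
      rw [mem_closedBall_zero_iff]
      exact cayley_norm_le (sqrtC_re_pos (hHmem ζ hζ))
    have hphi0 : phiD 0 = 1 := by simp [phiD]
    have hH0 : Hf 0 = 1 := by
      rw [hHf]
      simp only
      rw [hphi0, hr1]
      exact div_self hρC
    have hG0 : Gf 0 = 0 := by
      rw [hGf]
      simp only
      rw [hH0]
      simp [sqrtC]
    set s : ℝ := Real.sqrt t with hs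
    have hs1 : 1 ≤ s := by
      rw [hs]
      exact Real.one_le_sqrt.mpr ht
    have hss : s * s = t := Real.mul_self_sqrt ht0.le
    set x : ℝ := (s - 1) / (s + 1) with hx
    have hsp : 0 < s + 1 := by linarith
    have hx0 : 0 ≤ x := div_nonneg (by linarith) hsp.le
    have hx1 : x < 1 := by
      rw [hx, div_lt_one hsp]
      linarith
    have hxnorm : ‖(x : ℂ)‖ < 1 := by
      simpa [abs_of_nonneg hx0] using hx1
    have hsch := Complex.norm_le_norm_of_mapsTo_ball hGd hGmaps hG0 hxnorm
    have hphix : phiD (x : ℂ) = (t : ℂ) := by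
      unfold phiD
      have h1 : (1 - (x : ℂ)) ≠ 0 := by
        have : (1 - x) ≠ 0 := by linarith
        exact_mod_cast this
      have h2 : (1 + (x : ℂ)) / (1 - (x : ℂ)) = (s : ℂ) := by
        rw [div_eq_iff h1]
        have hsC : ((s : ℂ) + 1) ≠ 0 := by exact_mod_cast hsp.ne'
        rw [hx]
        push_cast
        field_simp
        ring
      rw [h2, ← hss]
      push_cast
      ring
    set y : ℝ := (aR t / bR t) / ρ with hy
    have hyp : 0 < y := div_pos (div_pos hatp hbtp) hρp
    have hHx : Hf (x : ℂ) = (y : ℂ) := by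
      rw [hHf]
      simp only
      rw [hphix, hr]
      simp only
      rw [hat, hbt, hy]
      push_cast
      rfl
    set γ : ℝ := Real.exp (Real.log y / 2) with hγ
    have hγp : 0 < γ := Real.exp_pos _
    have hγ2 : γ * γ = y := by
      rw [hγ, ← Real.exp_add]
      have : Real.log y / 2 + Real.log y / 2 = Real.log y := by ring
      rw [this, Real.exp_log hyp]
    have hsqrtx : sqrtC (y : ℂ) = (γ : ℂ) := by
      unfold sqrtC
      rw [← Complex.ofReal_log hyp.le, hγ]
      push_cast
      rfl
    have hGx : Gf (x : ℂ) = (((γ - 1) / (γ + 1) : ℝ) : ℂ) := by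
      rw [hGf]
      simp only
      rw [hHx, hsqrtx]
      push_cast
      rfl
    rw [hGx] at hsch
    simp only [Complex.norm_real, Real.norm_eq_abs] at hsch
    have hle : (γ - 1) / (γ + 1) ≤ x := by
      calc (γ - 1) / (γ + 1) ≤ |(γ - 1) / (γ + 1)| := le_abs_self _
        _ ≤ |x| := hsch
        _ = x := abs_of_nonneg hx0
    have hγs : γ ≤ s := by
      have hγ1 : 0 < γ + 1 := by linarith
      rw [hx, div_le_div_iff₀ hγ1 hsp] at hle
      nlinarith
    have hyt : y ≤ t := by
      rw [← hγ2, ← hss]
      exact mul_self_le_mul_self hγp.le hγs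
    rw [hy, div_le_iff₀ hρp, div_le_iff₀ hbtp, hρ] at hyt
    have hfinal : aR t ≤ t * (aR 1 / bR 1) * bR t := hyt
    have h3 : aR t * bR 1 ≤ (t * (aR 1 / bR 1) * bR t) * bR 1 :=
      mul_le_mul_of_nonneg_right hfinal hb1p.le
    have h4 : (t * (aR 1 / bR 1) * bR t) * bR 1 = t * (aR 1 * bR t) := by
      field_simp
    linarith

end Crest.Agent.Lib.SR
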