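import Crest.Agent.Lib.SR.Core

set_option autoImplicit false

open MeasureTheory Set Filter Topology ProbabilityTheory
open scoped ENNReal unitInterval

namespace Crest.Agent.Lib.SR

/-- Quantile transform. -/
noncomputable def quantileF (m : Measure ℝ) (u : I) : ℝ := sInf {x : ℝ | (u : ℝ) ≤ cdf m x}

lemma quantileF_le_iff (m : Measure ℝ) [IsProbabilityMeasure m] {u : I} (h0 : (0 : ℝ) < u)
    (h1 : (u : ℝ) < 1) (x : ℝ) : quantileF m u ≤ x ↔ (u : ℝ) ≤ cdf m x := by
  have hbot : ∃ x₀, cdf m x₀ < u := by
    have := (tendsto_cdf_atBot m).eventually (gt_mem_nhds h0)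
    exact this.exists
  have htop : ∃ x₁, (u : ℝ) < cdf m x₁ := by
    have := (tendsto_cdf_atTop m).eventually (lt_mem_nhds h1)
    exact this.exists
  obtain ⟨x₀, hx₀⟩ := hbot
  obtain ⟨x₁, hx₁⟩ := htop
  have hbdd : BddBelow {x : ℝ | (u : ℝ) ≤ cdf m x} := by
    refine ⟨x₀, ?_⟩
    intro y hy
    by_contra hlt
    push Not at hlt
    have := monotone_cdf m hlt.le
    have hy' : (u : ℝ) ≤ cdf m y := hy
    linarith
  have hne : {x : ℝ | (u : ℝ) ≤ cdf m x}.Nonempty := ⟨x₁, hx₁.le⟩
  unfold quantileF
  constructor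
  · intro hle
    -- right continuity
    have hrc := (cdf m).right_continuous x
    by_contra hcon
    push Not at hcon
    have hev : ∀ᶠ y in 𝓝[≥] x, cdf m y < u :=
      (hrc.tendsto).eventually (gt_mem_nhds hcon)
    rw [eventually_nhdsWithin_iff] at hev
    obtain ⟨ε, hε, hball⟩ := Metric.eventually_nhds_iff.mp hev
    have hlt : sInf {x : ℝ | (u : ℝ) ≤ cdf m x} < x + ε := by linarith
    obtain ⟨y, hy, hyx⟩ := (csInf_lt_iff hbdd hne).mp hlt
    have hy' : (u : ℝ) ≤ cdf m y := hy
    by_cases hyx2 : y < x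
    · have := monotone_cdf m hyx2.le
      linarith
    · push Not at hyx2
      have hd : dist y x < ε := by
        rw [Real.dist_eq, abs_of_nonneg (by linarith)]
        linarith
      have := hball hd hyx2
      linarith
  · intro hle
    exact csInf_le hbdd hle

/-- Every probability law on the line is a quantile transform of the uniform law. -/
lemma exists_quantile (m : Measure ℝ) [IsProbabilityMeasure m] :
    ∃ Q : I → ℝ, Measurable Q ∧ (volume : Measure I).map Q = m := by
  have hset : ∀ x : ℝ, ∃ y : I, ∀ u : I, (0 : ℝ) < u → (u : ℝ) < 1 →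
      (quantileF m u ≤ x ↔ u ≤ y) := by
    intro x
    have h1 : cdf m x ∈ Icc (0 : ℝ) 1 := by
      rw [cdf_eq_real]
      exact ⟨measureReal_nonneg, measureReal_le_one⟩
    refine ⟨⟨cdf m x, h1⟩, fun u h0 hu => ?_⟩
    rw [quantileF_le_iff m h0 hu, ← Subtype.coe_le_coe]
  have hend : ({0, 1} : Set I).Finite := by simp
  have hnull : (volume : Measure I) {0, 1} = 0 := hend.measure_zero _
  have hpre : ∀ x : ℝ, ∃ y : I, (quantileF m ⁻¹' Iic x) \ {0, 1} = Iic y \ {0, 1} := by
    intro x
    obtain ⟨y, hy⟩ := hset x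
    refine ⟨y, ?_⟩
    ext u
    simp only [Set.mem_sdiff, Set.mem_preimage, Set.mem_Iic, Set.mem_insert_iff,
      Set.mem_singleton_iff, not_or]
    constructor
    · rintro ⟨h1, h2, h3⟩
      have h0 : (0 : ℝ) < u := lt_of_le_of_ne u.2.1 (fun h => h2 (Subtype.ext h.symm))
      have hu : (u : ℝ) < 1 := lt_of_le_of_ne u.2.2 (fun h => h3 (Subtype.ext h))
      exact ⟨(hy u h0 hu).mp h1, h2, h3⟩
    · rintro ⟨h1, h2, h3⟩
      have h0 : (0 : ℝ) < u := lt_of_le_of_ne u.2.1 (fun h => h2 (Subtype.ext h.symm))
      have hu : (u : ℝ) < 1 := lt_of_le_of_ne u.2.2 (fun h => h3 (Subtype.ext h))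
      exact ⟨(hy u h0 hu).mpr h1, h2, h3⟩
  have hmeasset : ∀ x : ℝ, MeasurableSet (quantileF m ⁻¹' Iic x) := by
    intro x
    obtain ⟨y, hy⟩ := hpre x
    have h1 : quantileF m ⁻¹' Iic x
        = (Iic y \ {0, 1}) ∪ (quantileF m ⁻¹' Iic x ∩ {0, 1}) := by
      rw [← hy]
      ext u
      simp only [Set.mem_union, Set.mem_sdiff, Set.mem_inter_iff]
      constructor
      · intro h
        by_cases hu : u ∈ ({0, 1} : Set I)
        · exact Or.inr ⟨h, hu⟩
        · exact Or.inl ⟨h, hu⟩
      · rintro (h | h)
        · exact h.1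
        · exact h.1
    rw [h1]
    apply MeasurableSet.union (measurableSet_Iic.diff hend.measurableSet)
    exact (hend.subset Set.inter_subset_right).measurableSet
  have hQ : Measurable (quantileF m) := measurable_of_Iic hmeasset
  refine ⟨quantileF m, hQ, ?_⟩
  have hfin : IsFiniteMeasure ((volume : Measure I).map (quantileF m)) :=
    Measure.isFiniteMeasure_map _ _
  apply Measure.ext_of_Iic
  intro x
  rw [Measure.map_apply hQ measurableSet_Iic]
  obtain ⟨y, hy⟩ := hset x
  have h3 : quantileF m ⁻¹' Iic x =ᵐ[volume] Iic y := by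
    have hnullae : ∀ᵐ u : I ∂(volume : Measure I), u ∉ ({0, 1} : Set I) :=
      measure_eq_zero_iff_ae_notMem.mp hnull
    filter_upwards [hnullae] with u hu
    simp only [Set.mem_insert_iff, Set.mem_singleton_iff, not_or] at hu
    have h0 : (0 : ℝ) < u := lt_of_le_of_ne u.2.1 (fun h => hu.1 (Subtype.ext h.symm))
    have hu1 : (u : ℝ) < 1 := lt_of_le_of_ne u.2.2 (fun h => hu.2 (Subtype.ext h))
    exact propext (hy u h0 hu1)
  rw [measure_congr h3, unitInterval.volume_Iic]
  have hval : ((hset x).choose : ℝ) = cdf m x ∨ True := Or.inr trivial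
  have hmass : (y : ℝ) = cdf m x := by
    -- both sides agree on the open interval: compare via density of the order
    by_contra hne
    have h1 : cdf m x ∈ Icc (0 : ℝ) 1 := by
      rw [cdf_eq_real]
      exact ⟨measureReal_nonneg, measureReal_le_one⟩
    have hstrict : ∃ c : ℝ, (0 : ℝ) < c ∧ c < 1 ∧
        ((c ≤ y ∧ cdf m x < c) ∨ (c ≤ cdf m x ∧ (y : ℝ) < c)) := by
      rcases lt_or_gt_of_ne hne with hlt | hlt
      · -- y < cdf
        obtain ⟨c, hc1, hc2⟩ := exists_between hlt
        have hc0 : 0 < c := lt_of_le_of_lt y.2.1 hc1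
        have hc3 : c < 1 := lt_of_lt_of_le hc2 h1.2
        exact ⟨c, hc0, hc3, Or.inr ⟨hc2.le, hc1⟩⟩
      · obtain ⟨c, hc1, hc2⟩ := exists_between hlt
        have hc0 : 0 < c := lt_of_le_of_lt h1.1 hc1
        have hc3 : c < 1 := lt_of_lt_of_le hc2 y.2.2
        exact ⟨c, hc0, hc3, Or.inl ⟨hc2.le, hc1⟩⟩
    obtain ⟨c, hc0, hc1, hc⟩ := hstrict
    have hcm : c ∈ Icc (0 : ℝ) 1 := ⟨hc0.le, hc1.le⟩
    have hy' := hy ⟨c, hcm⟩ hc0 hc1
    have hq := quantileF_le_iff m (u := ⟨c, hcm⟩) hc0 hc1 x
    rcases hc with ⟨h2, h3⟩ | ⟨h2, h3⟩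
    · have h4 : (⟨c, hcm⟩ : I) ≤ y := Subtype.coe_le_coe.mp h2
      have := hq.mp (hy'.mpr h4)
      simp only at this
      linarith
    · have := hy'.mp (hq.mpr h2)
      have h4 : c ≤ (y : ℝ) := Subtype.coe_le_coe.mpr this
      linarith
  rw [hmass, ← ofReal_measureReal_Iic_of_cdf m x]
  where
    ofReal_measureReal_Iic_of_cdf (m : Measure ℝ) [IsProbabilityMeasure m] (x : ℝ) :
        m (Iic x) = ENNReal.ofReal (cdf m x) := by
      rw [cdf_eq_real, Measure.real, ENNReal.ofReal_toReal (measure_ne_top _ _)]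

/-- Every probability law on a standard Borel space is a push-forward of the uniform law. -/
lemma exists_map_volume_eq {Y : Type*} [MeasurableSpace Y] [StandardBorelSpace Y] [Nonempty Y]
    (μ : Measure Y) [IsProbabilityMeasure μ] :
    ∃ f : I → Y, Measurable f ∧ (volume : Measure I).map f = μ := by
  obtain ⟨e, he⟩ := exists_measurableEmbedding_real Y
  have hprob : IsProbabilityMeasure (μ.map e) :=
    Measure.isProbabilityMeasure_map he.measurable.aemeasurable
  obtain ⟨Q, hQ, hQmap⟩ := exists_quantile (μ.map e)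
  obtain ⟨y₀⟩ := ‹Nonempty Y›
  set r : ℝ → Y := Function.extend e id (fun _ => y₀) with hr
  have hrm : Measurable r := he.measurable_extend measurable_id measurable_const
  have hre : ∀ y, r (e y) = y := fun y => he.injective.extend_apply _ _ y
  refine ⟨r ∘ Q, hrm.comp hQ, ?_⟩
  rw [← Measure.map_map hrm hQ, hQmap, Measure.map_map hrm he.measurable]
  have : r ∘ e = id := by
    funext y
    exact hre y
  rw [this, Measure.map_id]

/-- Independent labels: coordinates by injective maps with disjoint ranges give a product. -/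
lemma unif_map_prod {A B C : Type*} {i₁ : A → C} {i₂ : B → C} (h₁ : Function.Injective i₁)
    (h₂ : Function.Injective i₂) (hd : ∀ a b, i₁ a ≠ i₂ b) :
    (Unif C).map (fun x : C → I => (x ∘ i₁, x ∘ i₂)) = (Unif A).prod (Unif B) := by
  classical
  have hT : Measurable (fun x : C → I => ((x ∘ i₁, x ∘ i₂) : (A → I) × (B → I))) := by
    apply Measurable.prodMk
    · rw [measurable_pi_iff]
      intro a
      exact measurable_pi_apply _
    · rw [measurable_pi_iff]
      intro a
      exact measurable_pi_apply _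
  symm
  apply Measure.prod_eq_generateFrom (C := squareCylinders (fun _ : A => {s : Set I | MeasurableSet s}))
    (D := squareCylinders (fun _ : B => {s : Set I | MeasurableSet s}))
  · exact generateFrom_squareCylinders
  · exact generateFrom_squareCylinders
  · exact isPiSystem_squareCylinders (fun _ => MeasurableSpace.isPiSystem_measurableSet)
      (fun _ => by simp)
  · exact isPiSystem_squareCylinders (fun _ => MeasurableSpace.isPiSystem_measurableSet)
      (fun _ => by simp)
  · refine ⟨fun _ => univ, fun _ => ?_, fun _ => measure_lt_top _ _, by simp [Set.iUnion_const]⟩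
    exact ⟨∅, fun _ => univ, by simp, by simp⟩
  · refine ⟨fun _ => univ, fun _ => ?_, fun _ => measure_lt_top _ _, by simp [Set.iUnion_const]⟩
    exact ⟨∅, fun _ => univ, by simp, by simp⟩
  · rintro _ ⟨s, t, ht, rfl⟩ _ ⟨s', t', ht', rfl⟩
    have hmt : ∀ a, MeasurableSet (t a) := fun a => ht a (mem_univ a)
    have hmt' : ∀ a, MeasurableSet (t' a) := fun a => ht' a (mem_univ a)
    rw [Measure.infinitePi_pi _ (fun a _ => hmt a), Measure.infinitePi_pi _ (fun a _ => hmt' a)]
    have hS : MeasurableSet ((↑s : Set A).pi t ×ˢ (↑s' : Set B).pi t') :=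
      (MeasurableSet.pi s.countable_toSet (fun a _ => hmt a)).prod
        (MeasurableSet.pi s'.countable_toSet (fun a _ => hmt' a))
    rw [Measure.map_apply hT hS]
    -- the preimage is a box in `C`
    set F : Finset C := s.image i₁ ∪ s'.image i₂ with hF
    set T : C → Set I := fun c =>
      if h : ∃ a ∈ s, i₁ a = c then t h.choose
      else if h' : ∃ b ∈ s', i₂ b = c then t' h'.choose else univ with hTdef
    have hT1 : ∀ a ∈ s, T (i₁ a) = t a := by
      intro a ha
      have h : ∃ a' ∈ s, i₁ a' = i₁ a := ⟨a, ha, rfl⟩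
      simp only [hTdef, dif_pos h]
      congr 1
      exact h₁ h.choose_spec.2
    have hT2 : ∀ b ∈ s', T (i₂ b) = t' b := by
      intro b hb
      have h0 : ¬ ∃ a' ∈ s, i₁ a' = i₂ b := by
        rintro ⟨a', _, h⟩
        exact hd a' b h
      have h : ∃ b' ∈ s', i₂ b' = i₂ b := ⟨b, hb, rfl⟩
      simp only [hTdef, dif_neg h0, dif_pos h]
      congr 1
      exact h₂ h.choose_spec.2
    have hTm : ∀ c, MeasurableSet (T c) := by
      intro c
      simp only [hTdef]
      split_ifs
      · exact hmt _
      · exact hmt' _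
      · exact MeasurableSet.univ
    have hpre : (fun x : C → I => ((x ∘ i₁, x ∘ i₂) : (A → I) × (B → I))) ⁻¹'
        ((↑s : Set A).pi t ×ˢ (↑s' : Set B).pi t') = (↑F : Set C).pi T := by
      ext x
      simp only [Set.mem_preimage, Set.mem_prod, Set.mem_pi, Finset.mem_coe, Function.comp, hF,
        Finset.mem_union, Finset.mem_image]
      constructor
      · rintro ⟨h1, h2⟩ c (⟨a, ha, rfl⟩ | ⟨b, hb, rfl⟩)
        · rw [hT1 a ha]
          exact h1 a ha
        · rw [hT2 b hb]
          exact h2 b hb
      · intro h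
        constructor
        · intro a ha
          have := h (i₁ a) (Or.inl ⟨a, ha, rfl⟩)
          rwa [hT1 a ha] at this
        · intro b hb
          have := h (i₂ b) (Or.inr ⟨b, hb, rfl⟩)
          rwa [hT2 b hb] at this
    rw [hpre, Measure.infinitePi_pi _ (fun c _ => hTm c)]
    have hdisj : Disjoint (s.image i₁) (s'.image i₂) := by
      rw [Finset.disjoint_left]
      intro c hc hc'
      obtain ⟨a, _, rfl⟩ := Finset.mem_image.mp hc
      obtain ⟨b, _, hb⟩ := Finset.mem_image.mp hc'
      exact hd a b hb.symm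
    rw [hF, Finset.prod_union hdisj, Finset.prod_image (fun x _ y _ h => h₁ h),
      Finset.prod_image (fun x _ y _ h => h₂ h)]
    congr 1
    · apply Finset.prod_congr rfl
      intro a ha
      rw [hT1 a ha]
    · apply Finset.prod_congr rfl
      intro b hb
      rw [hT2 b hb]

/-- Applying a measure-preserving map to every label of a family gives a product over pairs. -/
lemma unif_map_split {Γ : Type*} {f : I → ℕ → I} (hf : Measurable f)
    (hfmap : (volume : Measure I).map f = Unif ℕ) :
    (Unif Γ).map (fun u : Γ → I => fun q : Γ × ℕ => f (u q.1) q.2) = Unif (Γ × ℕ) := by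
  have h1 := Measure.infinitePi_map_pi (fun _ : Γ => (volume : Measure I))
    (f := fun _ => f) (fun _ => hf)
  have h2 : (Measure.infinitePi fun _ : Γ => (volume : Measure I).map f)
      = Measure.infinitePi fun _ : Γ => Measure.infinitePi fun _ : ℕ => (volume : Measure I) := by
    congr
    funext g
    exact hfmap
  rw [h2] at h1
  have h3 := Measure.infinitePi_map_curry_symm (fun (_ : Γ) (_ : ℕ) => (volume : Measure I))
  rw [← h1] at h3
  have hm1 : Measurable (fun (u : Γ → I) (g : Γ) => f (u g)) := by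
    rw [measurable_pi_iff]
    intro g
    exact hf.comp (measurable_pi_apply g)
  rw [Measure.map_map (MeasurableEquiv.measurable _) hm1] at h3
  exact h3

/-- Almost every family of uniform labels is injective. -/
lemma ae_injective_labels {Γ : Type*} [Countable Γ] :
    ∀ᵐ u ∂(Unif Γ), Function.Injective (fun g => ((u g : I) : ℝ)) := by
  classical
  have hpair : ∀ g g' : Γ, g ≠ g' → ∀ᵐ u ∂(Unif Γ), u g ≠ u g' := by
    intro g g' hne
    have hS : MeasurableSet {u : Γ → I | u g = u g'} :=
      measurableSet_eq_fun (measurable_pi_apply g) (measurable_pi_apply g')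
    rw [ae_iff]
    simp only [not_not, ne_eq]
    rw [← lintegral_indicator_one hS]
    have hm : Measurable ({u : Γ → I | u g = u g'}.indicator (1 : (Γ → I) → ℝ≥0∞)) :=
      measurable_one.indicator hS
    rw [lintegral_resample g hm]
    apply lintegral_eq_zero_of_ae_eq_zero
    filter_upwards with V
    have h1 : (fun v : I => {u : Γ → I | u g = u g'}.indicator (1 : (Γ → I) → ℝ≥0∞)
        (Function.update V g v)) = ({V g'} : Set I).indicator 1 := by
      funext v
      have hup : Function.update V g v g' = V g' := Function.update_of_ne hne.symm _ _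
      by_cases hv : v = V g'
      · subst hv
        simp [hup]
      · simp [Set.indicator_apply, hup, hv]
    rw [h1, lintegral_indicator_one (measurableSet_singleton _)]
    simp
  have hall : ∀ᵐ u ∂(Unif Γ), ∀ g g' : Γ, g ≠ g' → u g ≠ u g' := by
    rw [ae_all_iff]
    intro g
    rw [ae_all_iff]
    intro g'
    by_cases hne : g = g'
    · filter_upwards with u h
      exact absurd hne h
    · filter_upwards [hpair g g' hne] with u hu _
      exact hu
  filter_upwards [hall] with u hu g g' h
  by_contra hne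
  exact hu g g' hne (Subtype.ext h)

end Crest.Agent.Lib.SR
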