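import Crest.Agent.Lib.SR.Schwarz

set_option autoImplicit false

open Complex Metric Set Filter Topology
open scoped ComplexConjugate

namespace Crest.Agent.Lib.SR

variable {ι : Type*}

/-- Complex generating polynomial of a weight on subsets of `E`. -/
noncomputable def polyC (μ : Finset ι → ℝ) (E : Finset ι) (z : ι → ℂ) : ℂ :=
  ∑ S ∈ E.powerset, (μ S : ℂ) * ∏ i ∈ S, z i

/-- Real generating polynomial. -/
noncomputable def polyR (μ : Finset ι → ℝ) (E : Finset ι) (x : ι → ℝ) : ℝ :=
  ∑ S ∈ E.powerset, μ S * ∏ i ∈ S, x i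

/-- Non-vanishing on products of upper half planes. -/
def Stable (μ : Finset ι → ℝ) (E : Finset ι) : Prop :=
  ∀ z : ι → ℂ, (∀ i ∈ E, 0 < (z i).im) → polyC μ E z ≠ 0

lemma polyC_congr {μ : Finset ι → ℝ} {E : Finset ι} {z z' : ι → ℂ}
    (h : ∀ i ∈ E, z i = z' i) : polyC μ E z = polyC μ E z' := by
  unfold polyC
  apply Finset.sum_congr rfl
  intro S hS
  congr 1
  apply Finset.prod_congr rfl
  intro i hi
  exact h i (Finset.mem_powerset.mp hS hi)

lemma polyR_congr {μ : Finset ι → ℝ} {E : Finset ι} {z z' : ι → ℝ}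
    (h : ∀ i ∈ E, z i = z' i) : polyR μ E z = polyR μ E z' := by
  unfold polyR
  apply Finset.sum_congr rfl
  intro S hS
  congr 1
  apply Finset.prod_congr rfl
  intro i hi
  exact h i (Finset.mem_powerset.mp hS hi)

lemma polyC_ofReal (μ : Finset ι → ℝ) (E : Finset ι) (x : ι → ℝ) :
    polyC μ E (fun i => (x i : ℂ)) = (polyR μ E x : ℂ) := by
  unfold polyC polyR
  push_cast
  rfl

lemma polyR_nonneg {μ : Finset ι → ℝ} {E : Finset ι} {x : ι → ℝ} (hμ : ∀ S, 0 ≤ μ S)
    (hx : ∀ i ∈ E, 0 < x i) : 0 ≤ polyR μ E x := by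
  unfold polyR
  apply Finset.sum_nonneg
  intro S hS
  apply mul_nonneg (hμ S)
  apply Finset.prod_nonneg
  intro i hi
  exact (hx i (Finset.mem_powerset.mp hS hi)).le

lemma polyR_pos {μ : Finset ι → ℝ} {E : Finset ι} {x : ι → ℝ} (hμ : ∀ S, 0 ≤ μ S)
    (hx : ∀ i ∈ E, 0 < x i) (hpos : ∃ S ∈ E.powerset, 0 < μ S) : 0 < polyR μ E x := by
  unfold polyR
  obtain ⟨S, hS, hS0⟩ := hpos
  apply Finset.sum_pos' 
  · intro T hT
    apply mul_nonneg (hμ T)
    apply Finset.prod_nonneg
    intro i hi
    exact (hx i (Finset.mem_powerset.mp hT hi)).le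
  · refine ⟨S, hS, mul_pos hS0 ?_⟩
    apply Finset.prod_pos
    intro i hi
    exact hx i (Finset.mem_powerset.mp hS hi)

lemma polyR_eq_zero_of_forall {μ : Finset ι → ℝ} {E : Finset ι} (x : ι → ℝ)
    (h : ∀ S ∈ E.powerset, μ S = 0) : polyR μ E x = 0 := by
  unfold polyR
  apply Finset.sum_eq_zero
  intro S hS
  rw [h S hS, zero_mul]

section decomp

variable [DecidableEq ι]

/-- The shifted weight: `S ↦ μ (insert i S)`. -/
def shiftW (i : ι) (μ : Finset ι → ℝ) : Finset ι → ℝ := fun S => μ (insert i S)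

lemma polyC_insert (μ : Finset ι → ℝ) {E : Finset ι} {i : ι} (hi : i ∉ E) (z : ι → ℂ) :
    polyC μ (insert i E) z = polyC μ E z + z i * polyC (shiftW i μ) E z := by
  unfold polyC
  rw [Finset.sum_powerset_insert hi, Finset.mul_sum]
  congr 1
  apply Finset.sum_congr rfl
  intro S hS
  have hiS : i ∉ S := fun h => hi (Finset.mem_powerset.mp hS h)
  rw [Finset.prod_insert hiS, shiftW]
  ring

lemma polyR_insert (μ : Finset ι → ℝ) {E : Finset ι} {i : ι} (hi : i ∉ E) (z : ι → ℝ) :
    polyR μ (insert i E) z = polyR μ E z + z i * polyR (shiftW i μ) E z := by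
  unfold polyR
  rw [Finset.sum_powerset_insert hi, Finset.mul_sum]
  congr 1
  apply Finset.sum_congr rfl
  intro S hS
  have hiS : i ∉ S := fun h => hi (Finset.mem_powerset.mp hS h)
  rw [Finset.prod_insert hiS, shiftW]
  ring

lemma shiftW_comm (i j : ι) (μ : Finset ι → ℝ) : shiftW i (shiftW j μ) = shiftW j (shiftW i μ) := by
  funext S
  simp only [shiftW, Finset.insert_comm]

end decomp

/-- The limiting Rayleigh inequality: a family of bi-affine functions without zeros in the
product of upper half planes, with real limit coefficients. -/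
lemma rayleigh_limit {α β γ δ : ℝ} {A B C D : ℂ → ℂ}
    (hA : ContinuousAt A 0) (hB : ContinuousAt B 0) (hC : ContinuousAt C 0)
    (hD : ContinuousAt D 0)
    (hA0 : A 0 = α) (hB0 : B 0 = β) (hC0 : C 0 = γ) (hD0 : D 0 = δ)
    (hne : ∀ y : ℂ, 0 < y.im → ∀ x₁ x₂ : ℂ, 0 < x₁.im → 0 < x₂.im →
      A y + B y * x₁ + C y * x₂ + D y * x₁ * x₂ ≠ 0) : α * δ ≤ β * γ := by
  by_contra hcon
  push Not at hcon
  have hden : (γ : ℂ) + δ * I ≠ 0 := by
    intro h
    have h1 := congrArg Complex.re h
    have h2 := congrArg Complex.im h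
    simp at h1 h2
    rw [h1, h2] at hcon
    simp at hcon
  have hden0 : C 0 + D 0 * I ≠ 0 := by rw [hC0, hD0]; exact hden
  have hdencont : ContinuousAt (fun y => C y + D y * I) 0 :=
    hC.add (hD.mul continuousAt_const)
  set f : ℂ → ℂ := fun y => -(A y + B y * I) / (C y + D y * I) with hf
  have hfcont : ContinuousAt f 0 := by
    apply ContinuousAt.div
    · exact (hA.add (hB.mul continuousAt_const)).neg
    · exact hdencont
    · exact hden0
  have hf0 : 0 < (f 0).im := by
    rw [hf]
    simp only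
    rw [hA0, hB0, hC0, hD0]
    have hn : 0 < Complex.normSq ((γ : ℂ) + δ * I) := Complex.normSq_pos.mpr hden
    rw [Complex.div_im]
    simp only [Complex.neg_im, Complex.add_im, Complex.ofReal_im, Complex.mul_im, Complex.ofReal_re,
      Complex.I_re, Complex.I_im, Complex.neg_re, Complex.add_re, Complex.mul_re, Complex.ofReal_re]
    have : ∀ a b c : ℝ, a / c - b / c = (a - b) / c := fun a b c => by ring
    rw [this]
    apply div_pos _ hn
    nlinarith
  have hev1 : ∀ᶠ y in 𝓝 (0 : ℂ), 0 < (f y).im :=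
    (Complex.continuous_im.continuousAt.comp hfcont).eventually (lt_mem_nhds hf0)
  have hev2 : ∀ᶠ y in 𝓝 (0 : ℂ), C y + D y * I ≠ 0 :=
    hdencont.eventually_ne hden0
  have hcl : (0 : ℂ) ∈ closure {y : ℂ | 0 < y.im} := by
    rw [Complex.closure_setOfPred_lt_im]
    simp
  have hne' : (𝓝[{y : ℂ | 0 < y.im}] (0 : ℂ)).NeBot := mem_closure_iff_nhdsWithin_neBot.mp hcl
  have hev : ∀ᶠ y in 𝓝[{y : ℂ | 0 < y.im}] (0 : ℂ), 0 < y.im ∧ 0 < (f y).im ∧
      C y + D y * I ≠ 0 := by
    have h1 : ∀ᶠ y in 𝓝[{y : ℂ | 0 < y.im}] (0 : ℂ), 0 < y.im := eventually_mem_nhdsWithin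
    filter_upwards [h1, hev1.filter_mono nhdsWithin_le_nhds, hev2.filter_mono nhdsWithin_le_nhds]
      with y h1 h2 h3
    exact ⟨h1, h2, h3⟩
  obtain ⟨y, hy1, hy2, hy3⟩ := hev.exists
  apply hne y hy1 I (f y) (by simp) hy2
  have hfy : f y * (C y + D y * I) = -(A y + B y * I) := by
    rw [hf]
    simp only
    rw [div_mul_cancel₀ _ hy3]
  linear_combination hfy

lemma polyC_continuous_scale (μ : Finset ι → ℝ) (E : Finset ι) (x : ι → ℝ) :
    Continuous (fun y : ℂ => polyC μ E (fun k => (x k : ℂ) * (1 + y))) := by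
  unfold polyC
  apply continuous_finsetSum
  intro S _
  apply continuous_const.mul
  apply continuous_finsetProd
  intro k _
  fun_prop

lemma polyC_scale_zero (μ : Finset ι → ℝ) (E : Finset ι) (x : ι → ℝ) :
    polyC μ E (fun k => (x k : ℂ) * (1 + 0)) = (polyR μ E x : ℂ) := by
  simp only [add_zero, mul_one]
  exact polyC_ofReal μ E x

section main

variable [DecidableEq ι]

/-- **Rayleigh inequality** at positive weights, from stability. -/
theorem rayleigh_of_stable {μ : Finset ι → ℝ} {E : Finset ι} {i j : ι} (hij : i ≠ j)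
    (hiE : i ∉ E) (hjE : j ∉ E) (hst : Stable μ (insert i (insert j E)))
    {x : ι → ℝ} (hx : ∀ k ∈ E, 0 < x k) :
    polyR μ E x * polyR (shiftW i (shiftW j μ)) E x
      ≤ polyR (shiftW i μ) E x * polyR (shiftW j μ) E x := by
  have hi' : i ∉ insert j E := by
    simp [hij, hiE]
  apply rayleigh_limit
    (A := fun y => polyC μ E (fun k => (x k : ℂ) * (1 + y)))
    (B := fun y => polyC (shiftW i μ) E (fun k => (x k : ℂ) * (1 + y)))
    (C := fun y => polyC (shiftW j μ) E (fun k => (x k : ℂ) * (1 + y)))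
    (D := fun y => polyC (shiftW i (shiftW j μ)) E (fun k => (x k : ℂ) * (1 + y)))
  · exact (polyC_continuous_scale _ _ _).continuousAt
  · exact (polyC_continuous_scale _ _ _).continuousAt
  · exact (polyC_continuous_scale _ _ _).continuousAt
  · exact (polyC_continuous_scale _ _ _).continuousAt
  · exact polyC_scale_zero _ _ _
  · exact polyC_scale_zero _ _ _
  · exact polyC_scale_zero _ _ _
  · exact polyC_scale_zero _ _ _
  · intro y hy x₁ x₂ hx₁ hx₂ h0
    set z : ι → ℂ := fun k => if k = i then x₁ else if k = j then x₂ else (x k : ℂ) * (1 + y) with hz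
    have hzi : z i = x₁ := by simp [hz]
    have hzj : z j = x₂ := by simp [hz, hij.symm]
    have hzk : ∀ k ∈ E, z k = (x k : ℂ) * (1 + y) := by
      intro k hk
      have h1 : k ≠ i := fun h => hiE (h ▸ hk)
      have h2 : k ≠ j := fun h => hjE (h ▸ hk)
      simp [hz, h1, h2]
    apply hst z
    · intro k hk
      rw [Finset.mem_insert, Finset.mem_insert] at hk
      rcases hk with rfl | rfl | hk
      · rwa [hzi]
      · rwa [hzj]
      · rw [hzk k hk, Complex.im_ofReal_mul]
        apply mul_pos (hx k hk)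
        simpa using hy
    · rw [polyC_insert μ hi', polyC_insert μ hjE, polyC_insert (shiftW i μ) hjE]
      rw [polyC_congr hzk, polyC_congr (μ := shiftW j μ) hzk, polyC_congr (μ := shiftW i μ) hzk,
        polyC_congr (μ := shiftW j (shiftW i μ)) hzk, hzi, hzj, ← shiftW_comm]
      linear_combination h0

/-- Monotonicity in one coordinate of the ratio `A / B`. -/
lemma ratio_mono_coord {μ : Finset ι → ℝ} {E : Finset ι} {i j : ι} (hij : i ≠ j)
    (hiE : i ∉ E) (hjE : j ∉ E) (hst : Stable μ (insert i (insert j E)))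
    {x : ι → ℝ} (hx : ∀ k ∈ E, 0 < x k) {u v : ℝ} (huv : u ≤ v) :
    polyR μ (insert j E) (Function.update x j u) * polyR (shiftW i μ) (insert j E) (Function.update x j v)
      ≤ polyR μ (insert j E) (Function.update x j v) *
          polyR (shiftW i μ) (insert j E) (Function.update x j u) := by
  have hcong : ∀ w : ℝ, ∀ k ∈ E, Function.update x j w k = x k := by
    intro w k hk
    have h2 : k ≠ j := fun h => hjE (h ▸ hk)
    simp [Function.update_of_ne h2]
  have hexp : ∀ (ν : Finset ι → ℝ) (w : ℝ), polyR ν (insert j E) (Function.update x j w)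
      = polyR ν E x + w * polyR (shiftW j ν) E x := by
    intro ν w
    rw [polyR_insert ν hjE, polyR_congr (hcong w), polyR_congr (μ := shiftW j ν) (hcong w)]
    simp
  rw [hexp, hexp, hexp, hexp]
  have hR := rayleigh_of_stable hij hiE hjE hst hx
  rw [shiftW_comm] at hR
  nlinarith [mul_le_mul_of_nonneg_left hR (sub_nonneg.mpr huv)]

/-- Multi-coordinate monotonicity of the ratio `A / B`. -/
lemma ratio_mono {μ : Finset ι → ℝ} {E : Finset ι} {i : ι} (hiE : i ∉ E)
    (hμ : ∀ S, 0 ≤ μ S) (hst : Stable μ (insert i E))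
    (hA : ∃ S ∈ E.powerset, 0 < μ S) (hB : ∃ S ∈ E.powerset, 0 < shiftW i μ S)
    {x x' : ι → ℝ} (hx : ∀ k ∈ E, 0 < x k) (hxx' : ∀ k ∈ E, x k ≤ x' k) :
    polyR μ E x * polyR (shiftW i μ) E x' ≤ polyR μ E x' * polyR (shiftW i μ) E x := by
  have hμ' : ∀ S, 0 ≤ shiftW i μ S := fun S => hμ _
  -- chain over subsets
  have key : ∀ D : Finset ι, D ⊆ E →
      polyR μ E x * polyR (shiftW i μ) E (fun k => if k ∈ D then x' k else x k)
        ≤ polyR μ E (fun k => if k ∈ D then x' k else x k) * polyR (shiftW i μ) E x := by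
    intro D
    induction D using Finset.induction_on with
    | empty =>
      intro _
      simp only [Finset.notMem_empty, if_false]
      exact le_of_eq (by ring)
    | insert j D hjD ih =>
      intro hsub
      have hjE : j ∈ E := hsub (Finset.mem_insert_self _ _)
      have hDE : D ⊆ E := fun k hk => hsub (Finset.mem_insert_of_mem hk)
      have ih' := ih hDE
      set y : ι → ℝ := fun k => if k ∈ D then x' k else x k with hy
      set y' : ι → ℝ := fun k => if k ∈ insert j D then x' k else x k with hy'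
      have hypos : ∀ k ∈ E, 0 < y k := by
        intro k hk
        rw [hy]
        simp only
        split_ifs
        · exact lt_of_lt_of_le (hx k hk) (hxx' k hk)
        · exact hx k hk
      have hypos' : ∀ k ∈ E, 0 < y' k := by
        intro k hk
        rw [hy']
        simp only
        split_ifs
        · exact lt_of_lt_of_le (hx k hk) (hxx' k hk)
        · exact hx k hk
      set E₁ := E.erase j with hE₁
      have hEeq : insert j E₁ = E := Finset.insert_erase hjE
      have hjE₁ : j ∉ E₁ := Finset.notMem_erase _ _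
      have hiE₁ : i ∉ E₁ := fun h => hiE (Finset.mem_of_mem_erase h)
      have hij : i ≠ j := fun h => hiE (h ▸ hjE)
      have hupd1 : ∀ k ∈ insert j E₁, Function.update y j (x j) k = y k := by
        intro k _
        by_cases hk : k = j
        · subst hk
          simp [hy, hjD]
        · simp [Function.update_of_ne hk]
      have hupd2 : ∀ k ∈ insert j E₁, Function.update y j (x' j) k = y' k := by
        intro k _
        by_cases hk : k = j
        · subst hk
          simp [hy']
        · simp only [Function.update_of_ne hk, hy, hy', Finset.mem_insert, hk, false_or]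
      have hst' : Stable μ (insert i (insert j E₁)) := by rw [hEeq]; exact hst
      have hcoord := ratio_mono_coord hij hiE₁ hjE₁ hst'
        (x := y) (fun k hk => hypos k (Finset.mem_of_mem_erase hk)) (hxx' j hjE)
      rw [polyR_congr (μ := μ) hupd1, polyR_congr (μ := μ) hupd2,
        polyR_congr (μ := shiftW i μ) hupd1, polyR_congr (μ := shiftW i μ) hupd2, hEeq] at hcoord
      have hAy : 0 < polyR μ E y := polyR_pos hμ hypos hA
      have hBy : 0 < polyR (shiftW i μ) E y := polyR_pos hμ' hypos hB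
      have hAx := polyR_pos hμ hx hA
      have hBx := polyR_pos hμ' hx hB
      have hAy' := polyR_pos hμ hypos' hA
      have hBy' := polyR_pos hμ' hypos' hB
      -- cancel
      have hprod : (polyR μ E y * polyR (shiftW i μ) E y) *
            (polyR μ E x * polyR (shiftW i μ) E y')
          ≤ (polyR μ E y * polyR (shiftW i μ) E y) *
            (polyR μ E y' * polyR (shiftW i μ) E x) := by
        calc (polyR μ E y * polyR (shiftW i μ) E y) * (polyR μ E x * polyR (shiftW i μ) E y')
            = (polyR μ E x * polyR (shiftW i μ) E y) * (polyR μ E y * polyR (shiftW i μ) E y') := by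
              ring
          _ ≤ (polyR μ E y * polyR (shiftW i μ) E x) * (polyR μ E y' * polyR (shiftW i μ) E y) := by
              exact mul_le_mul ih' hcoord (by positivity) (by positivity)
          _ = _ := by ring
      exact le_of_mul_le_mul_left hprod (mul_pos hAy hBy)
  have hfin := key E (Finset.Subset.refl _)
  have e : ∀ (ν : Finset ι → ℝ), polyR ν E (fun k => if k ∈ E then x' k else x k) = polyR ν E x' := by
    intro ν
    apply polyR_congr
    intro k hk
    simp [hk]
  rw [e, e] at hfin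
  exact hfin

/-- Scaling bound for the ratio `A / B`, from the Schwarz lemma. -/
lemma ratio_scale {μ : Finset ι → ℝ} {E : Finset ι} {i : ι} (hiE : i ∉ E)
    (hμ : ∀ S, 0 ≤ μ S) (hst : Stable μ (insert i E))
    (hA : ∃ S ∈ E.powerset, 0 < μ S) (hB : ∃ S ∈ E.powerset, 0 < shiftW i μ S)
    {x : ι → ℝ} (hx : ∀ k ∈ E, 0 < x k) {t : ℝ} (ht : 1 ≤ t) :
    polyR μ E (fun k => t * x k) * polyR (shiftW i μ) E x
      ≤ t * (polyR μ E x * polyR (shiftW i μ) E (fun k => t * x k)) := by
  have hμ' : ∀ S, 0 ≤ shiftW i μ S := fun S => hμ _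
  have hdiff : ∀ ν : Finset ι → ℝ, Differentiable ℂ (fun w : ℂ => polyC ν E (fun k => w * x k)) := by
    intro ν
    unfold polyC
    apply Differentiable.fun_sum
    intro S _
    apply Differentiable.const_mul
    apply Differentiable.fun_finsetProd
    intro k _
    fun_prop
  have hconj : ∀ (ν : Finset ι → ℝ) (w : ℂ), polyC ν E (fun k => (starRingEnd ℂ) w * x k)
      = (starRingEnd ℂ) (polyC ν E (fun k => w * x k)) := by
    intro ν w
    unfold polyC
    simp [map_sum, map_mul, map_prod]
  have hposf : ∀ (ν : Finset ι → ℝ), (∀ S, 0 ≤ ν S) → (∃ S ∈ E.powerset, 0 < ν S) → ∀ t : ℝ, 0 < t →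
      polyC ν E (fun k => (t : ℂ) * x k) = (polyR ν E (fun k => t * x k) : ℂ)
        ∧ 0 < polyR ν E (fun k => t * x k) := by
    intro ν hν hp s hs
    constructor
    · rw [← polyC_ofReal]
      push_cast
      rfl
    · exact polyR_pos hν (fun k hk => mul_pos hs (hx k hk)) hp
  have hS := schwarz_scale (a := fun w : ℂ => polyC μ E (fun k => w * x k))
    (b := fun w : ℂ => polyC (shiftW i μ) E (fun k => w * x k))
    (aR := fun s => polyR μ E (fun k => s * x k))
    (bR := fun s => polyR (shiftW i μ) E (fun k => s * x k))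
    (hdiff μ) (hdiff _) (hconj μ) (hconj _) (hposf μ hμ hA) (hposf _ hμ' hB)
    (by
      intro w z hw hz h0
      apply hst (fun k => if k = i then z else w * x k)
      · intro k hk
        rw [Finset.mem_insert] at hk
        by_cases hki : k = i
        · simp [hki, hz]
        · simp only [hki, if_false]
          have hkE : k ∈ E := by
            rcases hk with h | h
            · exact absurd h hki
            · exact h
          rw [mul_comm, Complex.im_ofReal_mul]
          exact mul_pos (hx k hkE) hw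
      · rw [polyC_insert μ hiE]
        have hc : ∀ k ∈ E, (fun k => if k = i then z else w * x k) k = (fun k => w * x k) k := by
          intro k hk
          have : k ≠ i := fun h => hiE (h ▸ hk)
          simp [this]
        rw [polyC_congr hc, polyC_congr (μ := shiftW i μ) hc]
        simpa using h0)
    ht
  simp only [one_mul] at hS
  exact hS

/-- The logistic function is `1/4`-Lipschitz in log scale. -/
lemma logistic_bound {u u' d : ℝ} (hu : 0 < u) (hu' : 0 < u') (h1 : u' ≤ Real.exp d * u)
    (h2 : u ≤ Real.exp d * u') : |1 / (1 + u) - 1 / (1 + u')| ≤ d / 4 := by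
  have hlog1 : Real.log u' ≤ d + Real.log u := by
    have := Real.log_le_log hu' h1
    rwa [Real.log_mul (Real.exp_ne_zero _) hu.ne', Real.log_exp] at this
  have hlog2 : Real.log u ≤ d + Real.log u' := by
    have := Real.log_le_log hu h2
    rwa [Real.log_mul (Real.exp_ne_zero _) hu'.ne', Real.log_exp] at this
  have hd : |Real.log u - Real.log u'| ≤ d := by
    rw [abs_le]
    constructor <;> linarith
  let σ : ℝ → ℝ := fun s => 1 / (1 + Real.exp s)
  have hσ : ∀ s : ℝ, HasDerivAt σ (-(Real.exp s) / (1 + Real.exp s) ^ 2) s := by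
    intro s
    have hne : 1 + Real.exp s ≠ 0 := by positivity
    have h := ((hasDerivAt_const s (1 : ℝ)).fun_add (Real.hasDerivAt_exp s))
    have h3 := (hasDerivAt_const s (1 : ℝ)).fun_div h hne
    have e : -(Real.exp s) / (1 + Real.exp s) ^ 2
        = (0 * (1 + Real.exp s) - 1 * (0 + Real.exp s)) / (1 + Real.exp s) ^ 2 := by ring
    rw [e]
    exact h3
  have hbd : ∀ s : ℝ, ‖-(Real.exp s) / (1 + Real.exp s) ^ 2‖ ≤ 1 / 4 := by
    intro s
    rw [norm_div, norm_neg, Real.norm_of_nonneg (Real.exp_pos s).le, norm_pow,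
      Real.norm_of_nonneg (by positivity : (0 : ℝ) ≤ 1 + Real.exp s),
      div_le_iff₀ (by positivity)]
    nlinarith [sq_nonneg (1 - Real.exp s)]
  have hlip := Convex.norm_image_sub_le_of_norm_hasDerivWithin_le (f := σ)
    (f' := fun s => -(Real.exp s) / (1 + Real.exp s) ^ 2) (s := Set.univ) (C := 1 / 4)
    (x := Real.log u') (y := Real.log u)
    (fun s _ => (hσ s).hasDerivWithinAt) (fun s _ => hbd s) convex_univ (Set.mem_univ _)
    (Set.mem_univ _)
  have e1 : σ (Real.log u) = 1 / (1 + u) := by simp [σ, Real.exp_log hu]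
  have e2 : σ (Real.log u') = 1 / (1 + u') := by simp [σ, Real.exp_log hu']
  rw [e1, e2, Real.norm_eq_abs, Real.norm_eq_abs] at hlip
  calc |1 / (1 + u) - 1 / (1 + u')| ≤ 1 / 4 * |Real.log u - Real.log u'| := hlip
    _ ≤ 1 / 4 * d := by gcongr
    _ = d / 4 := by ring

/-- The tilted mean of site `i`. -/
noncomputable def meanTilt (μ : Finset ι → ℝ) (E : Finset ι) (i : ι) (h : ι → ℝ) : ℝ :=
  polyR (fun S => if i ∈ S then μ S else 0) E (fun j => Real.exp (h j)) /
    polyR μ E (fun j => Real.exp (h j))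

lemma meanTilt_insert (μ : Finset ι → ℝ) {E : Finset ι} {i : ι} (hiE : i ∉ E) (h : ι → ℝ) :
    meanTilt μ (insert i E) i h
      = (Real.exp (h i) * polyR (shiftW i μ) E (fun j => Real.exp (h j))) /
        (polyR μ E (fun j => Real.exp (h j))
          + Real.exp (h i) * polyR (shiftW i μ) E (fun j => Real.exp (h j))) := by
  unfold meanTilt
  rw [polyR_insert _ hiE, polyR_insert μ hiE]
  have h1 : polyR (fun S => if i ∈ S then μ S else 0) E (fun j => Real.exp (h j)) = 0 := by
    apply polyR_eq_zero_of_forall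
    intro S hS
    have : i ∉ S := fun hh => hiE (Finset.mem_powerset.mp hS hh)
    simp [this]
  have h2 : shiftW i (fun S => if i ∈ S then μ S else 0) = shiftW i μ := by
    funext S
    simp [shiftW]
  rw [h1, h2, zero_add]

/-- **Lipschitz bound for the tilted mean of a stable weight** in the sup norm of the tilt. -/
theorem meanTilt_lipschitz {μ : Finset ι → ℝ} {E : Finset ι} {i : ι} (hi : i ∈ E)
    (hμ : ∀ S, 0 ≤ μ S) (hst : Stable μ E) {h h' : ι → ℝ} {δ : ℝ}
    (hδ : ∀ j ∈ E, |h j - h' j| ≤ δ) :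
    |meanTilt μ E i h - meanTilt μ E i h'| ≤ δ / 2 := by
  have hδ0 : 0 ≤ δ := le_trans (abs_nonneg _) (hδ i hi)
  set E₀ := E.erase i with hE₀
  have hEeq : insert i E₀ = E := Finset.insert_erase hi
  have hiE₀ : i ∉ E₀ := Finset.notMem_erase _ _
  rw [← hEeq] at hst ⊢
  have hμ' : ∀ S, 0 ≤ shiftW i μ S := fun S => hμ _
  rw [meanTilt_insert μ hiE₀, meanTilt_insert μ hiE₀]
  have hexp : ∀ (g : ι → ℝ) (k : ι), 0 < Real.exp (g k) := fun g k => Real.exp_pos _
  by_cases hB : ∃ S ∈ E₀.powerset, 0 < shiftW i μ S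
  swap
  · -- the site is a.s. empty
    push Not at hB
    have hB0 : ∀ S ∈ E₀.powerset, shiftW i μ S = 0 := fun S hS => le_antisymm (hB S hS) (hμ' S)
    rw [polyR_eq_zero_of_forall _ hB0, polyR_eq_zero_of_forall _ hB0]
    simp only [mul_zero, zero_div, sub_zero, abs_zero]
    positivity
  by_cases hA : ∃ S ∈ E₀.powerset, 0 < μ S
  swap
  · -- the site is a.s. occupied
    push Not at hA
    have hA0 : ∀ S ∈ E₀.powerset, μ S = 0 := fun S hS => le_antisymm (hA S hS) (hμ S)
    rw [polyR_eq_zero_of_forall _ hA0, polyR_eq_zero_of_forall _ hA0]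
    have h1 := polyR_pos hμ' (fun k _ => hexp h k) hB
    have h2 := polyR_pos hμ' (fun k _ => hexp h' k) hB
    have h3 := hexp h i
    have h4 := hexp h' i
    rw [zero_add, zero_add, div_self (by positivity), div_self (by positivity)]
    simp only [sub_self, abs_zero]
    positivity
  set x : ι → ℝ := fun j => Real.exp (h j) with hx
  set x' : ι → ℝ := fun j => Real.exp (h' j) with hx'
  have hxp : ∀ k ∈ E₀, 0 < x k := fun k _ => hexp h k
  have hxp' : ∀ k ∈ E₀, 0 < x' k := fun k _ => hexp h' k
  have hδk : ∀ k ∈ insert i E₀, x' k ≤ Real.exp δ * x k ∧ x k ≤ Real.exp δ * x' k := by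
    intro k hk
    rw [hEeq] at hk
    have h1 := abs_le.mp (hδ k hk)
    rw [hx, hx', ← Real.exp_add, ← Real.exp_add]
    constructor
    · apply Real.exp_le_exp.mpr
      linarith [h1.1]
    · apply Real.exp_le_exp.mpr
      linarith [h1.2]
  set t := Real.exp δ with ht
  have ht1 : 1 ≤ t := Real.one_le_exp hδ0
  -- ratio bound
  have hratio : ∀ (y y' : ι → ℝ), (∀ k ∈ E₀, 0 < y k) → (∀ k ∈ E₀, 0 < y' k) →
      (∀ k ∈ E₀, y' k ≤ t * y k) →
      polyR μ E₀ y' * polyR (shiftW i μ) E₀ y ≤ t * (polyR μ E₀ y * polyR (shiftW i μ) E₀ y') := by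
    intro y y' hy hy' hle
    have hs := ratio_scale hiE₀ hμ hst hA hB hy ht1
    have hty : ∀ k ∈ E₀, 0 < t * y k := fun k hk => mul_pos (by linarith) (hy k hk)
    have hm := ratio_mono hiE₀ hμ hst hA hB hy' hle
    have hAy := polyR_pos hμ hy hA
    have hBy := polyR_pos hμ' hy hB
    have hAy' := polyR_pos hμ hy' hA
    have hBy' := polyR_pos hμ' hy' hB
    have hAty := polyR_pos hμ hty hA
    have hBty := polyR_pos hμ' hty hB
    -- A'(y') / B'(y') ≤ A(ty) / B(ty) ≤ t A(y) / B(y)
    have hprod : (polyR μ E₀ (fun k => t * y k) * polyR (shiftW i μ) E₀ (fun k => t * y k)) *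
        (polyR μ E₀ y' * polyR (shiftW i μ) E₀ y)
        ≤ (polyR μ E₀ (fun k => t * y k) * polyR (shiftW i μ) E₀ (fun k => t * y k)) *
        (t * (polyR μ E₀ y * polyR (shiftW i μ) E₀ y')) := by
      calc _ = (polyR μ E₀ y' * polyR (shiftW i μ) E₀ (fun k => t * y k)) *
            (polyR μ E₀ (fun k => t * y k) * polyR (shiftW i μ) E₀ y) := by ring
        _ ≤ (polyR μ E₀ (fun k => t * y k) * polyR (shiftW i μ) E₀ y') *
            (t * (polyR μ E₀ y * polyR (shiftW i μ) E₀ (fun k => t * y k))) := by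
            exact mul_le_mul hm hs (by positivity) (by positivity)
        _ = _ := by ring
    exact le_of_mul_le_mul_left hprod (mul_pos hAty hBty)
  have hr1 := hratio x x' hxp hxp' (fun k hk => (hδk k (Finset.mem_insert_of_mem hk)).1)
  have hr2 := hratio x' x hxp' hxp (fun k hk => (hδk k (Finset.mem_insert_of_mem hk)).2)
  set A := polyR μ E₀ x with hAdef
  set B := polyR (shiftW i μ) E₀ x with hBdef
  set A' := polyR μ E₀ x' with hAdef'
  set B' := polyR (shiftW i μ) E₀ x' with hBdef'
  have hAp : 0 < A := polyR_pos hμ hxp hA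
  have hBp : 0 < B := polyR_pos hμ' hxp hB
  have hAp' : 0 < A' := polyR_pos hμ hxp' hA
  have hBp' : 0 < B' := polyR_pos hμ' hxp' hB
  have hξ : 0 < x i := hexp h i
  have hξ' : 0 < x' i := hexp h' i
  have hi1 := (hδk i (Finset.mem_insert_self _ _)).1
  have hi2 := (hδk i (Finset.mem_insert_self _ _)).2
  set u := A / (x i * B) with hu
  set u' := A' / (x' i * B') with hu'
  have hup : 0 < u := div_pos hAp (mul_pos hξ hBp)
  have hup' : 0 < u' := div_pos hAp' (mul_pos hξ' hBp')
  have e1 : x i * B / (A + x i * B) = 1 / (1 + u) := by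
    rw [hu]
    field_simp
    ring
  have e2 : x' i * B' / (A' + x' i * B') = 1 / (1 + u') := by
    rw [hu']
    field_simp
    ring
  have hexp2 : Real.exp (2 * δ) = t * t := by
    rw [ht, ← Real.exp_add]
    congr 1
    ring
  rw [e1, e2]
  have htp : 0 < t := by linarith
  have hb1 : u' ≤ Real.exp (2 * δ) * u := by
    rw [hexp2, hu, hu', div_le_iff₀ (mul_pos hξ' hBp')]
    have : t * t * (A / (x i * B)) * (x' i * B') = (t * (x' i / x i)) * (t * (A * B')) / B := by
      field_simp
    rw [this, le_div_iff₀ hBp]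
    have hq : 1 ≤ t * (x' i / x i) ∨ True := Or.inr trivial
    have hle : x i ≤ t * x' i := hi2
    have hA'B : A' * B ≤ t * (A * B') := hr1
    have hfrac : 1 ≤ t * (x' i / x i) := by
      rw [← mul_div_assoc, le_div_iff₀ hξ]
      linarith
    have hnn : 0 ≤ t * (A * B') := by positivity
    nlinarith
  have hb2 : u ≤ Real.exp (2 * δ) * u' := by
    rw [hexp2, hu, hu', div_le_iff₀ (mul_pos hξ hBp)]
    have : t * t * (A' / (x' i * B')) * (x i * B) = (t * (x i / x' i)) * (t * (A' * B)) / B' := by
      field_simp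
    rw [this, le_div_iff₀ hBp']
    have hle : x' i ≤ t * x i := hi1
    have hAB' : A * B' ≤ t * (A' * B) := hr2
    have hfrac : 1 ≤ t * (x i / x' i) := by
      rw [← mul_div_assoc, le_div_iff₀ hξ']
      linarith
    have hnn : 0 ≤ t * (A' * B) := by positivity
    nlinarith
  have := logistic_bound hup hup' hb1 hb2
  calc |1 / (1 + u) - 1 / (1 + u')| ≤ 2 * δ / 4 := this
    _ = δ / 2 := by ring

end main

end Crest.Agent.Lib.SR
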