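import Crest.Agent.Lib.SR.CauchyBinet
import Crest.Agent.Lib.SR.TreeCombi
import Crest.Agent.Lib.SR.Stable

set_option autoImplicit false

open Crest.ProbabilityR.SpanningTrees Matrix

namespace Crest.Agent.Lib.SR

open Classical in
/-- The uniform weight on spanning trees of a piece. -/
noncomputable def treeW (G : SimpleGraph ℕ) (S : Finset ℕ) (A : Finset (Sym2 ℕ)) : ℝ :=
  if IsSpanningTreeOn G S A then 1 else 0

lemma treeW_nonneg (G : SimpleGraph ℕ) (S : Finset ℕ) (A : Finset (Sym2 ℕ)) : 0 ≤ treeW G S A := by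
  unfold treeW; split_ifs <;> norm_num

section inc

variable (S : Finset ℕ) (r : ℕ) (E₀ : Finset (Sym2 ℕ))

/-- The reduced signed incidence matrix. -/
def inc : Matrix ↥(S.erase r) ↥E₀ ℤ :=
  fun v e => (if v.1 = e.1.inf then 1 else 0) - (if v.1 = e.1.sup then 1 else 0)

variable {S r E₀}

/-- Extension by zero of a vector on the non-root vertices. -/
noncomputable def extV {K : Type*} [Zero K] (x : ↥(S.erase r) → K) : ℕ → K := by
  classical
  exact fun w => if h : w ∈ S.erase r then x ⟨w, h⟩ else 0

lemma extV_coe {K : Type*} [Zero K] (x : ↥(S.erase r) → K) (v : ↥(S.erase r)) :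
    extV x v.1 = x v := by
  unfold extV
  simp

lemma extV_root {K : Type*} [Zero K] (x : ↥(S.erase r) → K) : extV x r = 0 := by
  unfold extV
  simp

lemma sum_single {K : Type*} [CommRing K] (x : ↥(S.erase r) → K) (a : ℕ) :
    ∑ v : ↥(S.erase r), x v * (if v.1 = a then 1 else 0 : K) = extV x a := by
  classical
  by_cases h : a ∈ S.erase r
  · rw [Finset.sum_eq_single (⟨a, h⟩ : ↥(S.erase r))]
    · have := extV_coe x ⟨a, h⟩
      simp only [if_true, mul_one] at this ⊢
      exact this.symm
    · intro b _ hb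
      have : b.1 ≠ a := fun e => hb (Subtype.ext e)
      simp [this]
    · simp
  · have h0 : extV x a = 0 := by
      unfold extV
      simp [h]
    rw [h0]
    apply Finset.sum_eq_zero
    intro b _
    have : b.1 ≠ a := fun e => h (e ▸ b.2)
    simp [this]

lemma sum_inc {K : Type*} [CommRing K] (x : ↥(S.erase r) → K) (e : ↥E₀) :
    ∑ v : ↥(S.erase r), x v * ((inc S r E₀ v e : ℤ) : K) = extV x e.1.inf - extV x e.1.sup := by
  rw [← sum_single x e.1.inf, ← sum_single x e.1.sup, ← Finset.sum_sub_distrib]
  apply Finset.sum_congr rfl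
  intro v _
  unfold inc
  push_cast
  ring

lemma eq_of_reachable {α β : Type*} {H : SimpleGraph α} (f : α → β)
    (h : ∀ a b, H.Adj a b → f a = f b) {x y : α} (hxy : H.Reachable x y) : f x = f y := by
  obtain ⟨p⟩ := hxy
  induction p with
  | nil => rfl
  | cons hadj _ ih => exact (h _ _ hadj).trans ih

lemma eq_of_inf_eq_sup {β : Type*} {f : ℕ → β} {a b : ℕ} (h : f (s(a, b).inf) = f (s(a, b).sup)) :
    f a = f b := by
  rw [Sym2.inf_mk, Sym2.sup_mk] at h
  rcases le_total a b with hab | hab
  · rwa [inf_eq_left.mpr hab, sup_eq_right.mpr hab] at h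
  · rw [inf_eq_right.mpr hab, sup_eq_left.mpr hab] at h
    exact h.symm

/-- A vector whose extension is constant along a connected graph on the piece vanishes. -/
lemma extV_eq_zero {K : Type*} [Zero K] (hr : r ∈ S) (x : ↥(S.erase r) → K)
    {H : SimpleGraph ↥(S : Set ℕ)} (hH : H.Connected)
    (hx : ∀ a b, H.Adj a b → extV x a.1 = extV x b.1) : x = 0 := by
  funext v
  have hv : v.1 ∈ S := Finset.mem_of_mem_erase v.2
  have := eq_of_reachable (fun a : ↥(S : Set ℕ) => extV x a.1) hx
    (hH.preconnected (⟨r, hr⟩ : ↥(S : Set ℕ)) ⟨v.1, hv⟩)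
  simp only at this
  rw [extV_root, extV_coe] at this
  exact this.symm

end inc

section det

variable {S : Finset ℕ} {r : ℕ} {E₀ A : Finset (Sym2 ℕ)}

/-- The determinant of a maximal minor is a unit when the edges form a connected graph. -/
lemma det_inc_sq_of_connected (hr : r ∈ S) (g : ↥(S.erase r) → ↥E₀)
    (hA : ∀ a b : ↥(S : Set ℕ), (Hg S A).Adj a b → ∃ v, (g v).1 = s(a.1, b.1))
    (hconn : (Hg S A).Connected) :
    ((inc S r E₀).submatrix id g).det ^ 2 = 1 := by
  set d := ((inc S r E₀).submatrix id g).det with hd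
  have hn : d.natAbs = 1 := by
    by_contra hne
    obtain ⟨p, hp, hdvd⟩ := Nat.exists_prime_and_dvd hne
    haveI : Fact p.Prime := ⟨hp⟩
    have hzero : ((d : ℤ) : ZMod p) = 0 := by
      rw [ZMod.intCast_zmod_eq_zero_iff_dvd]
      exact Int.natCast_dvd.mpr hdvd
    have hdet : (((inc S r E₀).submatrix id g).map (Int.castRingHom (ZMod p))).det = 0 := by
      have := (Int.castRingHom (ZMod p)).map_det ((inc S r E₀).submatrix id g)
      rw [RingHom.mapMatrix_apply] at this
      rw [← this]
      simpa using hzero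
    obtain ⟨x, hx0, hx⟩ := Matrix.exists_vecMul_eq_zero_iff.mpr hdet
    apply hx0
    apply extV_eq_zero hr x hconn
    intro a b hab
    obtain ⟨v, hv⟩ := hA a b hab
    have h1 := congrFun hx v
    simp only [Matrix.vecMul, dotProduct, Matrix.map_apply, Matrix.submatrix_apply, id,
      Pi.zero_apply, Int.coe_castRingHom] at h1
    rw [sum_inc x (g v), hv, sub_eq_zero] at h1
    exact eq_of_inf_eq_sup h1
  have : d = 1 ∨ d = -1 := Int.natAbs_eq_iff.mp (by simpa using hn)
  rcases this with h | h <;> rw [h] <;> norm_num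

lemma det_inc_of_not_connected (hr : r ∈ S) (g : ↥(S.erase r) → ↥E₀)
    (hA : ∀ v, ∃ a b : ↥(S : Set ℕ), (g v).1 = s(a.1, b.1) ∧ (Hg S A).Reachable a b)
    (hconn : ¬ (Hg S A).Connected) :
    ((inc S r E₀).submatrix id g).det = 0 := by
  classical
  let R : ↥(S : Set ℕ) := ⟨r, hr⟩
  have hex : ∃ w : ↥(S : Set ℕ), ¬ (Hg S A).Reachable R w := by
    by_contra hcon
    push Not at hcon
    exact hconn (connected_of_root R hcon)
  obtain ⟨w, hw⟩ := hex
  have hwr : w.1 ≠ r := fun e => hw (by
    have : w = R := Subtype.ext e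
    rw [this])
  have hwm : w.1 ∈ S.erase r := Finset.mem_erase.mpr ⟨hwr, w.2⟩
  let f : ↥(S : Set ℕ) → ℤ := fun a => if (Hg S A).Reachable R a then 0 else 1
  let x : ↥(S.erase r) → ℤ := fun v => f ⟨v.1, Finset.mem_of_mem_erase v.2⟩
  rw [← Matrix.exists_vecMul_eq_zero_iff]
  refine ⟨x, ?_, ?_⟩
  · intro h0
    have := congrFun h0 ⟨w.1, hwm⟩
    simp [x, f, hw] at this
  · have hext : ∀ a : ↥(S : Set ℕ), extV x a.1 = f a := by
      intro a
      by_cases har : a.1 = r
      · have : a = R := Subtype.ext har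
        rw [har, extV_root, this]
        simp [f]
      · have hm : a.1 ∈ S.erase r := Finset.mem_erase.mpr ⟨har, a.2⟩
        have := extV_coe x ⟨a.1, hm⟩
        simp only at this
        rw [this]
    funext v
    simp only [Matrix.vecMul, dotProduct, Matrix.submatrix_apply, id, Pi.zero_apply]
    have := sum_inc x (g v)
    simp only [Int.cast_id] at this
    rw [this]
    obtain ⟨a, b, hab, hreach⟩ := hA v
    rw [hab, sub_eq_zero]
    have h2 : extV x a.1 = extV x b.1 := by
      rw [hext, hext]
      simp only [f]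
      have : (Hg S A).Reachable R a ↔ (Hg S A).Reachable R b :=
        ⟨fun h => h.trans hreach, fun h => h.trans hreach.symm⟩
      simp [this]
    rw [Sym2.inf_mk, Sym2.sup_mk]
    rcases le_total a.1 b.1 with h | h
    · rw [inf_eq_left.mpr h, sup_eq_right.mpr h]
      exact h2
    · rw [inf_eq_right.mpr h, sup_eq_left.mpr h]
      exact h2.symm

end det

section laplacian

variable (G : SimpleGraph ℕ) {S : Finset ℕ} {r : ℕ}

/-- The integer incidence matrix cast to the complex numbers. -/
noncomputable def incC (S : Finset ℕ) (r : ℕ) (E₀ : Finset (Sym2 ℕ)) : Matrix ↥(S.erase r) ↥E₀ ℂ :=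
  (inc S r E₀).map (Int.castRingHom ℂ)

lemma det_incC_submatrix (S : Finset ℕ) (r : ℕ) (E₀ : Finset (Sym2 ℕ)) (g : ↥(S.erase r) → ↥E₀) :
    ((incC S r E₀).submatrix id g).det = ((((inc S r E₀).submatrix id g).det : ℤ) : ℂ) := by
  have := (Int.castRingHom ℂ).map_det ((inc S r E₀).submatrix id g)
  rw [RingHom.mapMatrix_apply] at this
  have h2 : (incC S r E₀).submatrix id g
      = ((inc S r E₀).submatrix id g).map (Int.castRingHom ℂ) := rfl
  rw [h2, ← this]
  simp

/-- The Cauchy–Binet coefficient is the tree weight. -/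
lemma cbCoeff_incC (hr : r ∈ S) (A' : Finset ↥(edgesIn G S)) :
    cbCoeff (incC S r (edgesIn G S)) A' = (treeW G S (A'.map (Function.Embedding.subtype _)) : ℂ) := by
  classical
  set A := A'.map (Function.Embedding.subtype _) with hAdef
  have hAsub : A ⊆ edgesIn G S := by
    intro e he
    obtain ⟨c, _, rfl⟩ := Finset.mem_map.mp he
    exact c.2
  have hcardA : A.card = A'.card := Finset.card_map _
  have hcardV : Fintype.card ↥(S.erase r) + 1 = S.card := by
    rw [Fintype.card_coe, Finset.card_erase_of_mem hr]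
    have := Finset.card_pos.mpr ⟨r, hr⟩
    omega
  by_cases hc : A'.card = Fintype.card ↥(S.erase r)
  · -- an injective parametrisation
    have hcc : Fintype.card ↥(S.erase r) = Fintype.card ↥A' :=
      hc.symm.trans (Fintype.card_coe A').symm
    let e := Fintype.equivOfCardEq hcc
    let g : ↥(S.erase r) → ↥(edgesIn G S) := fun v => (e v).1
    have hginj : Function.Injective g := fun a b h => e.injective (Subtype.ext h)
    have himg : Finset.univ.image g = A' := by
      ext c
      simp only [Finset.mem_image, Finset.mem_univ, true_and]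
      constructor
      · rintro ⟨v, rfl⟩
        exact (e v).2
      · intro hc'
        exact ⟨e.symm ⟨c, hc'⟩, by simp [g]⟩
    rw [← himg, cbCoeff_eq_sq _ hginj, det_incC_submatrix]
    have hmemA : ∀ v, (g v).1 ∈ A := by
      intro v
      exact Finset.mem_map.mpr ⟨g v, (e v).2, rfl⟩
    have hadj : ∀ a b : ↥(S : Set ℕ), (Hg S A).Adj a b → ∃ v, (g v).1 = s(a.1, b.1) := by
      intro a b hab
      rw [Hg_adj] at hab
      obtain ⟨c, hc', hc2⟩ := Finset.mem_map.mp hab.1
      refine ⟨e.symm ⟨c, hc'⟩, ?_⟩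
      simp only [g, Equiv.apply_symm_apply]
      exact hc2
    by_cases hconn : (Hg S A).Connected
    · have htree : IsSpanningTreeOn G S A :=
        isSpanningTreeOn_iff.mpr ⟨hAsub, hconn, by rw [hcardA, hc]; exact hcardV⟩
      have h1 := det_inc_sq_of_connected hr g hadj hconn
      have h2 : ((((inc S r (edgesIn G S)).submatrix id g).det : ℤ) : ℂ) ^ 2 = 1 := by
        have := congrArg (fun t : ℤ => (t : ℂ)) h1
        simpa using this
      rw [h2]
      simp [treeW, htree]
    · have hntree : ¬ IsSpanningTreeOn G S A := fun h =>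
        hconn (isSpanningTreeOn_iff.mp h).2.1
      have hreach : ∀ v, ∃ a b : ↥(S : Set ℕ), (g v).1 = s(a.1, b.1) ∧ (Hg S A).Reachable a b := by
        intro v
        have hm := hmemA v
        generalize hgv : (g v).1 = c at hm ⊢
        induction c using Sym2.ind with
        | _ a b =>
          obtain ⟨ha, hb, hab⟩ := mk_mem_edgesIn.mp (hAsub hm)
          refine ⟨⟨a, ha⟩, ⟨b, hb⟩, rfl, SimpleGraph.Adj.reachable ?_⟩
          rw [Hg_adj]
          exact ⟨hm, hab.ne⟩
      rw [det_inc_of_not_connected hr g hreach hconn]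
      simp [treeW, hntree]
  · rw [cbCoeff_eq_zero _ hc]
    have hntree : ¬ IsSpanningTreeOn G S A := by
      intro h
      have h3 := (isSpanningTreeOn_iff.mp h).2.2
      rw [hcardA] at h3
      omega
    simp [treeW, hntree]

/-- The matrix-tree theorem. -/
theorem det_laplacian (hr : r ∈ S) (z : Sym2 ℕ → ℂ) :
    ((incC S r (edgesIn G S)) * diagonal (fun e : ↥(edgesIn G S) => z e.1)
      * (incC S r (edgesIn G S))ᵀ).det = polyC (treeW G S) (edgesIn G S) z := by
  classical
  rw [det_mul_diagonal_mul_transpose]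
  unfold polyC
  symm
  apply Finset.sum_bij' (fun (A : Finset (Sym2 ℕ)) _ => A.subtype (· ∈ edgesIn G S))
    (fun (A' : Finset ↥(edgesIn G S)) _ => A'.map (Function.Embedding.subtype _))
  · intro A _
    exact Finset.mem_univ _
  · intro A' _
    rw [Finset.mem_powerset]
    intro e he
    obtain ⟨c, _, rfl⟩ := Finset.mem_map.mp he
    exact c.2
  · intro A hA
    exact Finset.subtype_map_of_mem (fun e he => Finset.mem_powerset.mp hA he)
  · intro A' _
    ext c
    simp
  · intro A hA
    have hA' : (A.subtype (· ∈ edgesIn G S)).map (Function.Embedding.subtype _) = A :=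
      Finset.subtype_map_of_mem (fun e he => Finset.mem_powerset.mp hA he)
    rw [cbCoeff_incC G hr, hA', mul_comm]
    congr 1
    conv_lhs => rw [← hA']
    rw [Finset.prod_map]
    rfl

/-- **Stability of the spanning tree polynomial.** -/
theorem stable_treeW (hS : (G.induce (S : Set ℕ)).Connected) :
    Stable (treeW G S) (edgesIn G S) := by
  classical
  obtain ⟨⟨r, hr⟩⟩ := hS.nonempty
  have hr : r ∈ S := hr
  intro z hz
  rw [← det_laplacian G hr z]
  intro hdet
  set B := incC S r (edgesIn G S) with hB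
  obtain ⟨x, hx0, hx⟩ := Matrix.exists_mulVec_eq_zero_iff.mpr hdet
  set y : ↥(edgesIn G S) → ℂ := Bᵀ *ᵥ x with hy
  have hyform : ∀ e, y e = extV x e.1.inf - extV x e.1.sup := by
    intro e
    rw [hy, ← sum_inc x e]
    simp only [Matrix.mulVec, dotProduct, Matrix.transpose_apply]
    apply Finset.sum_congr rfl
    intro v _
    simp only [hB, incC, Matrix.map_apply, Int.coe_castRingHom]
    ring
  have hconj : star x ᵥ* B = star y := by
    funext e
    simp only [Matrix.vecMul, dotProduct, Pi.star_apply, hy, Matrix.mulVec, Matrix.transpose_apply]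
    rw [star_sum]
    apply Finset.sum_congr rfl
    intro v _
    rw [star_mul', mul_comm]
    simp [hB, incC]
  have hquad : star x ⬝ᵥ ((B * diagonal (fun e : ↥(edgesIn G S) => z e.1) * Bᵀ) *ᵥ x) = 0 := by
    rw [hx, dotProduct_zero]
  have hquad2 : ∑ e : ↥(edgesIn G S), star (y e) * (z e.1 * y e) = 0 := by
    rw [← hquad, ← Matrix.mulVec_mulVec, ← Matrix.mulVec_mulVec, ← hy,
      Matrix.dotProduct_mulVec, hconj]
    simp only [dotProduct, Pi.star_apply, Matrix.mulVec_diagonal]
  have him : ∑ e : ↥(edgesIn G S), (z e.1).im * Complex.normSq (y e) = 0 := by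
    have := congrArg Complex.im hquad2
    rw [Complex.im_sum] at this
    simp only [Complex.zero_im] at this
    rw [← this]
    apply Finset.sum_congr rfl
    intro e _
    have hst : star (y e) * (z e.1 * y e) = z e.1 * (Complex.normSq (y e) : ℂ) := by
      rw [Complex.normSq_eq_conj_mul_self, Complex.star_def]
      ring
    rw [hst, Complex.mul_im]
    simp
  have hzero : ∀ e, y e = 0 := by
    intro e
    have hnn : ∀ e ∈ (Finset.univ : Finset ↥(edgesIn G S)),
        0 ≤ (z e.1).im * Complex.normSq (y e) :=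
      fun e _ => mul_nonneg (hz e.1 e.2).le (Complex.normSq_nonneg _)
    have := (Finset.sum_eq_zero_iff_of_nonneg hnn).mp him e (Finset.mem_univ _)
    have hpos := hz e.1 e.2
    have hns : Complex.normSq (y e) = 0 := by
      rcases mul_eq_zero.mp this with h | h
      · exact absurd h hpos.ne'
      · exact h
    exact Complex.normSq_eq_zero.mp hns
  apply hx0
  apply extV_eq_zero hr x hS
  intro a b hab
  have hab' : G.Adj a.1 b.1 := by simpa using hab
  have hmem : s(a.1, b.1) ∈ edgesIn G S := mk_mem_edgesIn.mpr ⟨a.2, b.2, hab'⟩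
  have h1 := hzero ⟨_, hmem⟩
  rw [hyform, sub_eq_zero] at h1
  exact eq_of_inf_eq_sup h1

end laplacian

end Crest.Agent.Lib.SR
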