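import Crest.Agent.Lib.SR.Fusf

set_option autoImplicit false

open MeasureTheory Set Filter Topology
open Crest.ProbabilityR.SpanningTrees

namespace Crest.Agent.Lib.SR

/-- The action of a permutation of the vertices on pairs. -/
def symE (σ : Equiv.Perm ℕ) : Sym2 ℕ ≃ Sym2 ℕ where
  toFun := Sym2.map σ
  invFun := Sym2.map σ.symm
  left_inv e := by
    induction e using Sym2.ind with
    | _ a b => simp
  right_inv e := by
    induction e using Sym2.ind with
    | _ a b => simp

@[simp] lemma symE_mk (σ : Equiv.Perm ℕ) (a b : ℕ) : symE σ s(a, b) = s(σ a, σ b) := rfl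

@[simp] lemma symE_symm_mk (σ : Equiv.Perm ℕ) (a b : ℕ) : (symE σ).symm s(a, b) = s(σ.symm a, σ.symm b) := rfl

lemma symE_apply (σ : Equiv.Perm ℕ) (e : Sym2 ℕ) : symE σ e = Sym2.map σ e := rfl

section cnt

variable {ι κ : Type*} [DecidableEq ι] [DecidableEq κ]

lemma cnt_map (τ : ι ≃ κ) {μ : Finset ι → ℝ} {μ' : Finset κ → ℝ}
    (hμ : ∀ A, μ' (A.map τ.toEmbedding) = μ A) (E C X : Finset ι) :
    cnt μ' (E.map τ.toEmbedding) (C.map τ.toEmbedding) (X.map τ.toEmbedding) = cnt μ E C X := by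
  unfold cnt
  symm
  refine Finset.sum_bij' (fun A _ => A.map τ.toEmbedding) (fun B _ => B.map τ.symm.toEmbedding)
    ?_ ?_ ?_ ?_ ?_
  · intro A hA
    simp only [Finset.mem_filter, Finset.mem_powerset] at hA ⊢
    refine ⟨Finset.map_subset_map.mpr hA.1, Finset.map_subset_map.mpr hA.2.1, ?_⟩
    exact (Finset.disjoint_map _).mpr hA.2.2
  · intro B hB
    simp only [Finset.mem_filter, Finset.mem_powerset] at hB ⊢
    have e1 : ∀ D : Finset ι, (D.map τ.toEmbedding).map τ.symm.toEmbedding = D := by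
      intro D
      ext i
      simp
    refine ⟨?_, ?_, ?_⟩
    · rw [← e1 E]
      exact Finset.map_subset_map.mpr hB.1
    · rw [← e1 C]
      exact Finset.map_subset_map.mpr hB.2.1
    · rw [← e1 X]
      exact (Finset.disjoint_map _).mpr hB.2.2
  · intro A _
    ext i
    simp
  · intro B _
    ext i
    simp
  · intro A _
    exact (hμ A).symm

end cnt

variable {G : SimpleGraph ℕ}

lemma edgesIn_comap (σ : Equiv.Perm ℕ) (G : SimpleGraph ℕ) (S : Finset ℕ) :
    edgesIn G (S.map σ.toEmbedding) = (edgesIn (G.comap σ) S).map (symE σ).toEmbedding := by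
  ext e
  rw [Finset.mem_map_equiv]
  induction e using Sym2.ind with
  | _ a b =>
    rw [symE_symm_mk, mk_mem_edgesIn, mk_mem_edgesIn, Finset.mem_map_equiv, Finset.mem_map_equiv]
    simp

/-- The relabelling is an isomorphism of graphs on pieces. -/
def hgIso (σ : Equiv.Perm ℕ) (S : Finset ℕ) (A : Finset (Sym2 ℕ)) :
    Hg S A ≃g Hg (S.map σ.toEmbedding) (A.map (symE σ).toEmbedding) where
  toEquiv := Equiv.subtypeEquiv σ (fun a => by simp)
  map_rel_iff' := by
    intro a b
    rw [Hg_adj, Hg_adj]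
    simp only [Equiv.subtypeEquiv_apply, Finset.mem_map_equiv, symE_symm_mk, Equiv.symm_apply_apply,
      ne_eq, EmbeddingLike.apply_eq_iff_eq]

/-- The relabelling is an isomorphism of induced graphs. -/
def inducedIso (σ : Equiv.Perm ℕ) (G : SimpleGraph ℕ) (S : Finset ℕ) :
    (G.comap σ).induce (S : Set ℕ) ≃g G.induce ((S.map σ.toEmbedding : Finset ℕ) : Set ℕ) where
  toEquiv := Equiv.subtypeEquiv σ (fun a => by simp)
  map_rel_iff' := by
    intro a b
    simp

lemma isTree_comap (σ : Equiv.Perm ℕ) (G : SimpleGraph ℕ) (S : Finset ℕ) (A : Finset (Sym2 ℕ)) :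
    IsSpanningTreeOn G (S.map σ.toEmbedding) (A.map (symE σ).toEmbedding)
      ↔ IsSpanningTreeOn (G.comap σ) S A := by
  unfold IsSpanningTreeOn
  rw [edgesIn_comap, Finset.map_subset_map]
  exact and_congr_right (fun _ => (hgIso σ S A).isTree_iff.symm)

lemma treeW_comap (σ : Equiv.Perm ℕ) (G : SimpleGraph ℕ) (S : Finset ℕ) (A : Finset (Sym2 ℕ)) :
    treeW G (S.map σ.toEmbedding) (A.map (symE σ).toEmbedding) = treeW (G.comap σ) S A := by
  classical
  unfold treeW
  simp only [isTree_comap]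

lemma ust_comap (σ : Equiv.Perm ℕ) (G : SimpleGraph ℕ) (S : Finset ℕ) (F : Finset (Sym2 ℕ)) :
    ustContains G (S.map σ.toEmbedding) (F.map (symE σ).toEmbedding) = ustContains (G.comap σ) S F := by
  rw [ust_eq_cnt, ust_eq_cnt, edgesIn_comap]
  have h1 := cnt_map (symE σ) (treeW_comap σ G S) (edgesIn (G.comap σ) S) F ∅
  have h2 := cnt_map (symE σ) (treeW_comap σ G S) (edgesIn (G.comap σ) S) ∅ ∅
  simp only [Finset.map_empty] at h1 h2
  rw [h1, h2]

lemma uPiece_comap (σ : Equiv.Perm ℕ) (G : SimpleGraph ℕ) (F : Finset (Sym2 ℕ)) (S : Finset ℕ) :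
    uPiece G (F.map (symE σ).toEmbedding) (S.map σ.toEmbedding) = uPiece (G.comap σ) F S := by
  classical
  unfold uPiece
  have h1 := (inducedIso σ G S).connected_iff
  have h2 : F.map (symE σ).toEmbedding ⊆ edgesIn G (S.map σ.toEmbedding) ↔ F ⊆ edgesIn (G.comap σ) S := by
    rw [edgesIn_comap, Finset.map_subset_map]
  simp only [← h1, h2, ust_comap]
  congr

lemma edgeSet_comap_subset (σ : Equiv.Perm ℕ) (G : SimpleGraph ℕ) (F : Finset (Sym2 ℕ)) :
    ((F.map (symE σ).toEmbedding : Finset (Sym2 ℕ)) : Set (Sym2 ℕ)) ⊆ G.edgeSet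
      ↔ (F : Set (Sym2 ℕ)) ⊆ (G.comap σ).edgeSet := by
  have hmem : ∀ e : Sym2 ℕ, symE σ e ∈ G.edgeSet ↔ e ∈ (G.comap σ).edgeSet := by
    intro e
    induction e using Sym2.ind with
    | _ a b => simp
  constructor
  · intro h e he
    rw [← hmem]
    exact h (Finset.mem_coe.mpr (Finset.mem_map_of_mem _ (Finset.mem_coe.mp he)))
  · intro h e he
    obtain ⟨c, hc, rfl⟩ := Finset.mem_map.mp (Finset.mem_coe.mp he)
    exact (hmem c).mpr (h (Finset.mem_coe.mpr hc))

lemma uG_comap (σ : Equiv.Perm ℕ) (G : SimpleGraph ℕ) (F : Finset (Sym2 ℕ)) :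
    uG G (F.map (symE σ).toEmbedding) = uG (G.comap σ) F := by
  classical
  unfold uG
  simp only [edgeSet_comap_subset]
  split_ifs
  · symm
    apply Equiv.iInf_congr (Equiv.finsetCongr σ)
    intro S
    exact uPiece_comap σ G F S
  · rfl

lemma cG_comap (σ : Equiv.Perm ℕ) (G : SimpleGraph ℕ) (W A : Finset (Sym2 ℕ)) :
    cG G (W.map (symE σ).toEmbedding) (A.map (symE σ).toEmbedding) = cG (G.comap σ) W A := by
  unfold cG
  rw [← Finset.map_sdiff]
  symm
  refine Finset.sum_bij' (fun C _ => C.map (symE σ).toEmbedding)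
    (fun C _ => C.map (symE σ).symm.toEmbedding) ?_ ?_ ?_ ?_ ?_
  · intro C hC
    rw [Finset.mem_powerset] at hC ⊢
    exact Finset.map_subset_map.mpr hC
  · intro C hC
    rw [Finset.mem_powerset] at hC ⊢
    intro x hx
    obtain ⟨y, hy, rfl⟩ := Finset.mem_map.mp hx
    obtain ⟨z, hz, rfl⟩ := Finset.mem_map.mp (hC hy)
    simpa using hz
  · intro C _
    ext x
    simp
  · intro C _
    ext x
    simp
  · intro C _
    rw [Finset.card_map, ← Finset.map_union, uG_comap]

/-- Pieces with the same edges have the same values. -/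
lemma uPiece_congr {G G' : SimpleGraph ℕ} {S : Finset ℕ} (h : ∀ a ∈ S, ∀ b ∈ S, G.Adj a b ↔ G'.Adj a b)
    (F : Finset (Sym2 ℕ)) : uPiece G F S = uPiece G' F S := by
  have he : edgesIn G S = edgesIn G' S := by
    ext e
    induction e using Sym2.ind with
    | _ a b =>
      rw [mk_mem_edgesIn, mk_mem_edgesIn]
      constructor
      · rintro ⟨ha, hb, hab⟩
        exact ⟨ha, hb, (h a ha b hb).mp hab⟩
      · rintro ⟨ha, hb, hab⟩
        exact ⟨ha, hb, (h a ha b hb).mpr hab⟩
  have hi : G.induce (S : Set ℕ) = G'.induce (S : Set ℕ) := by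
    ext a b
    exact h a.1 a.2 b.1 b.2
  have ht : treeW G S = treeW G' S := by
    funext A
    unfold treeW IsSpanningTreeOn
    rw [he]
  classical
  unfold uPiece
  simp only [hi, he, ust_eq_cnt, ht]

lemma gT_adj_congr {t t' : ℕ → ℕ → Bool} {S : Finset ℕ} (h : ∀ a ∈ S, ∀ b ∈ S, t a b = t' a b) :
    ∀ a ∈ S, ∀ b ∈ S, (gT t).Adj a b ↔ (gT t').Adj a b := by
  intro a ha b hb
  rw [gT_adj, gT_adj, h a ha b hb, h b hb a ha]

lemma measurable_uPiece (F : Finset (Sym2 ℕ)) (S : Finset ℕ) :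
    Measurable (fun t : ℕ → ℕ → Bool => uPiece (gT t) F S) :=
  measurable_of_dep S _ (fun _ _ h => uPiece_congr (gT_adj_congr h) F)

lemma measurable_uG (F : Finset (Sym2 ℕ)) : Measurable (fun t : ℕ → ℕ → Bool => uG (gT t) F) := by
  unfold uG
  apply Measurable.ite
  · have : {t : ℕ → ℕ → Bool | (F : Set (Sym2 ℕ)) ⊆ (gT t).edgeSet}
        = ⋂ e ∈ F, {t | e ∈ (gT t).edgeSet} := by
      ext t
      simp [Set.subset_def]
    rw [this]
    exact Finset.measurableSet_biInter _ (fun e _ => measurableSet_mem_edgeSet e)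
  · exact Measurable.iInf (fun S => measurable_uPiece F S)
  · exact measurable_const

lemma measurable_cG (W A : Finset (Sym2 ℕ)) : Measurable (fun t : ℕ → ℕ → Bool => cG (gT t) W A) := by
  unfold cG
  apply Finset.measurable_sum
  intro C _
  exact (measurable_uG _).const_mul _

end Crest.Agent.Lib.SR
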