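import Crest.Agent.Lib.SR.TreePoly
import Crest.Agent.Lib.SR.RayleighClass

set_option autoImplicit false

open Crest.ProbabilityR.SpanningTrees Filter Topology

namespace Crest.Agent.Lib.SR

variable {G : SimpleGraph ℕ} {S : Finset ℕ}

open Classical in
lemma cnt_treeW_eq_card (G : SimpleGraph ℕ) (S : Finset ℕ) (F X : Finset (Sym2 ℕ)) :
    cnt (treeW G S) (edgesIn G S) F X
      = (((edgesIn G S).powerset.filter
          (fun A => IsSpanningTreeOn G S A ∧ F ⊆ A ∧ Disjoint A X)).card : ℝ) := by
  unfold cnt treeW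
  rw [Finset.sum_boole]
  congr 2
  ext A
  simp only [Finset.mem_filter]
  tauto

lemma ust_eq_cnt (G : SimpleGraph ℕ) (S : Finset ℕ) (F : Finset (Sym2 ℕ)) :
    ustContains G S F
      = cnt (treeW G S) (edgesIn G S) F ∅ / cnt (treeW G S) (edgesIn G S) ∅ ∅ := by
  classical
  rw [cnt_treeW_eq_card, cnt_treeW_eq_card]
  unfold ustContains
  congr 2
  · congr 1
    ext A
    simp
  · congr 1
    ext A
    simp

lemma cnt_tree_pos (hS : (G.induce (S : Set ℕ)).Connected) :
    0 < cnt (treeW G S) (edgesIn G S) ∅ ∅ := by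
  apply lt_of_le_of_ne (cnt_nonneg (treeW_nonneg G S) _ _ _)
  intro h0
  have hst := stable_treeW G hS
  apply hst (fun _ => Complex.I) (fun _ _ => by simp)
  unfold polyC
  have hzero : ∀ A ∈ (edgesIn G S).powerset, treeW G S A = 0 := by
    have h1 : ∀ A ∈ (edgesIn G S).powerset.filter (fun A => ∅ ⊆ A ∧ Disjoint A ∅),
        treeW G S A = 0 := by
      have := (Finset.sum_eq_zero_iff_of_nonneg (fun A _ => treeW_nonneg G S A)).mp h0.symm
      exact this
    intro A hA
    apply h1
    simp [hA]
  apply Finset.sum_eq_zero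
  intro A hA
  rw [hzero A hA]
  simp

lemma ust_nonneg (G : SimpleGraph ℕ) (S : Finset ℕ) (F : Finset (Sym2 ℕ)) : 0 ≤ ustContains G S F := by
  rw [ust_eq_cnt]
  exact div_nonneg (cnt_nonneg (treeW_nonneg G S) _ _ _) (cnt_nonneg (treeW_nonneg G S) _ _ _)

lemma cnt_le_empty {ι : Type*} [DecidableEq ι] {μ : Finset ι → ℝ} (hμ : ∀ S, 0 ≤ μ S)
    (E F : Finset ι) : cnt μ E F ∅ ≤ cnt μ E ∅ ∅ := by
  unfold cnt
  apply Finset.sum_le_sum_of_subset_of_nonneg
  · intro A hA
    simp only [Finset.mem_filter] at hA ⊢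
    exact ⟨hA.1, Finset.empty_subset _, hA.2.2⟩
  · exact fun A _ _ => hμ A

lemma ust_le_one (G : SimpleGraph ℕ) (S : Finset ℕ) (F : Finset (Sym2 ℕ)) : ustContains G S F ≤ 1 := by
  rw [ust_eq_cnt]
  exact div_le_one_of_le₀ (cnt_le_empty (treeW_nonneg G S) _ _) (cnt_nonneg (treeW_nonneg G S) _ _ _)

lemma ust_eq_zero_of_not_subset {F : Finset (Sym2 ℕ)} (hF : ¬ F ⊆ edgesIn G S) :
    ustContains G S F = 0 := by
  rw [ust_eq_cnt]
  have : cnt (treeW G S) (edgesIn G S) F ∅ = 0 := by
    unfold cnt
    apply Finset.sum_eq_zero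
    intro A hA
    simp only [Finset.mem_filter, Finset.mem_powerset] at hA
    exact absurd (hA.2.1.trans hA.1) hF
  rw [this, zero_div]

/-- Trees of the small piece against trees of the big piece avoiding the other edges at `v`. -/
lemma cnt_atV {u v : ℕ} (hv : v ∉ S) (hu : u ∈ S) (huv : G.Adj u v) {F : Finset (Sym2 ℕ)}
    (hF : F ⊆ edgesIn G S) :
    cnt (treeW G (insert v S)) (edgesIn G (insert v S)) F (atV G S u v)
      = cnt (treeW G S) (edgesIn G S) F ∅ := by
  classical
  rw [cnt_treeW_eq_card, cnt_treeW_eq_card]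
  congr 1
  refine Finset.card_bij' (fun A _ => A.erase s(u, v)) (fun A _ => insert s(u, v) A) ?_ ?_ ?_ ?_
  · intro A hA
    simp only [Finset.mem_filter, Finset.mem_powerset] at hA ⊢
    obtain ⟨_, htree, hFA, hdis⟩ := hA
    have ht := tree_erase hv hu htree hdis
    refine ⟨(isSpanningTreeOn_iff.mp ht).1, ht, ?_, Finset.disjoint_empty_right _⟩
    intro e he
    refine Finset.mem_erase.mpr ⟨?_, hFA he⟩
    rintro rfl
    exact g1_not_mem hv hF he
  · intro A hA
    simp only [Finset.mem_filter, Finset.mem_powerset] at hA ⊢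
    obtain ⟨_, htree, hFA, _⟩ := hA
    obtain ⟨ht, hdis⟩ := tree_insert hv hu huv htree
    exact ⟨(isSpanningTreeOn_iff.mp ht).1, ht, hFA.trans (Finset.subset_insert _ _), hdis⟩
  · intro A hA
    simp only [Finset.mem_filter, Finset.mem_powerset] at hA
    exact Finset.insert_erase (g1_mem_of_tree hv hu hA.2.1 hA.2.2.2)
  · intro A hA
    simp only [Finset.mem_filter, Finset.mem_powerset] at hA
    exact Finset.erase_insert (g1_not_mem hv hA.1)

/-- Adding a vertex lowers the probability of containing `F`. -/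
theorem ust_insert_le {u v : ℕ} (hv : v ∉ S) (hu : u ∈ S) (huv : G.Adj u v)
    (hS : (G.induce (S : Set ℕ)).Connected) {F : Finset (Sym2 ℕ)} (hF : F ⊆ edgesIn G S) :
    ustContains G (insert v S) F ≤ ustContains G S F := by
  have hS' := connected_insert hu huv hS
  have hst := stable_treeW G hS'
  have hex := exclusion (treeW_nonneg G (insert v S)) hst
    (hF.trans (edgesIn_mono G (Finset.subset_insert _ _))) (atV_subset (u := u))
    (disjoint_atV hv hF)
  rw [cnt_atV hv hu huv hF, cnt_atV hv hu huv (Finset.empty_subset _)] at hex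
  rw [ust_eq_cnt, ust_eq_cnt, div_le_div_iff₀ (cnt_tree_pos hS') (cnt_tree_pos hS)]
  exact hex

/-- Monotonicity of the tree probabilities in the piece. -/
theorem ust_mono {S S' : Finset ℕ} (hS : (G.induce (S : Set ℕ)).Connected)
    (hS' : (G.induce (S' : Set ℕ)).Connected) (hsub : S ⊆ S') {F : Finset (Sym2 ℕ)}
    (hF : F ⊆ edgesIn G S) : ustContains G S' F ≤ ustContains G S F := by
  classical
  induction hn : (S' \ S).card generalizing S with
  | zero =>
    have : S' \ S = ∅ := Finset.card_eq_zero.mp hn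
    have h2 : S' ⊆ S := Finset.sdiff_eq_empty_iff_subset.mp this
    rw [Finset.Subset.antisymm hsub h2]
  | succ n ih =>
    have hne : S ≠ S' := by
      rintro rfl
      simp at hn
    obtain ⟨⟨r, hr⟩⟩ := hS.nonempty
    obtain ⟨u, v, hu, hv', hv, huv⟩ := exists_adj_outside hsub ⟨r, hr⟩ hS' hne
    have hS1 := connected_insert hu huv hS
    have hsub1 : insert v S ⊆ S' := Finset.insert_subset hv' hsub
    have hcard : (S' \ insert v S).card = n := by
      have : S' \ S = insert v (S' \ insert v S) := by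
        ext w
        simp only [Finset.mem_sdiff, Finset.mem_insert]
        constructor
        · rintro ⟨h1, h2⟩
          by_cases hw : w = v
          · exact Or.inl hw
          · exact Or.inr ⟨h1, by tauto⟩
        · rintro (rfl | ⟨h1, h2⟩)
          · exact ⟨hv', hv⟩
          · exact ⟨h1, by tauto⟩
      rw [this, Finset.card_insert_of_notMem (by simp)] at hn
      omega
    have h1 := ih hS1 hsub1 (hF.trans (edgesIn_mono G (Finset.subset_insert _ _))) hcard
    exact h1.trans (ust_insert_le hv hu huv hS hF)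

open Classical in
/-- The value on one piece entering the infimum. -/
noncomputable def uPiece (G : SimpleGraph ℕ) (F : Finset (Sym2 ℕ)) (S : Finset ℕ) : ℝ :=
  if (G.induce (S : Set ℕ)).Connected ∧ F ⊆ edgesIn G S then ustContains G S F else 1

open Classical in
/-- The limiting probability that the free forest contains `F`. -/
noncomputable def uG (G : SimpleGraph ℕ) (F : Finset (Sym2 ℕ)) : ℝ :=
  if (F : Set (Sym2 ℕ)) ⊆ G.edgeSet then ⨅ S, uPiece G F S else 0

lemma uPiece_nonneg (G : SimpleGraph ℕ) (F : Finset (Sym2 ℕ)) (S : Finset ℕ) : 0 ≤ uPiece G F S := by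
  unfold uPiece
  split_ifs
  · exact ust_nonneg _ _ _
  · exact zero_le_one

lemma bddBelow_uPiece (G : SimpleGraph ℕ) (F : Finset (Sym2 ℕ)) : BddBelow (Set.range (uPiece G F)) :=
  ⟨0, by rintro _ ⟨S, rfl⟩; exact uPiece_nonneg G F S⟩

lemma exists_subset_of_exhaust {S : ℕ → Finset ℕ} (hS : Monotone S) (hex : ∀ v, ∃ n, v ∈ S n)
    (T : Finset ℕ) : ∃ n, T ⊆ S n := by
  classical
  induction T using Finset.induction_on with
  | empty => exact ⟨0, Finset.empty_subset _⟩
  | insert a T _ ih =>
    obtain ⟨n, hn⟩ := ih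
    obtain ⟨m, hm⟩ := hex a
    refine ⟨max n m, Finset.insert_subset (hS (le_max_right _ _) hm) (hn.trans (hS (le_max_left _ _)))⟩

lemma exists_edges_subset {S : ℕ → Finset ℕ} (hS : Monotone S) (hex : ∀ v, ∃ n, v ∈ S n)
    {F : Finset (Sym2 ℕ)} (hF : (F : Set (Sym2 ℕ)) ⊆ G.edgeSet) : ∃ n, F ⊆ edgesIn G (S n) := by
  classical
  induction F using Finset.induction_on with
  | empty => exact ⟨0, Finset.empty_subset _⟩
  | insert e F _ ih =>
    obtain ⟨n, hn⟩ := ih (fun x hx => hF (by simp [Finset.mem_coe.mp hx]))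
    have he : e ∈ G.edgeSet := hF (by simp)
    induction e using Sym2.ind with
    | _ a b =>
      obtain ⟨m, hm⟩ := exists_subset_of_exhaust hS hex {a, b}
      refine ⟨max n m, Finset.insert_subset ?_ (hn.trans (edgesIn_mono G (hS (le_max_left _ _))))⟩
      apply mk_mem_edgesIn.mpr
      have hab : a ∈ S m ∧ b ∈ S m := ⟨hm (by simp), hm (by simp)⟩
      exact ⟨hS (le_max_right _ _) hab.1, hS (le_max_right _ _) hab.2, he⟩

/-- **Limit along exhaustions.** -/
theorem tendsto_ust {S : ℕ → Finset ℕ} (hS : Monotone S) (hex : ∀ v, ∃ n, v ∈ S n)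
    (hconn : ∀ n, (G.induce (S n : Set ℕ)).Connected) (F : Finset (Sym2 ℕ)) :
    Tendsto (fun n => ustContains G (S n) F) atTop (𝓝 (uG G F)) := by
  classical
  by_cases hF : (F : Set (Sym2 ℕ)) ⊆ G.edgeSet
  · obtain ⟨N, hN⟩ := exists_edges_subset hS hex hF
    have hFn : ∀ n, F ⊆ edgesIn G (S (n + N)) := fun n =>
      hN.trans (edgesIn_mono G (hS (by omega)))
    have hanti : Antitone (fun n => ustContains G (S (n + N)) F) := by
      apply antitone_nat_of_succ_le
      intro n
      have hs : S (n + N) ⊆ S (n + 1 + N) := hS (by omega)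
      exact ust_mono (hconn _) (hconn _) hs (hFn n)
    have hbdd : BddBelow (Set.range (fun n => ustContains G (S (n + N)) F)) :=
      ⟨0, by rintro _ ⟨n, rfl⟩; exact ust_nonneg _ _ _⟩
    have hlim := tendsto_atTop_ciInf hanti hbdd
    have hval : (⨅ n, ustContains G (S (n + N)) F) = uG G F := by
      unfold uG
      rw [if_pos hF]
      apply le_antisymm
      · apply le_ciInf
        intro T
        unfold uPiece
        split_ifs with hT
        · obtain ⟨n, hn⟩ := exists_subset_of_exhaust hS hex T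
          have h1 : T ⊆ S (n + N) := hn.trans (hS (by omega))
          calc (⨅ n, ustContains G (S (n + N)) F) ≤ ustContains G (S (n + N)) F :=
                ciInf_le hbdd n
            _ ≤ ustContains G T F := ust_mono hT.1 (hconn _) h1 hT.2
        · exact (ciInf_le hbdd 0).trans (ust_le_one _ _ _)
      · apply le_ciInf
        intro n
        have : uPiece G F (S (n + N)) = ustContains G (S (n + N)) F := by
          unfold uPiece
          rw [if_pos ⟨hconn _, hFn n⟩]
        rw [← this]
        exact ciInf_le (bddBelow_uPiece G F) _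
    rw [hval] at hlim
    exact (tendsto_add_atTop_iff_nat N).mp hlim
  · have : uG G F = 0 := by
      unfold uG
      rw [if_neg hF]
    rw [this]
    have h0 : ∀ n, ustContains G (S n) F = 0 := by
      intro n
      apply ust_eq_zero_of_not_subset
      intro h
      apply hF
      intro e he
      exact (mem_edgesIn.mp (h he)).2
    simp [h0]

end Crest.Agent.Lib.SR
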