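import Crest.Agent.Lib.SR.UstEquiv
import Crest.Agent.Lib.SR.Assembly

set_option autoImplicit false

open MeasureTheory Set Filter Topology

namespace Crest.Agent.Lib.SR

section comap

variable (σ : Equiv.Perm ℕ) (G : SimpleGraph ℕ)

lemma mem_ball_comap (u n w : ℕ) : w ∈ ball (G.comap σ) u n ↔ σ w ∈ ball G (σ u) n := by
  induction n generalizing w with
  | zero =>
    simp only [ball, Set.mem_singleton_iff]
    exact σ.injective.eq_iff.symm
  | succ n ih =>
    simp only [ball, Set.mem_union, Set.mem_ofPred_eq, SimpleGraph.comap_adj]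
    rw [ih]
    apply or_congr Iff.rfl
    constructor
    · rintro ⟨y, hy, hadj⟩
      exact ⟨σ y, (ih y).mp hy, hadj⟩
    · rintro ⟨y, hy, hadj⟩
      refine ⟨σ.symm y, (ih _).mpr (by simpa using hy), by simpa using hadj⟩

lemma finsetOf_preimage (s : Set ℕ) : finsetOf (σ ⁻¹' s) = (finsetOf s).map σ.symm.toEmbedding := by
  by_cases hs : s.Finite
  · have hs' : (σ ⁻¹' s).Finite := hs.preimage σ.injective.injOn
    apply Finset.coe_injective
    rw [coe_finsetOf hs', Finset.coe_map, coe_finsetOf hs]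
    ext w
    simp
  · have hs' : ¬ (σ ⁻¹' s).Finite := by
      intro h
      apply hs
      have := h.image σ
      rwa [Set.image_preimage_eq _ σ.surjective] at this
    unfold finsetOf
    simp [hs, hs']

end comap

section windows

/-- The vertices within distance `n` of a pair. -/
noncomputable def ballE (G : SimpleGraph ℕ) (e : Sym2 ℕ) (n : ℕ) : Finset ℕ :=
  finsetOf {w | ∃ a ∈ e, w ∈ ball G a n}

/-- The window around a pair. -/
noncomputable def wnd (G : SimpleGraph ℕ) (e : Sym2 ℕ) (n : ℕ) : Finset (Sym2 ℕ) := (ballE G e n).sym2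

lemma ballE_set_finite {G : SimpleGraph ℕ} (hG : ∀ v, (G.neighborSet v).Finite) (e : Sym2 ℕ) (n : ℕ) :
    {w | ∃ a ∈ e, w ∈ ball G a n}.Finite := by
  induction e using Sym2.ind with
  | _ a b =>
    apply ((ball_finite hG a n).union (ball_finite hG b n)).subset
    rintro w ⟨c, hc, hw⟩
    rcases Sym2.mem_iff.mp hc with rfl | rfl
    · exact Or.inl hw
    · exact Or.inr hw

lemma mem_ballE {G : SimpleGraph ℕ} (hG : ∀ v, (G.neighborSet v).Finite) {e : Sym2 ℕ} {n w : ℕ} :
    w ∈ ballE G e n ↔ ∃ a ∈ e, w ∈ ball G a n :=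
  mem_finsetOf (ballE_set_finite hG e n)

lemma ballE_mono {G : SimpleGraph ℕ} (hG : ∀ v, (G.neighborSet v).Finite) (e : Sym2 ℕ) :
    Monotone (ballE G e) := by
  intro m n hmn w hw
  rw [mem_ballE hG] at hw ⊢
  obtain ⟨a, ha, hw⟩ := hw
  exact ⟨a, ha, ball_mono G a hmn hw⟩

lemma wnd_mono {G : SimpleGraph ℕ} (hG : ∀ v, (G.neighborSet v).Finite) (e : Sym2 ℕ) :
    Monotone (wnd G e) := fun _ _ hmn => Finset.sym2_mono (ballE_mono hG e hmn)

lemma mem_wnd_self {G : SimpleGraph ℕ} (hG : ∀ v, (G.neighborSet v).Finite) (e : Sym2 ℕ) (n : ℕ) :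
    e ∈ wnd G e n := by
  unfold wnd
  rw [Finset.mem_sym2_iff]
  intro a ha
  rw [mem_ballE hG]
  exact ⟨a, ha, self_mem_ball G a n⟩

lemma exists_mem_wnd {G : SimpleGraph ℕ} (hG : Good G) (e c : Sym2 ℕ) : ∃ n, c ∈ wnd G e n := by
  obtain ⟨a, ha⟩ : ∃ a, a ∈ e := by
    induction e using Sym2.ind with
    | _ a b => exact ⟨a, Sym2.mem_mk_left a b⟩
  induction c using Sym2.ind with
  | _ x y =>
    obtain ⟨n₁, hn₁⟩ := exists_mem_ball_of_reachable (hG.1.preconnected a x)
    obtain ⟨n₂, hn₂⟩ := exists_mem_ball_of_reachable (hG.1.preconnected a y)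
    refine ⟨max n₁ n₂, ?_⟩
    unfold wnd
    rw [Finset.mk_mem_sym2_iff, mem_ballE hG.2, mem_ballE hG.2]
    exact ⟨⟨a, ha, ball_mono G a (le_max_left _ _) hn₁⟩, ⟨a, ha, ball_mono G a (le_max_right _ _) hn₂⟩⟩

lemma measurableSet_ballE (e : Sym2 ℕ) (n : ℕ) (s : Finset ℕ) :
    MeasurableSet {t : ℕ → ℕ → Bool | ballE (gT t) e n = s} := by
  apply measurableSet_finsetOf
  intro w
  have : {t : ℕ → ℕ → Bool | w ∈ {w | ∃ a ∈ e, w ∈ ball (gT t) a n}}
      = ⋃ a : ℕ, ({_t | a ∈ e} ∩ {t | w ∈ ball (gT t) a n}) := by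
    ext t
    simp only [Set.mem_ofPred_eq, mem_iUnion, mem_inter_iff]
  rw [this]
  exact MeasurableSet.iUnion (fun a => (MeasurableSet.const _).inter (measurableSet_mem_ball a w n))

lemma ballE_comap (σ : Equiv.Perm ℕ) (G : SimpleGraph ℕ) (e : Sym2 ℕ) (n : ℕ) :
    ballE G (symE σ e) n = (ballE (G.comap σ) e n).map σ.toEmbedding := by
  unfold ballE
  have h1 : {w | ∃ a ∈ e, w ∈ ball (G.comap σ) a n}
      = σ ⁻¹' {w | ∃ a ∈ symE σ e, w ∈ ball G a n} := by
    ext w
    simp only [Set.mem_ofPred_eq, Set.mem_preimage, mem_ball_comap]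
    induction e using Sym2.ind with
    | _ a b =>
      simp only [symE_mk, Sym2.mem_iff]
      constructor
      · rintro ⟨c, rfl | rfl, h⟩
        · exact ⟨_, Or.inl rfl, h⟩
        · exact ⟨_, Or.inr rfl, h⟩
      · rintro ⟨c, rfl | rfl, h⟩
        · exact ⟨_, Or.inl rfl, h⟩
        · exact ⟨_, Or.inr rfl, h⟩
  rw [h1, finsetOf_preimage]
  ext w
  simp

lemma wnd_comap (σ : Equiv.Perm ℕ) (G : SimpleGraph ℕ) (e : Sym2 ℕ) (n : ℕ) :
    wnd G (symE σ e) n = (wnd (G.comap σ) e n).map (symE σ).toEmbedding := by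
  unfold wnd
  rw [ballE_comap, Finset.sym2_map]
  rfl

end windows

section mean

variable {ι : Type*} [DecidableEq ι]

lemma meanTilt_congr_weight {μ μ' : Finset ι → ℝ} {W : Finset ι} (h : ∀ A ∈ W.powerset, μ A = μ' A)
    (i : ι) (g : ι → ℝ) : meanTilt μ W i g = meanTilt μ' W i g := by
  unfold meanTilt polyR
  congr 1
  · apply Finset.sum_congr rfl
    intro S hS
    simp only [h S hS]
  · apply Finset.sum_congr rfl
    intro S hS
    rw [h S hS]

lemma measurable_meanTilt_param {Θ : Type*} [MeasurableSpace Θ] {μ : Θ → Finset ι → ℝ}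
    (hμ : ∀ A, Measurable (fun θ => μ θ A)) (W : Finset ι) (i : ι) :
    Measurable (fun p : Θ × (ι → ℝ) => meanTilt (μ p.1) W i p.2) := by
  have hprod : ∀ S : Finset ι, Measurable (fun p : Θ × (ι → ℝ) => ∏ j ∈ S, Real.exp (p.2 j)) := by
    intro S
    apply Finset.measurable_prod
    intro j _
    exact Real.measurable_exp.comp ((measurable_pi_apply j).comp measurable_snd)
  unfold meanTilt polyR
  apply Measurable.div
  · apply Finset.measurable_sum
    intro S _
    apply Measurable.mul _ (hprod S)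
    by_cases hi : i ∈ S
    · simp only [hi, if_true]
      exact (hμ S).comp measurable_fst
    · simp only [hi, if_false]
      exact measurable_const
  · apply Finset.measurable_sum
    intro S _
    exact ((hμ S).comp measurable_fst).mul (hprod S)

end mean

/-- The conditional means of the free forest, as a function of the graph. -/
noncomputable def aG (G : SimpleGraph ℕ) (e : Sym2 ℕ) (h : Sym2 ℕ → ℝ) : ℝ :=
  limsup (fun n => meanTilt (cG G (wnd G e n)) (wnd G e n) e h) atTop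

lemma measurable_aG (e : Sym2 ℕ) :
    Measurable (fun p : (ℕ → ℕ → Bool) × (Sym2 ℕ → ℝ) => aG (gT p.1) e p.2) := by
  unfold aG
  apply Measurable.limsup
  intro n
  have hsel := measurable_select (Θ := (ℕ → ℕ → Bool) × (Sym2 ℕ → ℝ)) (β := ℝ)
    (fun p => ballE (gT p.1) e n)
    (fun s => measurable_fst (measurableSet_ballE e n s))
    (fun s p => meanTilt (cG (gT p.1) s.sym2) s.sym2 e p.2)
    (fun s => measurable_meanTilt_param (fun A => measurable_cG s.sym2 A) s.sym2 e)
  exact hsel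

lemma aG_comap (σ : Equiv.Perm ℕ) (G : SimpleGraph ℕ) (e : Sym2 ℕ) (h : Sym2 ℕ → ℝ) :
    aG G (symE σ e) (h ∘ (symE σ).symm) = aG (G.comap σ) e h := by
  unfold aG
  congr 1
  funext n
  rw [wnd_comap]
  exact meanTilt_map (symE σ) (fun A => cG_comap σ G _ A) _ e h

/-- The conditional means are those of the free forest. -/
lemma aG_eq_limsup {G : SimpleGraph ℕ} {ν : Measure (Sym2 ℕ → Bool)} [IsProbabilityMeasure ν]
    (hν : ∀ F, (ν (allTrue F)).toReal = uG G F) (e : Sym2 ℕ) (h : Sym2 ℕ → ℝ) :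
    aG G e h = limsup (fun n => aW ν (wnd G e n) e h) atTop := by
  unfold aG aW
  congr 1
  funext n
  apply meanTilt_congr_weight
  intro A hA
  exact (massW_eq_cG hν (Finset.mem_powerset.mp hA)).symm

end Crest.Agent.Lib.SR
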